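import Vale.Agent.P143.Flow

/-! The factor map of a consistent family and its law. -/

namespace Vale.Agent.P143

open Finset MeasureTheory ProbabilityTheory Filter Topology
open scoped Classical

variable {E : Type*}

noncomputable def err (p : Finset E → Finset E → ℝ) (S S' : Finset E) (e : E) (j : ℕ) : ℝ :=
  ∫ ξ, |Xl S (p S) j ξ e - Xl S' (p S') j ξ e| ∂gam E

noncomputable def rad (p : Finset E → Finset E → ℝ) (B : E → ℕ → Finset E) (e : E) (j : ℕ) : ℕ :=
  sInf {r | ∀ r', r ≤ r' → err p (B e r) (B e r') e j ≤ hh j}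

noncomputable def Yv (p : Finset E → Finset E → ℝ) (B : E → ℕ → Finset E) (ξ : E → ℝ) (e : E)
    (j : ℕ) : ℝ :=
  Xl (B e (rad p B e j)) (p (B e (rad p B e j))) j ξ e - j / 2

/-- The factor map. -/
def psi (p : Finset E → Finset E → ℝ) (B : E → ℕ → Finset E) (ξ : E → ℝ) (e : E) : Prop :=
  ∃ J : ℕ, ∀ j, J ≤ j → 0 < Yv p B ξ e j

def Exh (B : E → ℕ → Finset E) : Prop := ∀ e S, ∃ r0, ∀ r, r0 ≤ r → S ⊆ B e r

variable {p : Finset E → Finset E → ℝ} {B : E → ℕ → Finset E}

lemma integrable_Xl_sub (hp : Good p) (S S' : Finset E) (e : E) (j : ℕ) :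
    Integrable (fun ξ => |Xl S (p S) j ξ e - Xl S' (p S') j ξ e|) (gam E) :=
  (integrable_of_bdd ((measurable_Xl _ _ _ _).sub (measurable_Xl _ _ _ _))
    fun ξ => abs_Xl_sub_le (hp.pv S) (hp.lip S) (hp.pv S') (hp.lip S') j e ξ).abs

lemma approx (hp : Good p) (hB : Exh B) (e : E) (j : ℕ) : ∃ S0 : Finset E, ∀ S, S0 ⊆ S →
    err p (B e (rad p B e j)) S e j ≤ 2 * hh j := by
  obtain ⟨S0, hS0⟩ := cauchy_Xl hp e j (hh_pos j)
  obtain ⟨r0, hr0⟩ := hB e S0
  have hne : {r | ∀ r', r ≤ r' → err p (B e r) (B e r') e j ≤ hh j}.Nonempty :=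
    ⟨r0, fun r' hr' => hS0 _ _ (hr0 _ le_rfl) (hr0 _ hr')⟩
  have h1 : err p (B e (rad p B e j)) (B e (max (rad p B e j) r0)) e j ≤ hh j :=
    Nat.sInf_mem hne (max (rad p B e j) r0) (le_max_left _ _)
  refine ⟨S0, fun S hS => ?_⟩
  have h2 : err p (B e (max (rad p B e j) r0)) S e j ≤ hh j :=
    hS0 _ _ (hr0 _ (le_max_right (rad p B e j) r0)) hS
  have h3 : err p (B e (rad p B e j)) S e j ≤
      err p (B e (rad p B e j)) (B e (max (rad p B e j) r0)) e j +
      err p (B e (max (rad p B e j) r0)) S e j := by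
    unfold err
    rw [← integral_add (integrable_Xl_sub hp _ _ _ _) (integrable_Xl_sub hp _ _ _ _)]
    exact integral_mono (integrable_Xl_sub hp _ _ _ _)
      ((integrable_Xl_sub hp _ _ _ _).add (integrable_Xl_sub hp _ _ _ _))
      fun ξ => abs_sub_le _ _ _
  linarith

noncomputable def bt (y : ℝ) : ℝ := if 0 < y then 1 else 0

noncomputable def FF (z : ℝ) : ℝ := Real.sigmoid z * (1 - Real.sigmoid z)

noncomputable def c0 : ℝ := (Real.sigmoid (-2) * Real.sigmoid (-2))⁻¹

lemma c0_pos : 0 < c0 := inv_pos.2 (mul_pos (Real.sigmoid_pos _) (Real.sigmoid_pos _))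

lemma FF_nonneg (z : ℝ) : 0 ≤ FF z :=
  mul_nonneg (Real.sigmoid_pos _).le (sub_nonneg.2 (Real.sigmoid_le_one _))

lemma bt_sub_le {y y' z z' : ℝ} (h : |z' - z| ≤ 1 / 2) :
    |bt y - bt y'| ≤ c0 * FF z + 2 * |y - z| + 2 * |y' - z'| := by
  have h0 := mul_nonneg c0_pos.le (FF_nonneg z)
  have h1 := abs_nonneg (y - z)
  have h2 := abs_nonneg (y' - z')
  have hb : |bt y - bt y'| ≤ 1 := by unfold bt; split_ifs <;> norm_num
  by_cases hz : |z| ≤ 2
  · have a1 : Real.sigmoid (-2) ≤ Real.sigmoid z := Real.sigmoid_le (abs_le.1 hz).1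
    have a2 : Real.sigmoid (-2) ≤ 1 - Real.sigmoid z := by
      rw [← Real.sigmoid_neg]; exact Real.sigmoid_le (neg_le_neg (abs_le.1 hz).2)
    have a3 : 1 ≤ c0 * FF z := by
      rw [c0, inv_mul_eq_div, one_le_div (mul_pos (Real.sigmoid_pos _) (Real.sigmoid_pos _))]
      exact mul_le_mul a1 a2 (Real.sigmoid_pos _).le (Real.sigmoid_pos _).le
    linarith
  by_cases a1 : 1 / 2 ≤ |y - z|
  · linarith
  by_cases a2 : 1 / 2 ≤ |y' - z'|
  · linarith
  have a3 := abs_lt.1 (not_le.1 a1)
  have a4 := abs_lt.1 (not_le.1 a2)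
  have a5 := abs_le.1 h
  have : bt y = bt y' := by
    rcases lt_abs.1 (not_le.1 hz) with a6 | a6
    · rw [bt, bt, if_pos (by linarith), if_pos (by linarith)]
    · rw [bt, bt, if_neg (by linarith), if_neg (by linarith)]
  rw [this, sub_self, abs_zero]; positivity

lemma bt_sigmoid_le (y z : ℝ) : |bt y - Real.sigmoid z| ≤ (c0 + 2) * FF z + 2 * |y - z| := by
  have h1 := bt_sub_le (y := y) (y' := z) (z := z) (z' := z) (by norm_num)
  have h2 : |bt z - Real.sigmoid z| ≤ 2 * FF z := by
    have a1 := Real.sigmoid_pos z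
    have a2 := Real.sigmoid_lt_one z
    unfold bt FF
    split_ifs with hz
    · have : Real.sigmoid 0 ≤ Real.sigmoid z := Real.sigmoid_le hz.le
      rw [Real.sigmoid_zero] at this
      rw [abs_le]; constructor <;> nlinarith
    · have : Real.sigmoid z ≤ Real.sigmoid 0 := Real.sigmoid_le (not_lt.1 hz)
      rw [Real.sigmoid_zero] at this
      rw [abs_le]; constructor <;> nlinarith
  have h3 := abs_sub_le (bt y) (bt z) (Real.sigmoid z)
  simp only [sub_self, abs_zero] at h1
  linarith

lemma sigmoid_le_exp (t : ℝ) : Real.sigmoid t ≤ Real.exp t := by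
  rw [Real.sigmoid_def, Real.exp_neg, inv_le_comm₀ (by positivity) (Real.exp_pos _)]
  linarith

noncomputable def dl (j : ℕ) : ℝ := Real.exp (1 / 2) * Real.exp (-1 / 2) ^ j

lemma dl_pos (j : ℕ) : 0 < dl j := by unfold dl; positivity

lemma summable_dl : Summable dl :=
  (summable_geometric_of_lt_one (Real.exp_pos _).le
    (Real.exp_lt_one_iff.2 (by norm_num))).mul_left _

lemma summable_hh : Summable hh := summable_geometric_of_lt_one (by norm_num) (by norm_num)

lemma integral_exp_coord (e : E) (s : ℝ) :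
    Integrable (fun ξ : E → ℝ => Real.exp (s * ξ e)) (gam E) ∧
    ∫ ξ, Real.exp (s * ξ e) ∂gam E = Real.exp (s ^ 2 / 2) := by
  have hm := measurePreserving_eval_infinitePi (fun _ : E => gaussianReal 0 1) e
  refine ⟨(hm.integrable_comp (by fun_prop)).2 (integrable_exp_mul_gaussianReal s), ?_⟩
  have := mgf_gaussianReal hm.map_eq s
  simpa [mgf, gam] using this

lemma dev_le (A : Finset E) (e : E) (j : ℕ) :
    ∫ ξ, |Real.sigmoid (sh j A ξ e - j / 2) - one A e| ∂gam E ≤ dl j := by
  have key : ∀ s : ℝ, s ^ 2 = 1 → (∀ ξ : E → ℝ, |Real.sigmoid (sh j A ξ e - j / 2) - one A e| ≤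
      Real.exp (s * ξ e - j / 2)) →
      ∫ ξ, |Real.sigmoid (sh j A ξ e - j / 2) - one A e| ∂gam E ≤ dl j := by
    intro s hs h
    obtain ⟨i1, i2⟩ := integral_exp_coord e s
    calc _ ≤ ∫ ξ, Real.exp (s * ξ e) * Real.exp (-1 / 2) ^ j ∂gam E := by
          refine integral_mono_of_nonneg (ae_of_all _ fun _ => abs_nonneg _) (i1.mul_const _)
            (ae_of_all _ fun ξ => (h ξ).trans (le_of_eq ?_))
          simp only
          rw [← Real.exp_nat_mul, ← Real.exp_add]; congr 1; ring
      _ = dl j := by rw [integral_mul_const, i2, hs, dl]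
  by_cases he : e ∈ A
  · refine key (-1) (by norm_num) fun ξ => ?_
    simp only [sh, one, he, if_true]
    rw [abs_sub_comm, ← Real.sigmoid_neg, abs_of_pos (Real.sigmoid_pos _)]
    refine (sigmoid_le_exp _).trans (le_of_eq ?_)
    congr 1; ring
  · refine key 1 (by norm_num) fun ξ => ?_
    simp only [sh, one, he, if_false]
    rw [sub_zero, abs_of_pos (Real.sigmoid_pos _)]
    refine (sigmoid_le_exp _).trans (le_of_eq ?_)
    congr 1; ring

lemma measurable_dev (A : Finset E) (e : E) (j : ℕ) :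
    Measurable fun ξ => Real.sigmoid (sh j A ξ e - j / 2) - one A e :=
  (continuous_sigmoid.measurable.comp
    (((measurable_pi_apply e).comp (measurable_sh _ A)).sub_const _)).sub_const _

lemma integrable_dev (A : Finset E) (e : E) (j : ℕ) :
    Integrable (fun ξ => |Real.sigmoid (sh j A ξ e - j / 2) - one A e|) (gam E) := by
  refine (integrable_of_bdd (measurable_dev A e j) (c := 1) fun ξ => ?_).abs
  have a1 := Real.sigmoid_pos (sh j A ξ e - j / 2)
  have a2 := Real.sigmoid_lt_one (sh j A ξ e - j / 2)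
  have a3 := one_nonneg A e
  have a4 := one_le_one A e
  rw [abs_le]; constructor <;> linarith

lemma qr_one_sub_sigmoid {S : Finset E} {e : E} (he : e ∈ S) (c : ℝ) :
    QR S (0 + 1) (fun x => 1 - Real.sigmoid (x e - c)) :=
  QR.const_one.sub (qr_sigmoid he c) fun x => by
    rw [← Real.sigmoid_neg, abs_of_pos (Real.sigmoid_pos _)]; exact Real.sigmoid_le_one _

lemma measurable_FF_Xl (S : Finset E) (q : Finset E → ℝ) (j : ℕ) (e : E) :
    Measurable fun ξ => FF (Xl S q j ξ e - j / 2) := by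
  have : Measurable FF := by
    unfold FF
    exact continuous_sigmoid.measurable.mul (continuous_sigmoid.measurable.const_sub 1)
  exact this.comp ((measurable_Xl _ _ _ _).sub_const _)

lemma integrable_FF_Xl (S : Finset E) (q : Finset E → ℝ) (j : ℕ) (e : E) :
    Integrable (fun ξ => FF (Xl S q j ξ e - j / 2)) (gam E) := by
  refine integrable_of_bdd (measurable_FF_Xl S q j e) (c := 1) fun ξ => ?_
  rw [abs_of_nonneg (FF_nonneg _)]
  exact mul_le_one₀ (Real.sigmoid_le_one _) (sub_nonneg.2 (Real.sigmoid_le_one _))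
    (sub_le_self _ (Real.sigmoid_pos _).le)

lemma integral_FF_le {S : Finset E} {q : Finset E → ℝ} (hq : PV S q) (hl : Lip S q) (j : ℕ)
    {e : E} (he : e ∈ S) : ∫ ξ, FF (Xl S q j ξ e - j / 2) ∂gam E ≤ dl j := by
  have h1 := law_Xl hq hl j ((qr_sigmoid he (j / 2)).mul (qr_one_sub_sigmoid he (j / 2)))
  unfold FF
  rw [h1, nu, nu2]
  calc _ ≤ ∑ A ∈ S.powerset, q A * dl j := by
        refine sum_le_sum fun A _ => mul_le_mul_of_nonneg_left ?_ (hq.nonneg A)
        refine le_trans ?_ (dev_le A e j)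
        refine integral_mono_of_nonneg (ae_of_all _ fun ξ => FF_nonneg _) (integrable_dev A e j)
          (ae_of_all _ fun ξ => ?_)
        have a1 := Real.sigmoid_pos (sh j A ξ e - j / 2)
        have a2 := Real.sigmoid_lt_one (sh j A ξ e - j / 2)
        simp only [one]
        split_ifs
        · rw [abs_sub_comm, abs_of_pos (by linarith)]; nlinarith
        · rw [sub_zero, abs_of_pos a1]; nlinarith
    _ = dl j := by rw [← sum_mul, hq.sum_one, one_mul]

lemma measurable_Yv (p : Finset E → Finset E → ℝ) (B : E → ℕ → Finset E) (e : E) (j : ℕ) :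
    Measurable fun ξ => Yv p B ξ e j := (measurable_Xl _ _ _ _).sub_const _

lemma measurable_bt : Measurable bt :=
  Measurable.ite measurableSet_Ioi measurable_const measurable_const

lemma Yv_sub (S : Finset E) (ξ : E → ℝ) (e : E) (j : ℕ) :
    Yv p B ξ e j - (Xl S (p S) j ξ e - j / 2) =
      Xl (B e (rad p B e j)) (p (B e (rad p B e j))) j ξ e - Xl S (p S) j ξ e := by
  unfold Yv; ring

lemma flip_le (hp : Good p) (hB : Exh B) (e : E) (j : ℕ) :
    (gam E).real {ξ | bt (Yv p B ξ e j) ≠ bt (Yv p B ξ e (j + 1))} ≤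
      c0 * dl j + 4 * hh j + 4 * hh (j + 1) := by
  obtain ⟨S0, hS0⟩ := approx hp hB e j
  obtain ⟨S1, hS1⟩ := approx hp hB e (j + 1)
  set S := insert e (S0 ∪ S1)
  have h0 := hS0 S (subset_union_left.trans (subset_insert _ _))
  have h1 := hS1 S (subset_union_right.trans (subset_insert _ _))
  have h2 := integral_FF_le (hp.pv S) (hp.lip S) j (mem_insert_self e _)
  have hm : MeasurableSet {ξ | bt (Yv p B ξ e j) ≠ bt (Yv p B ξ e (j + 1))} :=
    (measurableSet_eq_fun (measurable_bt.comp (measurable_Yv p B e j))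
      (measurable_bt.comp (measurable_Yv p B e (j + 1)))).compl
  have i0 := (integrable_FF_Xl S (p S) j e).const_mul c0
  have i1 := (integrable_Xl_sub hp (B e (rad p B e j)) S e j).const_mul 2
  have i2 := (integrable_Xl_sub hp (B e (rad p B e (j + 1))) S e (j + 1)).const_mul 2
  have i3 : Integrable (fun ξ => c0 * FF (Xl S (p S) j ξ e - j / 2) +
      2 * |Xl (B e (rad p B e j)) (p (B e (rad p B e j))) j ξ e - Xl S (p S) j ξ e|) (gam E) :=
    i0.add i1
  rw [← integral_indicator_one hm]
  refine (integral_mono_of_nonneg (ae_of_all _ fun ξ => Set.indicator_nonneg (by simp) _)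
    (i3.add i2) (ae_of_all _ fun ξ => ?_)).trans ?_
  · have a1 := bt_sub_le (y := Yv p B ξ e j) (y' := Yv p B ξ e (j + 1))
      (z := Xl S (p S) j ξ e - j / 2) (z' := Xl S (p S) (j + 1) ξ e - (j + 1 : ℕ) / 2) (by
        have := Xl_succ_mem (hp.pv S) (hp.lip S) j ξ e
        push_cast
        rw [abs_le]; constructor <;> linarith [this.1, this.2])
    rw [Yv_sub, Yv_sub] at a1
    refine le_trans ?_ a1
    simp only [Set.indicator_apply, Set.mem_ofPred_eq, Pi.one_apply]
    split_ifs with hξ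
    · revert hξ
      unfold bt
      split_ifs <;> simp
    · exact abs_nonneg _
  · simp only [Pi.add_apply]
    rw [integral_add i3 i2, integral_add i0 i1, integral_const_mul, integral_const_mul,
      integral_const_mul]
    unfold err at h0 h1
    have := mul_le_mul_of_nonneg_left h2 c0_pos.le
    linarith

lemma ae_bits (hp : Good p) (hB : Exh B) (e : E) :
    ∀ᵐ ξ ∂gam E, ∀ᶠ j in atTop, (0 < Yv p B ξ e j ↔ psi p B ξ e) := by
  have hs : Summable fun j => c0 * dl j + 4 * hh j + 4 * hh (j + 1) :=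
    ((summable_dl.mul_left _).add (summable_hh.mul_left _)).add
      (((summable_nat_add_iff 1).2 summable_hh).mul_left _)
  have h1 : ∑' j, gam E {ξ | bt (Yv p B ξ e j) ≠ bt (Yv p B ξ e (j + 1))} ≠ ⊤ := by
    refine ne_top_of_le_ne_top hs.tsum_ofReal_ne_top (ENNReal.tsum_le_tsum fun j => ?_)
    rw [← ofReal_measureReal]
    exact ENNReal.ofReal_le_ofReal (flip_le hp hB e j)
  filter_upwards [ae_eventually_notMem h1] with ξ hξ
  obtain ⟨J, hJ⟩ := eventually_atTop.1 hξ
  have h2 : ∀ j, J ≤ j → (0 < Yv p B ξ e j ↔ 0 < Yv p B ξ e J) := by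
    intro j hj
    induction j, hj using Nat.le_induction with
    | base => rfl
    | succ j hj ih =>
      rw [← ih]
      have : bt (Yv p B ξ e j) = bt (Yv p B ξ e (j + 1)) := not_not.1 (hJ j hj)
      unfold bt at this
      split_ifs at this with a1 a2 a2
      · exact iff_of_true a2 a1
      · norm_num at this
      · norm_num at this
      · exact iff_of_false a2 a1
  refine eventually_atTop.2 ⟨J, fun j hj => ⟨fun h => ⟨J, fun i hi => ?_⟩, fun ⟨J', h⟩ => ?_⟩⟩
  · rw [h2 i hi, ← h2 j hj]; exact h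
  · rw [h2 j hj, ← h2 (max J J') (le_max_left _ _)]; exact h _ (le_max_right _ _)

lemma abs_prod_sub_le {ι : Type*} (s : Finset ι) {a b : ι → ℝ} (ha : ∀ i, |a i| ≤ 1)
    (hb : ∀ i, |b i| ≤ 1) : |∏ i ∈ s, a i - ∏ i ∈ s, b i| ≤ ∑ i ∈ s, |a i - b i| := by
  induction s using Finset.induction_on with
  | empty => simp
  | insert i s hi ih =>
    rw [prod_insert hi, prod_insert hi, sum_insert hi]
    have h1 : |∏ i ∈ s, b i| ≤ 1 := by
      rw [abs_prod]; exact prod_le_one (fun _ _ => abs_nonneg _) fun i _ => hb i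
    have e : a i * ∏ i ∈ s, a i - b i * ∏ i ∈ s, b i =
        (a i - b i) * ∏ i ∈ s, b i + a i * (∏ i ∈ s, a i - ∏ i ∈ s, b i) := by ring
    rw [e]
    refine (abs_add_le _ _).trans (add_le_add ?_ ?_)
    · rw [abs_mul]; exact mul_le_of_le_one_right (abs_nonneg _) h1
    · rw [abs_mul]; exact (mul_le_of_le_one_left (abs_nonneg _) (ha i)).trans ih

noncomputable def sel (C : Finset E) (e : E) (t : ℝ) : ℝ := if e ∈ C then t else 1 - t

lemma abs_sel_sub (C : Finset E) (e : E) (s t : ℝ) : |sel C e s - sel C e t| = |s - t| := by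
  unfold sel; split_ifs
  · rfl
  · rw [abs_sub_comm]; congr 1; ring

lemma abs_sel_le (C : Finset E) (e : E) {t : ℝ} (h0 : 0 ≤ t) (h1 : t ≤ 1) : |sel C e t| ≤ 1 := by
  unfold sel; split_ifs <;> rw [abs_le] <;> constructor <;> linarith

lemma prod_sel_ite (A C : Finset E) (P : E → Prop) [DecidablePred P] :
    ∏ e ∈ A, sel C e (if P e then 1 else 0) = if ∀ e ∈ A, (P e ↔ e ∈ C) then 1 else 0 := by
  split_ifs with h
  · refine prod_eq_one fun e he => ?_
    unfold sel
    by_cases h1 : e ∈ C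
    · simp [h1, (h e he).2 h1]
    · have : ¬ P e := fun h2 => h1 ((h e he).1 h2)
      simp [h1, this]
  · push Not at h
    obtain ⟨e, he, h1⟩ := h
    refine prod_eq_zero he ?_
    unfold sel
    rcases h1 with ⟨h1, h2⟩ | ⟨h1, h2⟩ <;> simp [h1, h2]

lemma bits_law (hp : Good p) (hB : Exh B) {A C : Finset E} (hC : C ⊆ A) (j : ℕ) :
    |∫ ξ, ∏ e ∈ A, sel C e (bt (Yv p B ξ e j)) ∂gam E - p A C| ≤
      A.card * ((c0 + 3) * dl j + 4 * hh j) := by
  choose S0 hS0 using fun e => approx hp hB e j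
  set S := A ∪ A.biUnion S0
  have hAS : A ⊆ S := subset_union_left
  obtain ⟨K, hK⟩ : ∃ K, QR S K (fun x => ∏ e ∈ A, sel C e (Real.sigmoid (x e - j / 2))) := by
    refine QR.prod A fun e he => ?_
    unfold sel
    split_ifs
    exacts [⟨_, qr_sigmoid (hAS he) _⟩, ⟨_, qr_one_sub_sigmoid (hAS he) _⟩]
  have hsig : ∀ e t, |sel C e (Real.sigmoid t)| ≤ 1 :=
    fun e t => abs_sel_le C e (Real.sigmoid_pos _).le (Real.sigmoid_le_one _)
  have hbt : ∀ e t, |sel C e (bt t)| ≤ 1 :=
    fun e t => abs_sel_le C e (by unfold bt; split_ifs <;> norm_num)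
      (by unfold bt; split_ifs <;> norm_num)
  have h1 := law_Xl (hp.pv S) (hp.lip S) j hK
  have mX : Measurable fun ξ => Xl S (p S) j ξ :=
    measurable_pi_lambda _ fun e => measurable_Xl _ _ _ e
  have msel : ∀ e, Measurable (sel C e) := by
    intro e; unfold sel; split_ifs <;> fun_prop
  have i1 : Integrable (fun ξ => ∏ e ∈ A, sel C e (bt (Yv p B ξ e j))) (gam E) := by
    refine integrable_of_bdd (Finset.measurable_prod _ fun e _ =>
      (msel e).comp (measurable_bt.comp (measurable_Yv p B e j))) (c := 1) fun ξ => ?_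
    rw [abs_prod]; exact prod_le_one (fun _ _ => abs_nonneg _) fun i _ => hbt _ _
  have i2 : Integrable (fun ξ => ∏ e ∈ A, sel C e (Real.sigmoid (Xl S (p S) j ξ e - j / 2)))
      (gam E) := integrable_of_bdd (hK.meas.comp mX) fun ξ => hK.bdd _
  have i3 : ∀ e, Integrable (fun ξ => (c0 + 2) * FF (Xl S (p S) j ξ e - j / 2) +
      2 * |Xl (B e (rad p B e j)) (p (B e (rad p B e j))) j ξ e - Xl S (p S) j ξ e|) (gam E) :=
    fun e => ((integrable_FF_Xl S (p S) j e).const_mul _).add
      ((integrable_Xl_sub hp _ S e j).const_mul 2)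
  have h2 : |∫ ξ, ∏ e ∈ A, sel C e (bt (Yv p B ξ e j)) ∂gam E -
      ∫ ξ, ∏ e ∈ A, sel C e (Real.sigmoid (Xl S (p S) j ξ e - j / 2)) ∂gam E| ≤
      A.card * ((c0 + 2) * dl j + 4 * hh j) := by
    rw [← integral_sub i1 i2, ← Real.norm_eq_abs]
    refine (norm_integral_le_of_norm_le (integrable_finsetSum A fun e _ => i3 e)
      (ae_of_all _ fun ξ => ?_)).trans ?_
    · refine (abs_prod_sub_le A (fun e => hbt e _) (fun e => hsig e _)).trans
        (sum_le_sum fun e _ => ?_)
      rw [abs_sel_sub, ← Yv_sub]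
      exact bt_sigmoid_le _ _
    · rw [integral_finsetSum A fun e _ => i3 e, ← nsmul_eq_mul, ← sum_const]
      refine sum_le_sum fun e he => ?_
      rw [integral_add ((integrable_FF_Xl S (p S) j e).const_mul _)
        ((integrable_Xl_sub hp _ S e j).const_mul 2), integral_const_mul, integral_const_mul]
      have a1 := hS0 e S ((subset_biUnion_of_mem S0 he).trans subset_union_right)
      have a2 := mul_le_mul_of_nonneg_left (integral_FF_le (hp.pv S) (hp.lip S) j (hAS he))
        (add_pos c0_pos two_pos).le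
      unfold err at a1
      linarith
  have h3 : p A C = ∑ D ∈ S.powerset, p S D * ∏ e ∈ A, sel C e (one D e) := by
    have a1 := hp.cons A S hAS (fun D => if D = C then 1 else 0)
    simp only [mul_ite, mul_one, mul_zero, sum_ite_eq', mem_powerset, hC, if_true] at a1
    rw [← a1]
    refine sum_congr rfl fun D _ => ?_
    unfold one
    rw [prod_sel_ite]
    have : D ∩ A = C ↔ ∀ e ∈ A, (e ∈ D ↔ e ∈ C) := by
      constructor
      · rintro rfl e he; simp [he]
      · intro h; ext e
        simp only [mem_inter]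
        exact ⟨fun h' => (h e h'.2).1 h'.1, fun h' => ⟨(h e (hC h')).2 h', hC h'⟩⟩
    simp only [this, mul_ite, mul_one, mul_zero]
  have h4 : |nu S (p S) j (fun x => ∏ e ∈ A, sel C e (Real.sigmoid (x e - j / 2))) - p A C| ≤
      A.card * dl j := by
    rw [h3, nu, nu2, ← sum_sub_distrib]
    refine (abs_sum_le_sum_abs _ _).trans ?_
    calc _ ≤ ∑ D ∈ S.powerset, p S D * (A.card * dl j) := by
          refine sum_le_sum fun D _ => ?_
          rw [← mul_sub, abs_mul, abs_of_nonneg ((hp.pv S).nonneg D)]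
          refine mul_le_mul_of_nonneg_left ?_ ((hp.pv S).nonneg D)
          have i4 : Integrable
              (fun ξ => ∏ e ∈ A, sel C e (Real.sigmoid (sh j D ξ e - j / 2))) (gam E) :=
            integrable_of_bdd (hK.meas.comp (measurable_sh j D)) fun ξ => hK.bdd _
          have e1 : ∏ e ∈ A, sel C e (one D e) = ∫ _, ∏ e ∈ A, sel C e (one D e) ∂gam E := by
            simp
          rw [e1, ← integral_sub i4 (integrable_const _), ← Real.norm_eq_abs]
          refine (norm_integral_le_of_norm_le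
            (integrable_finsetSum A fun e _ => integrable_dev D e j)
            (ae_of_all _ fun ξ => ?_)).trans ?_
          · refine (abs_prod_sub_le A (fun e => hsig e _)
              (fun e => abs_sel_le C e (one_nonneg _ _) (one_le_one _ _))).trans
              (sum_le_sum fun e _ => ?_)
            rw [abs_sel_sub]
          · rw [integral_finsetSum A fun e _ => integrable_dev D e j, ← nsmul_eq_mul,
              ← sum_const]
            exact sum_le_sum fun e _ => dev_le D e j
      _ = _ := by rw [← sum_mul, (hp.pv S).sum_one, one_mul]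
  rw [h1] at h2
  refine (abs_sub_le _ _ _).trans ((add_le_add h2 h4).trans (le_of_eq ?_))
  ring

lemma measurable_psi (p : Finset E → Finset E → ℝ) (B : E → ℕ → Finset E) (e : E) :
    Measurable fun ξ => psi p B ξ e :=
  Measurable.exists fun _ => Measurable.forall fun j => measurable_const.imp
    (measurableSet_setOfPred.1 (measurableSet_lt measurable_const (measurable_Yv p B e j)))

theorem psi_law (hp : Good p) (hB : Exh B) {A C : Finset E} (hC : C ⊆ A) :
    (gam E).real {ξ | ∀ e ∈ A, (psi p B ξ e ↔ e ∈ C)} = p A C := by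
  have hm : MeasurableSet {ξ | ∀ e ∈ A, (psi p B ξ e ↔ e ∈ C)} := by
    have : {ξ | ∀ e ∈ A, (psi p B ξ e ↔ e ∈ C)} = ⋂ e ∈ A, {ξ | psi p B ξ e ↔ e ∈ C} := by
      ext; simp
    rw [this]
    exact A.measurableSet_biInter fun e _ =>
      measurableSet_setOfPred.2 ((measurable_psi p B e).iff measurable_const)
  have msel : ∀ e, Measurable (sel C e) := by
    intro e; unfold sel; split_ifs <;> fun_prop
  have h1 : Tendsto (fun j => ∫ ξ, ∏ e ∈ A, sel C e (bt (Yv p B ξ e j)) ∂gam E) atTop
      (𝓝 ((gam E).real {ξ | ∀ e ∈ A, (psi p B ξ e ↔ e ∈ C)})) := by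
    rw [← integral_indicator_one hm]
    refine tendsto_integral_of_dominated_convergence (fun _ => (1 : ℝ))
      (fun j => (Finset.measurable_prod _ fun e _ =>
        (msel e).comp (measurable_bt.comp (measurable_Yv p B e j))).aestronglyMeasurable)
      (integrable_const _) (fun j => ae_of_all _ fun ξ => ?_) ?_
    · unfold bt
      rw [prod_sel_ite]
      split_ifs <;> simp
    · filter_upwards [(ae_ball_iff A.countable_toSet).2 fun e _ => ae_bits hp hB e] with ξ hξ
      refine tendsto_const_nhds.congr' ?_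
      filter_upwards [(eventually_all_finset A).2 hξ] with j hj
      unfold bt
      rw [prod_sel_ite, Set.indicator_apply]
      simp only [Set.mem_ofPred_eq, Pi.one_apply]
      exact if_congr (forall₂_congr fun e he => by rw [hj e he]) rfl rfl
  have h2 : Tendsto (fun j => ∫ ξ, ∏ e ∈ A, sel C e (bt (Yv p B ξ e j)) ∂gam E) atTop
      (𝓝 (p A C)) := by
    rw [tendsto_iff_dist_tendsto_zero]
    have h3 := ((summable_dl.tendsto_atTop_zero.const_mul (c0 + 3)).add
      (tendsto_hh.const_mul 4)).const_mul (A.card : ℝ)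
    simp only [mul_zero, add_zero] at h3
    exact squeeze_zero (fun _ => dist_nonneg) (fun j => bits_law hp hB hC j) h3
  exact tendsto_nhds_unique h1 h2

end Vale.Agent.P143
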