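import Vale.Agent.P143.Graph

/-! Cayley graphs. -/

namespace Vale.Agent.P143

open SimpleGraph MeasureTheory

variable {Γ : Type} [Group Γ] {s : Set Γ}

lemma cayley_finite (hs : s.Finite) (v : Γ) : ((mulCayley s).neighborSet v).Finite := by
  refine ((hs.image fun g => v * g).union (hs.image fun g => v * g⁻¹)).subset fun w hw => ?_
  obtain ⟨-, g, hg, h | h⟩ := (mulCayley_adj' s v w).1 hw
  · exact Or.inl ⟨g, hg, h⟩
  · exact Or.inr ⟨g, hg, by simp [h]⟩

/-- Left multiplication is an automorphism of the Cayley graph. -/
def cayleyIso (s : Set Γ) (γ : Γ) : mulCayley s ≃g mulCayley s where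
  toEquiv := Equiv.mulLeft γ
  map_rel_iff' := mulCayley_adj_mul_iff_right

lemma cayley_connected (hs : Subgroup.closure s = ⊤) : (mulCayley s).Connected := by
  have key : ∀ g : Γ, (mulCayley s).Reachable 1 g := by
    intro g
    have hg : g ∈ Subgroup.closure s := hs ▸ Subgroup.mem_top g
    induction hg using Subgroup.closure_induction with
    | mem x hx =>
      by_cases h : 1 = x
      · rw [← h]
      · exact Adj.reachable ((mulCayley_adj' s 1 x).2 ⟨h, x, hx, Or.inl (one_mul x)⟩)
    | one => rfl
    | mul x y _ _ hx hy =>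
      have : (mulCayley s).Reachable (x * 1) (x * y) :=
        (Iso.reachable_iff (φ := cayleyIso s x)).2 hy
      rw [mul_one] at this
      exact hx.trans this
    | inv x _ hx =>
      have : (mulCayley s).Reachable (x⁻¹ * 1) (x⁻¹ * x) :=
        (Iso.reachable_iff (φ := cayleyIso s x⁻¹)).2 hx
      rw [mul_one, inv_mul_cancel] at this
      exact this.symm
  exact ⟨fun a b => (key a).symm.trans (key b)⟩

lemma exists_lab : ∃ lab : unitInterval → Option (ℕ × ℕ) → ℝ, Measurable lab ∧
    (volume : Measure unitInterval).map lab = gam (Option (ℕ × ℕ)) :=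
  Measure.exists_measurable_map_eq _

end Vale.Agent.P143
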