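import Mathlib

/-! Definitions used in the statement: spanning trees, exhaustions, the free uniform spanning
forest. -/

namespace Vale.Agent.P143

open MeasureTheory ProbabilityTheory Filter Topology

/-- The spanning trees of the subgraph `H` of `G`, viewed as edge sets, that is as points of
`{0,1}^{E(G)}`. -/
def treeConfigs {V : Type} {G : SimpleGraph V} (H : G.Subgraph) : Set (G.edgeSet → Bool) :=
  {ω | ∃ T : G.Subgraph, T ≤ H ∧ T.verts = H.verts ∧ T.coe.IsTree ∧
    ∀ e : G.edgeSet, ω e = true ↔ e.1 ∈ T.edgeSet}

/-- An increasing sequence of finite connected subgraphs with union `G`. -/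
def IsExhaustion {V : Type} (G : SimpleGraph V) (H : ℕ → G.Subgraph) : Prop :=
  Monotone H ∧ (∀ n, (H n).verts.Finite ∧ (H n).Connected) ∧ ⨆ n, H n = ⊤

/-- `μ` is the free uniform spanning forest of `G`: the weak limit of the uniform spanning trees
along every exhaustion (and exhaustions exist). -/
def IsFUSF {V : Type} (G : SimpleGraph V) (μ : Measure (G.edgeSet → Bool)) : Prop :=
  IsProbabilityMeasure μ ∧ (∃ H, IsExhaustion G H) ∧ ∀ H, IsExhaustion G H →
    ∀ f : BoundedContinuousFunction (G.edgeSet → Bool) ℝ,
      Tendsto (fun n => ∫ ω, f ω ∂(uniformOn (treeConfigs (H n)))) atTop (𝓝 (∫ ω, f ω ∂μ))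

/-- The law of i.i.d. uniform `[0,1]` labels of the vertices. -/
noncomputable def iidLabels (V : Type) : Measure (V → unitInterval) :=
  Measure.infinitePi (fun _ : V => (volume : Measure unitInterval))

end Vale.Agent.P143
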