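import Vale.Agent.P143.Mart

/-! The limiting flow and its Cauchy property in the finite set. -/

namespace Vale.Agent.P143

open Finset MeasureTheory ProbabilityTheory Filter Topology
open scoped Classical

variable {E : Type*}

lemma eul_eq (S : Finset E) (p : Finset E → ℝ) (h : ℝ) (k : ℕ) (ξ : E → ℝ) (e : E) :
    eul S p h k ξ e = ξ e + ∑ l ∈ range k, h * vel S p (l * h) (eul S p h l ξ) e := by
  induction k with
  | zero => simp [eul]
  | succ k ih => rw [sum_range_succ, ← add_assoc, ← ih]; rfl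

lemma eul_sub_mem {S : Finset E} {p : Finset E → ℝ} (hp : PV S p) {h : ℝ} (hh : 0 ≤ h)
    (k m : ℕ) (ξ : E → ℝ) (e : E) :
    eul S p h (k + m) ξ e - eul S p h k ξ e ∈ Set.Icc 0 (m * h) := by
  induction m with
  | zero => simp
  | succ m ih =>
    have e1 : eul S p h (k + (m + 1)) ξ e = eul S p h (k + m) ξ e +
      h * vel S p ((k + m : ℕ) * h) (eul S p h (k + m) ξ) e := rfl
    have a1 := mul_nonneg hh (mt_nonneg hp (th ((k + m : ℕ) * h) (eul S p h (k + m) ξ)) e)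
    have a2 := mul_le_of_le_one_right hh
      (mt_le_one hp (th ((k + m : ℕ) * h) (eul S p h (k + m) ξ)) e)
    rw [e1]
    unfold vel
    push_cast at a1 a2 ⊢
    constructor <;> linarith [ih.1, ih.2]

lemma eul_sub_mem' {S : Finset E} {p : Finset E → ℝ} (hp : PV S p) {h : ℝ} (hh : 0 ≤ h)
    (m : ℕ) (ξ : E → ℝ) (e : E) : eul S p h m ξ e - ξ e ∈ Set.Icc 0 (m * h) := by
  simpa [eul] using eul_sub_mem hp hh 0 m ξ e

variable {p : Finset E → Finset E → ℝ}

/-- The inductive statement. -/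
def Close (p : Finset E → Finset E → ℝ) (j : ℕ) (β : ℝ) : Prop :=
  ∀ (e : E) (η : ℝ), 0 < η → ∃ S0 : Finset E, ∀ S S', S0 ⊆ S → S0 ⊆ S' →
    ∀ᶠ n in (hyperfilter ℕ : Filter ℕ), ∃ g : (E → ℝ) → ℝ, Integrable g (gam E) ∧
      (∀ ξ, 0 ≤ g ξ) ∧ ∫ ξ, g ξ ∂gam E ≤ η ∧ ∀ ξ, ∀ l ≤ j * 2 ^ n,
        |eul S (p S) (hh n) l ξ e - eul S' (p S') (hh n) l ξ e| ≤
          (β + g ξ) * (1 + 4 * j * hh n) ^ l

lemma close_base (hp : Good p) (j : ℕ) : Close p j j := by
  intro e η hη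
  refine ⟨∅, fun S S' _ _ => Eventually.of_forall fun n =>
    ⟨fun _ => 0, integrable_const _, fun _ => le_rfl, by simpa using hη.le, fun ξ l hl => ?_⟩⟩
  have a1 := eul_sub_mem' (hp.pv S) (hh_pos n).le l ξ e
  have a2 := eul_sub_mem' (hp.pv S') (hh_pos n).le l ξ e
  have a3 := hh_mul_le hl
  have a4 : 1 ≤ (1 + 4 * j * hh n) ^ l :=
    one_le_pow₀ (by have := hh_pos n; nlinarith [Nat.cast_nonneg (α := ℝ) j])
  have a5 := mul_le_mul_of_nonneg_left a4 (Nat.cast_nonneg (α := ℝ) j)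
  rw [add_zero, abs_le]
  constructor <;> linarith [a1.1, a1.2, a2.1, a2.2]

lemma close_step (hp : Good p) (j : ℕ) {β : ℝ} (hβ : 0 ≤ β) (h : Close p j β) :
    Close p j (β / 2) := by
  intro e η hη
  obtain ⟨R, heR, hR⟩ := small_aT hp e j (η := η / 4) (by positivity)
  have hc : (0 : ℝ) < R.card + 1 := by positivity
  choose S0 hS0 using fun f => h f (η / (R.card + 1)) (by positivity)
  refine ⟨R ∪ R.biUnion S0, fun S S' hS hS' => ?_⟩
  have hRS : R ⊆ S := subset_union_left.trans hS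
  have hRS' : R ⊆ S' := subset_union_left.trans hS'
  have h1 := (eventually_all_finset R).2 fun f hf => hS0 f S S'
    ((subset_biUnion_of_mem S0 hf).trans (subset_union_right.trans hS))
    ((subset_biUnion_of_mem S0 hf).trans (subset_union_right.trans hS'))
  filter_upwards [h1, hR S hRS, hR S' hRS'] with n hn h2 h3
  choose! g hg1 hg2 hg3 hg4 using hn
  have hG0 : ∀ ξ, 0 ≤ ∑ f ∈ R, g f ξ := fun ξ => sum_nonneg fun f hf => hg2 f hf ξ
  have hGi : Integrable (fun ξ => ∑ f ∈ R, g f ξ) (gam E) := integrable_finsetSum _ hg1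
  refine ⟨fun ξ => aT p S R e j n ξ + aT p S' R e j n ξ + (∑ f ∈ R, g f ξ) / 2,
    ((integrable_aT hp _ _ _ _ _).add (integrable_aT hp _ _ _ _ _)).add (hGi.div_const _),
    fun ξ => ?_, ?_, fun ξ k hk => ?_⟩
  · have := aT_nonneg (p := p) S R e j n ξ
    have := aT_nonneg (p := p) S' R e j n ξ
    have := hG0 ξ
    positivity
  · have i1 : Integrable (fun ξ => aT p S R e j n ξ + aT p S' R e j n ξ) (gam E) :=
      (integrable_aT hp _ _ _ _ _).add (integrable_aT hp _ _ _ _ _)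
    rw [integral_add i1 (hGi.div_const _),
      integral_add (integrable_aT hp _ _ _ _ _) (integrable_aT hp _ _ _ _ _), integral_div,
      integral_finsetSum _ hg1]
    have : ∑ f ∈ R, ∫ ξ, g f ξ ∂gam E ≤ η := by
      calc _ ≤ ∑ f ∈ R, η / (R.card + 1) := sum_le_sum hg3
        _ = R.card * (η / (R.card + 1)) := by rw [sum_const, nsmul_eq_mul]
        _ ≤ η := by rw [mul_div_assoc', div_le_iff₀ hc]; nlinarith
    linarith
  · set ρ : ℝ := 1 + 4 * j * hh n with hρ
    have hh0 := hh_pos n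
    have hj : (0 : ℝ) ≤ j := Nat.cast_nonneg _
    have hρ1 : 1 ≤ ρ := by rw [hρ]; nlinarith
    set B := β + ∑ f ∈ R, g f ξ with hB
    have hB0 : 0 ≤ B := add_nonneg hβ (hG0 ξ)
    have hmid : ∀ l ∈ range k, |vel R (p R) (l * hh n) (eul S (p S) (hh n) l ξ) e -
        vel R (p R) (l * hh n) (eul S' (p S') (hh n) l ξ) e| ≤ 2 * (j * (B * ρ ^ l)) := by
      intro l hl
      have hl' : l ≤ j * 2 ^ n := (mem_range.1 hl).le.trans hk
      refine hp.lip R e _ _ _ (by positivity) fun f hf => ?_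
      have e1 : th (l * hh n) (eul S (p S) (hh n) l ξ) f -
          th (l * hh n) (eul S' (p S') (hh n) l ξ) f =
          l * hh n * (eul S (p S) (hh n) l ξ f - eul S' (p S') (hh n) l ξ f) := by
        simp only [th]; ring
      rw [e1, abs_mul, abs_of_nonneg (by positivity)]
      refine mul_le_mul (hh_mul_le hl') ((hg4 f hf ξ l hl').trans ?_) (abs_nonneg _) hj
      refine mul_le_mul_of_nonneg_right (add_le_add le_rfl ?_) (by positivity)
      exact single_le_sum (f := fun f => g f ξ) (fun f hf => hg2 f hf ξ) hf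
    have hsub : range k ⊆ range (j * 2 ^ n) := range_subset_range.2 hk
    have hA : ∀ S : Finset E, ∑ l ∈ range k, hh n *
        |vel S (p S) (l * hh n) (eul S (p S) (hh n) l ξ) e -
          vel R (p R) (l * hh n) (eul S (p S) (hh n) l ξ) e| ≤ aT p S R e j n ξ := fun S =>
      sum_le_sum_of_subset_of_nonneg hsub fun _ _ _ => mul_nonneg hh0.le (abs_nonneg _)
    have hgeom : ∑ l ∈ range k, hh n * (2 * (j * (B * ρ ^ l))) = B / 2 * (ρ ^ k - 1) := by
      rw [← geom_sum_mul, sum_mul, mul_sum]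
      refine sum_congr rfl fun l _ => ?_
      rw [hρ]; ring
    rw [eul_eq, eul_eq, add_sub_add_left_eq_sub, ← sum_sub_distrib]
    refine (abs_sum_le_sum_abs _ _).trans ?_
    have hρk : 1 ≤ ρ ^ k := one_le_pow₀ hρ1
    have a1 := aT_nonneg (p := p) S R e j n ξ
    have a2 := aT_nonneg (p := p) S' R e j n ξ
    calc _ ≤ ∑ l ∈ range k, (hh n * |vel S (p S) (l * hh n) (eul S (p S) (hh n) l ξ) e -
            vel R (p R) (l * hh n) (eul S (p S) (hh n) l ξ) e| +
          hh n * |vel S' (p S') (l * hh n) (eul S' (p S') (hh n) l ξ) e -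
            vel R (p R) (l * hh n) (eul S' (p S') (hh n) l ξ) e| +
          hh n * (2 * (j * (B * ρ ^ l)))) := by
          refine sum_le_sum fun l hl => ?_
          rw [← mul_sub, abs_mul, abs_of_pos hh0, ← mul_add, ← mul_add]
          refine mul_le_mul_of_nonneg_left ?_ hh0.le
          have b1 := hmid l hl
          rw [abs_le] at b1 ⊢
          constructor <;>
          linarith [b1.1, b1.2, le_abs_self (vel S (p S) (l * hh n) (eul S (p S) (hh n) l ξ) e -
            vel R (p R) (l * hh n) (eul S (p S) (hh n) l ξ) e),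
            neg_abs_le (vel S (p S) (l * hh n) (eul S (p S) (hh n) l ξ) e -
            vel R (p R) (l * hh n) (eul S (p S) (hh n) l ξ) e),
            le_abs_self (vel S' (p S') (l * hh n) (eul S' (p S') (hh n) l ξ) e -
            vel R (p R) (l * hh n) (eul S' (p S') (hh n) l ξ) e),
            neg_abs_le (vel S' (p S') (l * hh n) (eul S' (p S') (hh n) l ξ) e -
            vel R (p R) (l * hh n) (eul S' (p S') (hh n) l ξ) e)]
      _ ≤ aT p S R e j n ξ + aT p S' R e j n ξ + B / 2 * (ρ ^ k - 1) := by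
          rw [sum_add_distrib, sum_add_distrib, hgeom]
          exact add_le_add (add_le_add (hA S) (hA S')) le_rfl
      _ ≤ _ := by
          have := mul_le_mul_of_nonneg_left hρk (add_nonneg a1 a2)
          rw [hB] at hB0 ⊢
          nlinarith

lemma close_pow (hp : Good p) (j m : ℕ) : Close p j (j * (1 / 2) ^ m) := by
  induction m with
  | zero => simpa using close_base hp j
  | succ m ih =>
    have := close_step hp j (by positivity) ih
    convert this using 1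
    ring

/-- The Euler approximation at the integer time `j`. -/
noncomputable def Xn (S : Finset E) (p : Finset E → ℝ) (j n : ℕ) (ξ : E → ℝ) : E → ℝ :=
  eul S p (hh n) (j * 2 ^ n) ξ

lemma pow_le_exp {c : ℝ} (hc : 0 ≤ c) {j n l : ℕ} (hl : l ≤ j * 2 ^ n) :
    (1 + c * hh n) ^ l ≤ Real.exp (c * j) := by
  have h0 := hh_pos n
  have a1 : 1 + c * hh n ≤ Real.exp (c * hh n) := by
    rw [add_comm]; exact Real.add_one_le_exp _
  calc _ ≤ Real.exp (c * hh n) ^ l := by gcongr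
    _ = Real.exp (c * (l * hh n)) := by rw [← Real.exp_nat_mul]; congr 1; ring
    _ ≤ _ := by gcongr; exact hh_mul_le hl

lemma integrable_eul_sub {S S' : Finset E} {q q' : Finset E → ℝ} (hq : PV S q) (hq' : PV S' q')
    (j n : ℕ) (e : E) (ξ : E → ℝ) : |Xn S q j n ξ e - Xn S' q' j n ξ e| ≤ j := by
  have a1 := eul_sub_mem' hq (hh_pos n).le (j * 2 ^ n) ξ e
  have a2 := eul_sub_mem' hq' (hh_pos n).le (j * 2 ^ n) ξ e
  rw [hh_mul] at a1 a2
  unfold Xn
  rw [abs_le]
  constructor <;> linarith [a1.1, a1.2, a2.1, a2.2]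

lemma measurable_Xn (S : Finset E) (q : Finset E → ℝ) (j n : ℕ) (e : E) :
    Measurable fun ξ => Xn S q j n ξ e :=
  (measurable_pi_apply e).comp (measurable_eul S q _ _)

lemma cauchy_Xn (hp : Good p) (e : E) (j : ℕ) {η : ℝ} (hη : 0 < η) :
    ∃ S0 : Finset E, ∀ S S', S0 ⊆ S → S0 ⊆ S' → ∀ᶠ n in (hyperfilter ℕ : Filter ℕ),
      ∫ ξ, |Xn S (p S) j n ξ e - Xn S' (p S') j n ξ e| ∂gam E ≤ η := by
  set M := Real.exp (4 * j * j) with hM
  have hM0 : 0 < M := Real.exp_pos _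
  have ht : Tendsto (fun m : ℕ => (j : ℝ) * (1 / 2) ^ m) atTop (𝓝 (j * 0)) :=
    tendsto_hh.const_mul _
  obtain ⟨m, hm⟩ := (ht.eventually (gt_mem_nhds (show (j : ℝ) * 0 < η / (2 * M) by
    rw [mul_zero]; positivity))).exists
  obtain ⟨S0, hS0⟩ := close_pow hp j m e (η / (2 * M)) (by positivity)
  refine ⟨S0, fun S S' hS hS' => ?_⟩
  filter_upwards [hS0 S S' hS hS'] with n ⟨g, hg1, hg2, hg3, hg4⟩
  have i1 : Integrable (fun ξ => (j * (1 / 2 : ℝ) ^ m + g ξ) * M) (gam E) :=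
    ((integrable_const _).add hg1).mul_const _
  calc _ ≤ ∫ ξ, (j * (1 / 2 : ℝ) ^ m + g ξ) * M ∂gam E := by
        refine integral_mono_of_nonneg (ae_of_all _ fun _ => abs_nonneg _) i1
          (ae_of_all _ fun ξ => (hg4 ξ _ le_rfl).trans ?_)
        have := hg2 ξ
        exact mul_le_mul_of_nonneg_left (pow_le_exp (by positivity) le_rfl) (by positivity)
    _ = (j * (1 / 2 : ℝ) ^ m + ∫ ξ, g ξ ∂gam E) * M := by
        rw [integral_mul_const, integral_add (integrable_const _) hg1]; simp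
    _ ≤ (η / (2 * M) + η / (2 * M)) * M := by gcongr
    _ = η := by field_simp; ring

lemma arith_b2 {k h j d N y0 y1 x0 z : ℝ} (h0 : 0 < h) (hj : 0 ≤ j)
    (hu0 : 0 ≤ k * h) (hu' : (k + 1) * h ≤ j) (c1 : y1 - y0 ∈ Set.Icc 0 (1 * (h / 2)))
    (c2 : y1 - z ∈ Set.Icc 0 ((2 * k + 1) * (h / 2))) (c3 : |z| ≤ N) (c4 : |y0 - x0| ≤ d) :
    |(k * h + h / 2) * y1 - (k * h + h / 2) ^ 2 / 2 - (k * h * x0 - (k * h) ^ 2 / 2)| ≤
      j * d + h / 2 * (N + 3 * j + 1) := by
  have hu : k * h ≤ j := by linarith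
  have c3' := abs_le.1 c3
  have c4' := abs_le.1 c4
  have c5 : |y1 - x0| ≤ d + h / 2 := by
    rw [abs_le]; constructor <;> linarith [c1.1, c1.2]
  have c6 : |y1 - k * h - h / 4| ≤ N + 2 * j + 1 := by
    rw [abs_le]; constructor <;> linarith [c2.1, c2.2]
  have : (k * h + h / 2) * y1 - (k * h + h / 2) ^ 2 / 2 - (k * h * x0 - (k * h) ^ 2 / 2) =
      k * h * (y1 - x0) + h / 2 * (y1 - k * h - h / 4) := by ring
  rw [this]
  refine (abs_add_le _ _).trans ?_
  rw [abs_mul, abs_of_nonneg hu0, abs_mul, abs_of_pos (half_pos h0)]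
  have c7 := mul_le_mul hu c5 (abs_nonneg _) hj
  have c8 := mul_le_mul_of_nonneg_left c6 (half_pos h0).le
  linarith

lemma arith_fin (k : ℕ) {h j d M ρ : ℝ} (hM0 : 0 ≤ M) (hρ1 : 1 ≤ ρ) (hρ : ρ = 1 + 2 * j * h)
    (hd : d = k * ρ ^ k * (M * h ^ 2)) :
    d + h / 2 * (2 * (j * d)) + h / 2 * (2 * (j * d + h / 2 * M)) ≤
      (k + 1 : ℕ) * ρ ^ (k + 1) * (M * h ^ 2) := by
  have hρk : 1 ≤ ρ ^ (k + 1) := one_le_pow₀ hρ1
  have c0 := mul_nonneg hM0 (sq_nonneg h)
  have c9 := mul_le_mul_of_nonneg_left hρk c0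
  calc _ = d * ρ + M * h ^ 2 / 2 := by rw [hρ]; ring
    _ ≤ _ := by
        rw [hd]; push_cast; rw [pow_succ ρ k] at c9 ⊢
        linarith

lemma refine_aux {S : Finset E} {q : Finset E → ℝ} (hq : PV S q) (hl : Lip S q) (j n : ℕ)
    (ξ : E → ℝ) (k : ℕ) (hk : k ≤ j * 2 ^ n) (f : E) :
    |eul S q (hh (n + 1)) (2 * k) ξ f - eul S q (hh n) k ξ f| ≤
      k * (1 + 2 * j * hh n) ^ k * ((nS S ξ + 3 * j + 1) * hh n ^ 2) := by
  induction k generalizing f with
  | zero => simp [eul]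
  | succ k ih =>
    have hk' : k ≤ j * 2 ^ n := (Nat.le_succ k).trans hk
    have ih' := ih hk'
    set h := hh n with hdef
    have h0 : 0 < h := hh_pos n
    have hh' : hh (n + 1) = h / 2 := by rw [hdef, hh, hh, pow_succ]; ring
    rw [hh'] at ih' ⊢
    have hj : (0 : ℝ) ≤ j := Nat.cast_nonneg _
    have hN := nS_nonneg S ξ
    set M := nS S ξ + 3 * j + 1 with hM
    have hM0 : 0 ≤ M := by positivity
    set ρ := 1 + 2 * j * h with hρ
    have hρ1 : 1 ≤ ρ := by rw [hρ]; nlinarith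
    set d := k * ρ ^ k * (M * h ^ 2) with hd
    have hd0 : 0 ≤ d := by positivity
    have hu : (k : ℝ) * h ≤ j := hh_mul_le hk'
    have hu' : ((k + 1 : ℕ) : ℝ) * h ≤ j := hh_mul_le hk
    have hu0 : 0 ≤ (k : ℝ) * h := by positivity
    set y0 := eul S q (h / 2) (2 * k) ξ with hy0
    set y1 := eul S q (h / 2) (2 * k + 1) ξ with hy1
    set x0 := eul S q h k ξ with hx0
    have e1 : eul S q (h / 2) (2 * (k + 1)) ξ f = y0 f + h / 2 * vel S q (k * h) y0 f +
        h / 2 * vel S q (k * h + h / 2) y1 f := by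
      have a1 : ((2 * k : ℕ) : ℝ) * (h / 2) = k * h := by push_cast; ring
      have a2 : ((2 * k + 1 : ℕ) : ℝ) * (h / 2) = k * h + h / 2 := by push_cast; ring
      rw [← a2, ← a1]; rfl
    have e2 : eul S q h (k + 1) ξ f = x0 f + h * vel S q (k * h) x0 f := rfl
    have b1 : |vel S q (k * h) y0 f - vel S q (k * h) x0 f| ≤ 2 * (j * d) := by
      refine hl f _ _ _ (by positivity) fun g _ => ?_
      have : th (k * h) y0 g - th (k * h) x0 g = k * h * (y0 g - x0 g) := by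
        simp only [th]; ring
      rw [this, abs_mul, abs_of_nonneg hu0]
      exact mul_le_mul hu (ih' g) (abs_nonneg _) hj
    have b2 : |vel S q (k * h + h / 2) y1 f - vel S q (k * h) x0 f| ≤
        2 * (j * d + h / 2 * M) := by
      refine hl f _ _ _ (by positivity) fun g hg => ?_
      have c1 := eul_sub_mem hq (half_pos h0).le (2 * k) 1 ξ g
      have c2 := eul_sub_mem' hq (half_pos h0).le (2 * k + 1) ξ g
      rw [← hy0, ← hy1] at c1
      rw [← hy1] at c2
      push_cast at c1 c2 hu'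
      exact arith_b2 h0 hj hu0 hu' c1 c2 (abs_le_nS ξ hg) (ih' g)
    have e3 : eul S q (h / 2) (2 * (k + 1)) ξ f - eul S q h (k + 1) ξ f = (y0 f - x0 f) +
        h / 2 * (vel S q (k * h) y0 f - vel S q (k * h) x0 f) +
        h / 2 * (vel S q (k * h + h / 2) y1 f - vel S q (k * h) x0 f) := by
      rw [e1, e2]; ring
    rw [e3]
    refine (abs_add_three _ _ _).trans ?_
    rw [abs_mul, abs_mul, abs_of_pos (half_pos h0)]
    refine (add_le_add (add_le_add (ih' f) (mul_le_mul_of_nonneg_left b1 (half_pos h0).le))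
            (mul_le_mul_of_nonneg_left b2 (half_pos h0).le)).trans ?_
    exact arith_fin k hM0 hρ1 hρ hd

lemma cauchySeq_Xn {S : Finset E} {q : Finset E → ℝ} (hq : PV S q) (hl : Lip S q) (j : ℕ)
    (ξ : E → ℝ) (f : E) : CauchySeq fun n => Xn S q j n ξ f := by
  refine cauchySeq_of_le_geometric (1 / 2) (j * Real.exp (2 * j * j) * (nS S ξ + 3 * j + 1))
    (by norm_num) fun n => ?_
  have h1 := refine_aux hq hl j n ξ _ le_rfl f
  have e1 : 2 * (j * 2 ^ n) = j * 2 ^ (n + 1) := by ring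
  rw [e1] at h1
  rw [Real.dist_eq, abs_sub_comm]
  refine h1.trans ?_
  have h2 := pow_le_exp (c := 2 * j) (by positivity) (le_refl (j * 2 ^ n))
  have hN := nS_nonneg S ξ
  have h0 := hh_pos n
  calc _ = ((j * 2 ^ n : ℕ) * hh n) * (1 + 2 * j * hh n) ^ (j * 2 ^ n) *
        (nS S ξ + 3 * j + 1) * hh n := by ring
    _ ≤ _ := by rw [hh_mul]; unfold hh at *; gcongr

/-- The flow at the integer time `j`. -/
noncomputable def Xl (S : Finset E) (q : Finset E → ℝ) (j : ℕ) (ξ : E → ℝ) (f : E) : ℝ :=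
  limsup (fun n => Xn S q j n ξ f) atTop

lemma tendsto_Xn {S : Finset E} {q : Finset E → ℝ} (hq : PV S q) (hl : Lip S q) (j : ℕ)
    (ξ : E → ℝ) (f : E) : Tendsto (fun n => Xn S q j n ξ f) atTop (𝓝 (Xl S q j ξ f)) := by
  obtain ⟨a, ha⟩ := cauchySeq_tendsto_of_complete (cauchySeq_Xn hq hl j ξ f)
  rw [Xl, ha.limsup_eq]; exact ha

lemma measurable_Xl (S : Finset E) (q : Finset E → ℝ) (j : ℕ) (e : E) :
    Measurable fun ξ => Xl S q j ξ e :=
  Measurable.limsup fun n => measurable_Xn S q j n e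

lemma Xl_succ_mem {S : Finset E} {q : Finset E → ℝ} (hq : PV S q) (hl : Lip S q) (j : ℕ)
    (ξ : E → ℝ) (f : E) : Xl S q (j + 1) ξ f - Xl S q j ξ f ∈ Set.Icc (0 : ℝ) 1 := by
  refine isClosed_Icc.mem_of_tendsto ((tendsto_Xn hq hl (j + 1) ξ f).sub (tendsto_Xn hq hl j ξ f))
    (Eventually.of_forall fun n => ?_)
  have := eul_sub_mem hq (hh_pos n).le (j * 2 ^ n) (1 * 2 ^ n) ξ f
  rw [hh_mul, ← add_mul, Nat.cast_one] at this
  exact this

lemma abs_Xl_sub_le {S S' : Finset E} {q q' : Finset E → ℝ} (hq : PV S q) (hl : Lip S q)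
    (hq' : PV S' q') (hl' : Lip S' q') (j : ℕ) (e : E) (ξ : E → ℝ) :
    |Xl S q j ξ e - Xl S' q' j ξ e| ≤ j :=
  le_of_tendsto' ((tendsto_Xn hq hl j ξ e).sub (tendsto_Xn hq' hl' j ξ e)).abs
    fun n => integrable_eul_sub hq hq' j n e ξ

theorem cauchy_Xl (hp : Good p) (e : E) (j : ℕ) {η : ℝ} (hη : 0 < η) :
    ∃ S0 : Finset E, ∀ S S', S0 ⊆ S → S0 ⊆ S' →
      ∫ ξ, |Xl S (p S) j ξ e - Xl S' (p S') j ξ e| ∂gam E ≤ η := by
  obtain ⟨S0, hS0⟩ := cauchy_Xn hp e j hη
  refine ⟨S0, fun S S' hS hS' => ?_⟩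
  have hU : (hyperfilter ℕ : Filter ℕ) ≤ atTop := by
    rw [← Nat.cofinite_eq_atTop]; exact hyperfilter_le_cofinite
  have ht : Tendsto (fun n => ∫ ξ, |Xn S (p S) j n ξ e - Xn S' (p S') j n ξ e| ∂gam E) atTop
      (𝓝 (∫ ξ, |Xl S (p S) j ξ e - Xl S' (p S') j ξ e| ∂gam E)) := by
    refine tendsto_integral_of_dominated_convergence (fun _ => (j : ℝ))
      (fun n => ((measurable_Xn _ _ _ _ _).sub (measurable_Xn _ _ _ _ _)).abs.aestronglyMeasurable)
      (integrable_const _) (fun n => ae_of_all _ fun ξ => ?_) (ae_of_all _ fun ξ => ?_)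
    · rw [Real.norm_eq_abs, abs_abs]; exact integrable_eul_sub (hp.pv S) (hp.pv S') j n e ξ
    · exact ((tendsto_Xn (hp.pv S) (hp.lip S) j ξ e).sub
        (tendsto_Xn (hp.pv S') (hp.lip S') j ξ e)).abs
  exact le_of_tendsto (ht.mono_left hU) (hS0 S S' hS hS')

theorem law_Xl {S : Finset E} {q : Finset E → ℝ} (hq : PV S q) (hl : Lip S q) (j : ℕ) {K : ℝ}
    {G : (E → ℝ) → ℝ} (hG : QR S K G) : ∫ ξ, G (Xl S q j ξ) ∂gam E = nu S q j G := by
  have h1 : Tendsto (fun n => ∫ ξ, G (Xn S q j n ξ) ∂gam E) atTop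
      (𝓝 (∫ ξ, G (Xl S q j ξ) ∂gam E)) := by
    refine tendsto_integral_of_dominated_convergence (fun _ => (1 : ℝ))
      (fun n => (hG.meas.comp (measurable_eul _ _ _ _)).aestronglyMeasurable)
      (integrable_const _) (fun n => ae_of_all _ fun ξ => hG.bdd _) (ae_of_all _ fun ξ => ?_)
    rw [tendsto_iff_dist_tendsto_zero]
    have h2 : Tendsto (fun n => K * ∑ f ∈ S, |Xn S q j n ξ f - Xl S q j ξ f|) atTop
        (𝓝 (K * ∑ f ∈ S, |Xl S q j ξ f - Xl S q j ξ f|)) :=
      (tendsto_finsetSum _ fun f _ => ((tendsto_Xn hq hl j ξ f).sub_const _).abs).const_mul K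
    simp only [sub_self, abs_zero, sum_const_zero, mul_zero] at h2
    refine squeeze_zero (fun _ => dist_nonneg) (fun n => ?_) h2
    have := hG.lip (Xl S q j ξ) (Xn S q j n ξ - Xl S q j ξ)
    rw [add_sub_cancel] at this
    exact this
  have h2 : Tendsto (fun n => ∫ ξ, G (Xn S q j n ξ) ∂gam E) atTop (𝓝 (nu S q j G)) := by
    rw [tendsto_iff_dist_tendsto_zero]
    have h3 := tendsto_hh.const_mul (K * BS S j)
    rw [mul_zero] at h3
    refine squeeze_zero (fun _ => dist_nonneg) (fun n => ?_) h3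
    have := transport hq hl (hh_pos n).le (hh_mul j n).le hG
    rw [hh_mul] at this
    exact this
  exact tendsto_nhds_unique h1 h2

end Vale.Agent.P143
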