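import Vale.Agent.P143.Kirchhoff
import Vale.Agent.P143.Bits

/-! The finite-dimensional marginals of the free spanning forest. -/

namespace Vale.Agent.P143

open Finset Filter Topology SimpleGraph
open scoped Classical

variable {V : Type*}

noncomputable def avg (F : Finset (Sym2 V)) (φ : Finset (Sym2 V) → ℝ) : ℝ :=
  (∑ T ∈ bases F, φ T) / (bases F).card

noncomputable def pF (F S A : Finset (Sym2 V)) : ℝ :=
  avg F (fun T => if T ∩ S = A then 1 else 0)

lemma card_bases_pos (F : Finset (Sym2 V)) : (0 : ℝ) < (bases F).card := by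
  exact_mod_cast (bases_nonempty F).card_pos

lemma avg_inter (F S : Finset (Sym2 V)) (φ : Finset (Sym2 V) → ℝ) :
    ∑ A ∈ S.powerset, pF F S A * φ A = avg F (fun T => φ (T ∩ S)) := by
  simp only [pF, avg, div_mul_eq_mul_div, ← sum_div, sum_mul]
  rw [sum_comm]
  congr 1
  refine sum_congr rfl fun T _ => ?_
  simp [ite_mul, sum_ite_eq, mem_powerset]

lemma pF_nonneg (F S A : Finset (Sym2 V)) : 0 ≤ pF F S A :=
  div_nonneg (sum_nonneg fun _ _ => by split_ifs <;> norm_num) (card_bases_pos F).le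

lemma pF_pv (F S : Finset (Sym2 V)) : PV S (pF F S) where
  nonneg := pF_nonneg F S
  sum_one := by
    have := avg_inter F S (fun _ => 1)
    simp only [mul_one] at this
    rw [this, avg, sum_const, nsmul_eq_mul, mul_one, div_self (card_bases_pos F).ne']

lemma mt_eq_zero {E : Type*} {S : Finset E} (p : Finset E → ℝ) (θ : E → ℝ) {e : E}
    (he : e ∉ S) : mt S p θ e = 0 := by
  rw [mt, Et, sum_eq_zero, zero_div]
  intro A hA
  have : e ∉ A := fun h => he (mem_powerset.1 hA h)
  simp [one, this]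

lemma mF_eq_zero {F : Finset (Sym2 V)} (c : Sym2 V → ℝ) {e : Sym2 V} (he : e ∉ F) :
    mF F c e = 0 := by
  rw [mF, sum_eq_zero, zero_div]
  intro T hT
  simp only [mem_filter, mem_bases] at hT
  exact absurd (hT.1.1 hT.2) he

lemma mt_pF (F S : Finset (Sym2 V)) (θ : Sym2 V → ℝ) {e : Sym2 V} (he : e ∈ S) :
    mt S (pF F S) θ e = mF F (fun f => Real.exp (one S f * θ f)) e := by
  have h1 : ∀ T : Finset (Sym2 V), ∏ f ∈ T, Real.exp (one S f * θ f) =
      Real.exp (∑ f ∈ T ∩ S, θ f) := by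
    intro T
    rw [← Real.exp_sum]
    congr 1
    simp only [one, ite_mul, one_mul, zero_mul, ← sum_filter, filter_mem_eq_inter]
  simp only [mt, Et, Zt, wt, mul_assoc, avg_inter, mF, ZF, h1, avg]
  rw [div_div_div_cancel_right₀ (card_bases_pos F).ne', sum_filter]
  congr 1
  refine sum_congr rfl fun T _ => ?_
  simp [one, he]

lemma pF_lip (F S : Finset (Sym2 V)) : Lip S (pF F S) := by
  intro e θ θ' d hd h
  by_cases he : e ∈ S
  swap
  · rw [mt_eq_zero _ _ he, mt_eq_zero _ _ he]; simpa using hd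
  rw [mt_pF F S θ he, mt_pF F S θ' he]
  by_cases heF : e ∈ F
  swap
  · rw [mF_eq_zero _ heF, mF_eq_zero _ heF]; simpa using hd
  have key : ∀ θ θ' : Sym2 V → ℝ, (∀ f ∈ S, |θ f - θ' f| ≤ d) → ∀ f,
      Real.exp (one S f * θ f) ≤ Real.exp d * Real.exp (one S f * θ' f) := by
    intro θ θ' h f
    rw [← Real.exp_add, Real.exp_le_exp]
    unfold one
    split_ifs with hf
    · linarith [(abs_le.1 (h f hf)).2]
    · linarith
  have h' : ∀ f ∈ S, |θ' f - θ f| ≤ d := fun f hf => by rw [abs_sub_comm]; exact h f hf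
  have key2 : ∀ a b : ℝ, 0 ≤ a → a ≤ 1 → a ≤ Real.exp d ^ 2 * b → a - b ≤ 2 * d := by
    intro a b ha0 ha1 hab
    have e1 : Real.exp (-(2 * d)) * Real.exp d ^ 2 = 1 := by
      rw [← Real.exp_nat_mul, ← Real.exp_add]; simp
    have e2 := mul_le_mul_of_nonneg_left hab (Real.exp_pos (-(2 * d))).le
    rw [← mul_assoc, e1, one_mul] at e2
    have e3 := Real.add_one_le_exp (-(2 * d))
    nlinarith
  have p1 : ∀ (θ : Sym2 V → ℝ) f, 0 < Real.exp (one S f * θ f) := fun _ _ => Real.exp_pos _
  have a1 := mF_le F F subset_rfl (p1 θ) (p1 θ') (Real.exp_pos d).le (key _ _ h) (key _ _ h') heF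
  have a2 := mF_le F F subset_rfl (p1 θ') (p1 θ) (Real.exp_pos d).le (key _ _ h') (key _ _ h) heF
  have b1 := key2 _ _ (mF_nonneg F (p1 θ') e) (mF_le_one F (p1 θ') e) a1
  have b2 := key2 _ _ (mF_nonneg F (p1 θ) e) (mF_le_one F (p1 θ) e) a2
  rw [abs_le]; constructor <;> linarith

/-- The edges of `G` in `F`. -/
noncomputable def EG (G : SimpleGraph V) (F : Finset (Sym2 V)) : Finset (Sym2 V) :=
  F.filter (· ∈ G.edgeSet)

lemma conv_mF (G : SimpleGraph V) {c : Sym2 V → ℝ} (hc : ∀ f, 0 < c f) (e : Sym2 V) :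
    ∃ l, Tendsto (fun F => mF (EG G F) c e) atTop (𝓝 l) := by
  by_cases he : e ∈ G.edgeSet
  · have ha : Antitone fun F => mF (EG G (insert e F)) c e := by
      intro F F' hF
      have := mF_le (EG G (insert e F)) (EG G (insert e F'))
        (filter_subset_filter _ (insert_subset_insert _ hF)) hc hc zero_le_one
        (by simp) (by simp) (mem_filter.2 ⟨mem_insert_self e F, he⟩)
      simpa using this
    refine ⟨_, (tendsto_atTop_ciInf ha ⟨0, ?_⟩).congr' ?_⟩
    · rintro _ ⟨F, rfl⟩; exact mF_nonneg _ hc _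
    · filter_upwards [eventually_ge_atTop ({e} : Finset (Sym2 V))] with F hF
      rw [insert_eq_of_mem (singleton_subset_iff.1 hF)]
  · refine ⟨0, tendsto_const_nhds.congr fun F => (mF_eq_zero c fun h => ?_).symm⟩
    exact he (mem_filter.1 h).2

lemma conv_two (G : SimpleGraph V) (A : Finset (Sym2 V)) :
    ∃ l, Tendsto (fun F => avg (EG G F) (fun T => ∏ f ∈ A, (1 + one T f))) atTop (𝓝 l) := by
  induction A using Finset.induction_on with
  | empty =>
    refine ⟨1, tendsto_const_nhds.congr fun F => ?_⟩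
    simp [avg, (card_bases_pos (EG G F)).ne']
  | insert e A he ih =>
    obtain ⟨l, hl⟩ := ih
    have hc : ∀ f, 0 < 1 + one A f := fun f => by linarith [one_nonneg A f]
    obtain ⟨l', hl'⟩ := conv_mF G hc e
    refine ⟨_, (hl.mul (hl'.const_add 1)).congr fun F => ?_⟩
    have h1 : ∀ T : Finset (Sym2 V), ∏ f ∈ T, (1 + one A f) = ∏ f ∈ A, (1 + one T f) := by
      intro T
      have : ∀ A T : Finset (Sym2 V), ∏ f ∈ T, (1 + one A f) = ∏ f ∈ T ∩ A, 2 := by
        intro A T
        rw [← filter_mem_eq_inter, prod_filter]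
        refine prod_congr rfl fun f _ => ?_
        unfold one; split_ifs <;> norm_num
      rw [this, this, inter_comm]
    have hZ := ZF_pos (EG G F) hc
    simp only [avg, mF, prod_insert he, sum_filter]
    simp only [ZF, h1] at hZ ⊢
    rw [div_mul_eq_mul_div, mul_add, mul_one, mul_div_cancel₀ _ hZ.ne', ← sum_add_distrib]
    congr 1
    refine sum_congr rfl fun T _ => ?_
    unfold one
    split_ifs <;> ring

lemma conv_pF (G : SimpleGraph V) (S A : Finset (Sym2 V)) :
    ∃ l, Tendsto (fun F => pF (EG G F) S A) atTop (𝓝 l) := by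
  by_cases hA : A ⊆ S
  swap
  · refine ⟨0, tendsto_const_nhds.congr fun F => ?_⟩
    rw [pF, avg, sum_eq_zero, zero_div]
    intro T _
    rw [if_neg]
    rintro rfl
    exact hA inter_subset_right
  choose l hl using conv_two G
  set α : Sym2 V → ℝ := fun e => if e ∈ A then -1 else 2
  set β : Sym2 V → ℝ := fun e => if e ∈ A then 1 else -1
  refine ⟨_, (tendsto_finsetSum S.powerset fun D _ =>
    (hl D).const_mul ((∏ e ∈ D, β e) * ∏ e ∈ S \ D, α e)).congr fun F => ?_⟩
  simp only [pF, avg, ← mul_div_assoc, ← sum_div, mul_sum]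
  rw [sum_comm]
  congr 1
  refine sum_congr rfl fun T _ => ?_
  have h1 : T ∩ S = A ↔ ∀ e ∈ S, (e ∈ T ↔ e ∈ A) := by
    constructor
    · rintro rfl e he; simp [he]
    · intro h; ext e
      simp only [mem_inter]
      exact ⟨fun h' => (h e h'.2).1 h'.1, fun h' => ⟨(h e (hA h')).2 h', hA h'⟩⟩
  have h2 := prod_sel_ite S A (fun e => e ∈ T)
  have h3 : ∏ e ∈ S, sel A e (if e ∈ T then 1 else 0) =
      ∏ e ∈ S, (β e * (1 + one T e) + α e) := by
    refine prod_congr rfl fun e _ => ?_
    simp only [sel, one, α, β]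
    split_ifs <;> ring
  rw [h3, prod_add] at h2
  have h4 : (if T ∩ S = A then (1 : ℝ) else 0) = ∑ t ∈ S.powerset,
      (∏ i ∈ t, β i * (1 + one T i)) * ∏ i ∈ S \ t, α i := by
    rw [h2]
    by_cases h : T ∩ S = A
    · rw [if_pos h, if_pos (h1.1 h)]
    · rw [if_neg h, if_neg (fun h' => h (h1.2 h'))]
  rw [h4]
  refine sum_congr rfl fun D _ => ?_
  rw [prod_mul_distrib]; ring

/-- The marginals of the free spanning forest. -/
noncomputable def pG (G : SimpleGraph V) (S A : Finset (Sym2 V)) : ℝ :=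
  limUnder atTop (fun F => pF (EG G F) S A)

lemma tendsto_pF (G : SimpleGraph V) (S A : Finset (Sym2 V)) :
    Tendsto (fun F => pF (EG G F) S A) atTop (𝓝 (pG G S A)) :=
  tendsto_nhds_limUnder (conv_pF G S A)

lemma pG_pv (G : SimpleGraph V) (S : Finset (Sym2 V)) : PV S (pG G S) where
  nonneg A := ge_of_tendsto' (tendsto_pF G S A) fun _ => pF_nonneg _ _ _
  sum_one := tendsto_nhds_unique (tendsto_finsetSum _ fun A _ => tendsto_pF G S A)
    (tendsto_const_nhds.congr fun _ => (pF_pv _ S).sum_one.symm)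

theorem good_pG (G : SimpleGraph V) : Good (pG G) where
  pv := pG_pv G
  lip S e θ θ' d hd h := by
    have key : ∀ θ, Tendsto (fun F => mt S (pF (EG G F) S) θ e) atTop (𝓝 (mt S (pG G S) θ e)) := by
      intro θ
      refine Tendsto.div (tendsto_finsetSum _ fun A _ => ?_) (tendsto_finsetSum _ fun A _ => ?_)
        (Zt_pos (pG_pv G S) θ).ne'
      · exact ((tendsto_pF G S A).mul_const _).mul_const _
      · exact (tendsto_pF G S A).mul_const _
    exact le_of_tendsto' ((key θ).sub (key θ')).abs fun F => pF_lip _ S e θ θ' d hd h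
  cons R S hRS φ := by
    refine tendsto_nhds_unique (tendsto_finsetSum _ fun A _ => (tendsto_pF G S A).mul_const _)
      ((tendsto_finsetSum _ fun A _ => (tendsto_pF G R A).mul_const _).congr fun F => ?_)
    rw [avg_inter, avg_inter]
    congr 1
    ext T
    congr 1
    ext x
    simp only [mem_inter]
    exact ⟨fun h => ⟨⟨h.1, hRS h.2⟩, h.2⟩, fun h => ⟨h.1.1, h.2⟩⟩

end Vale.Agent.P143
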