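import Vale.Agent.P143.QR

/-! Product Gaussian noise, the shift formula, and the transport estimate. -/

namespace Vale.Agent.P143

open Finset MeasureTheory ProbabilityTheory
open scoped Classical ENNReal

variable {E : Type*}

noncomputable def gam (E : Type*) : Measure (E → ℝ) :=
  Measure.infinitePi (fun _ : E => gaussianReal 0 1)

instance : IsProbabilityMeasure (gam E) := by unfold gam; infer_instance

lemma gauss_shift (a : ℝ) : gaussianReal a 1 =
    (gaussianReal 0 1).withDensity (fun x => ENNReal.ofReal (Real.exp (a * x - a ^ 2 / 2))) := by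
  rw [gaussianReal_of_var_ne_zero _ one_ne_zero, gaussianReal_of_var_ne_zero _ one_ne_zero,
    ← withDensity_mul _ (measurable_gaussianPDF _ _) (by fun_prop)]
  congr 1
  ext x
  simp only [gaussianPDF, Pi.mul_apply]
  rw [← ENNReal.ofReal_mul (gaussianPDFReal_nonneg _ _ _)]
  congr 1
  simp only [gaussianPDFReal, NNReal.coe_one, mul_one, sub_zero, mul_assoc, ← Real.exp_add]
  congr 2
  ring

/-- The shifted noise. -/
noncomputable def sh (u : ℝ) (A : Finset E) (ξ : E → ℝ) : E → ℝ := fun f => ξ f + u * one A f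

lemma measurable_sh (u : ℝ) (A : Finset E) : Measurable (sh u A) :=
  measurable_pi_lambda _ fun f => (measurable_pi_apply f).add_const _

lemma measurable_exp_th (u : ℝ) (A : Finset E) :
    Measurable fun ξ : E → ℝ => Real.exp (∑ f ∈ A, th u ξ f) :=
  Real.measurable_exp.comp (Finset.measurable_sum _ fun f _ => by
    unfold th; fun_prop)

theorem map_sh (u : ℝ) (A : Finset E) : (gam E).map (sh u A) =
    (gam E).withDensity (fun ξ => ENNReal.ofReal (Real.exp (∑ f ∈ A, th u ξ f))) := by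
  have h1 : (gam E).map (sh u A) =
      Measure.infinitePi (fun f : E => gaussianReal (u * one A f) 1) := by
    have := Measure.infinitePi_map_pi (fun _ : E => gaussianReal 0 1)
      (f := fun f x => x + u * one A f) (fun f => by fun_prop)
    simp only [gaussianReal_map_add_const, zero_add] at this
    exact this
  rw [h1]
  symm
  refine Measure.eq_infinitePi _ fun s t ht => ?_
  have hm : MeasurableSet (Set.pi (s : Set E) t) := .pi s.countable_toSet fun i _ => ht i
  rw [withDensity_apply _ hm, ← lintegral_indicator hm]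
  set t' : E → Set ℝ := fun f => if f ∈ s then t f else Set.univ with ht'
  have ht'm : ∀ f, MeasurableSet (t' f) := by
    intro f; simp only [ht']; split_ifs; exacts [ht f, .univ]
  set g : E → ℝ → ℝ≥0∞ := fun f => (t' f).indicator fun x =>
    ENNReal.ofReal (Real.exp (u * one A f * x - (u * one A f) ^ 2 / 2)) with hg
  have hgm : ∀ f, Measurable (g f) := fun f => Measurable.indicator (by fun_prop) (ht'm f)
  have h2 : ∀ ξ : E → ℝ, (Set.pi (s : Set E) t).indicator
      (fun ξ => ENNReal.ofReal (Real.exp (∑ f ∈ A, th u ξ f))) ξ = ∏ f ∈ s ∪ A, g f (ξ f) := by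
    intro ξ
    by_cases hξ : ξ ∈ Set.pi (s : Set E) t
    · rw [Set.indicator_of_mem hξ]
      have : ∀ f ∈ s ∪ A, g f (ξ f) =
          ENNReal.ofReal (Real.exp (u * one A f * ξ f - (u * one A f) ^ 2 / 2)) := by
        intro f _
        refine Set.indicator_of_mem ?_ _
        simp only [ht']; split_ifs with hf
        exacts [hξ f hf, Set.mem_univ _]
      rw [prod_congr rfl this, ← ENNReal.ofReal_prod_of_nonneg fun _ _ => (Real.exp_pos _).le,
        ← Real.exp_sum, ← sum_one_mul (subset_union_right (s₁ := s))]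
      congr 2
      refine sum_congr rfl fun f _ => ?_
      simp only [one, th]; split_ifs <;> ring
    · rw [Set.indicator_of_notMem hξ]
      simp only [Set.mem_pi, not_forall] at hξ
      obtain ⟨f, hf, hf'⟩ := hξ
      refine (prod_eq_zero (mem_union_left A hf) ?_).symm
      refine Set.indicator_of_notMem ?_ _
      have hf2 : f ∈ s := hf
      simpa only [ht', hf2, if_true] using hf'
  simp only [h2]
  have h3 := lintegral_prod_eq_prod_lintegral_of_indepFun (μ := gam E) (s ∪ A)
    (fun f ξ => g f (ξ f)) (iIndepFun_infinitePi (P := fun _ : E => gaussianReal 0 1) hgm)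
    (fun f => (hgm f).comp (measurable_pi_apply f))
  rw [h3]
  have h4 : ∀ f, ∫⁻ ξ, g f (ξ f) ∂gam E = gaussianReal (u * one A f) 1 (t' f) := by
    intro f
    rw [gauss_shift, withDensity_apply _ (ht'm f), ← lintegral_indicator (ht'm f),
      ← Measure.infinitePi_map_eval (fun _ : E => gaussianReal 0 1) f,
      lintegral_map (hgm f) (measurable_pi_apply f)]
    rfl
  simp only [h4]
  symm
  refine prod_subset_one_on_sdiff subset_union_left (fun f hf => ?_) fun f hf => ?_
  · simp only [ht', (mem_sdiff.1 hf).2, if_false, measure_univ]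
  · simp only [ht', hf, if_true]

lemma integrable_exp_th (u : ℝ) (A : Finset E) :
    Integrable (fun ξ : E → ℝ => Real.exp (∑ f ∈ A, th u ξ f)) (gam E) := by
  refine ⟨(measurable_exp_th u A).aestronglyMeasurable, ?_⟩
  rw [hasFiniteIntegral_iff_ofReal (ae_of_all _ fun _ => (Real.exp_pos _).le)]
  have h := congrArg (fun m : Measure (E → ℝ) => m Set.univ) (map_sh u A)
  simp only [withDensity_apply _ MeasurableSet.univ, Measure.restrict_univ] at h
  rw [← h, Measure.map_apply (measurable_sh u A) MeasurableSet.univ]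
  exact measure_lt_top _ _

lemma integral_sh (u : ℝ) (A : Finset E) {H : (E → ℝ) → ℝ} (hH : Measurable H) :
    ∫ ξ, H (sh u A ξ) ∂gam E = ∫ ξ, Real.exp (∑ f ∈ A, th u ξ f) * H ξ ∂gam E := by
  rw [← integral_map (measurable_sh u A).aemeasurable hH.aestronglyMeasurable, map_sh,
    integral_withDensity_eq_integral_toReal_smul (measurable_exp_th u A).ennreal_ofReal
      (ae_of_all _ fun _ => ENNReal.ofReal_lt_top)]
  simp only [ENNReal.toReal_ofReal (Real.exp_pos _).le, smul_eq_mul]

lemma integrable_of_bdd {Ω : Type*} [MeasurableSpace Ω] {μ : Measure Ω} [IsFiniteMeasure μ]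
    {H : Ω → ℝ} (hH : Measurable H) {c : ℝ} (hb : ∀ x, |H x| ≤ c) : Integrable H μ :=
  Integrable.of_bound hH.aestronglyMeasurable c (ae_of_all _ hb)

/-- Expectation under the joint law of the subset and the noisy observation. -/
noncomputable def nu2 (S : Finset E) (p : Finset E → ℝ) (u : ℝ)
    (Ψ : Finset E → (E → ℝ) → ℝ) : ℝ :=
  ∑ A ∈ S.powerset, p A * ∫ ξ, Ψ A (sh u A ξ) ∂gam E

noncomputable def nu (S : Finset E) (p : Finset E → ℝ) (u : ℝ) (H : (E → ℝ) → ℝ) : ℝ :=
  nu2 S p u (fun _ => H)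

variable {S : Finset E} {p : Finset E → ℝ}

lemma nu2_eq (hp : PV S p) (u : ℝ) {Ψ : Finset E → (E → ℝ) → ℝ} (hm : ∀ A, Measurable (Ψ A))
    {c : ℝ} (hb : ∀ A x, |Ψ A x| ≤ c) : nu2 S p u Ψ =
    ∫ ξ, Zt S p (th u ξ) * Et S p (th u ξ) (fun A => Ψ A ξ) ∂gam E := by
  have h1 : ∀ ξ, Zt S p (th u ξ) * Et S p (th u ξ) (fun A => Ψ A ξ) =
      ∑ A ∈ S.powerset, p A * (Real.exp (∑ f ∈ A, th u ξ f) * Ψ A ξ) := by
    intro ξ
    rw [Et, mul_div_cancel₀ _ (Zt_pos hp _).ne']
    simp only [wt, mul_assoc]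
  simp only [h1]
  rw [integral_finsetSum]
  · refine sum_congr rfl fun A _ => ?_
    rw [integral_const_mul, integral_sh u A (hm A)]
  · intro A _
    exact ((integrable_exp_th u A).mul_bdd (hm A).aestronglyMeasurable
      (ae_of_all _ (hb A))).const_mul _

lemma nu2_const (hp : PV S p) (u c : ℝ) : nu2 S p u (fun _ _ => c) = c := by
  simp [nu2, ← sum_mul, hp.sum_one]

lemma integrable_Zt (u : ℝ) : Integrable (fun ξ => Zt S p (th u ξ)) (gam E) :=
  integrable_finsetSum _ fun A _ => (integrable_exp_th u A).const_mul _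

lemma integral_Zt (hp : PV S p) (u : ℝ) : ∫ ξ, Zt S p (th u ξ) ∂gam E = 1 := by
  have := nu2_eq hp u (Ψ := fun _ _ => 1) (fun _ => measurable_const) (c := 1) (by simp)
  rw [nu2_const hp] at this
  simp only [Et_const hp, mul_one] at this
  exact this.symm

lemma abs_nu2_le (hp : PV S p) (u : ℝ) {Ψ : Finset E → (E → ℝ) → ℝ}
    (hm : ∀ A, Measurable (Ψ A)) {c : ℝ} (hb : ∀ A x, |Ψ A x| ≤ c) {ε : ℝ}
    (h : ∀ ξ, |Et S p (th u ξ) (fun A => Ψ A ξ)| ≤ ε) : |nu2 S p u Ψ| ≤ ε := by
  rw [nu2_eq hp u hm hb, ← Real.norm_eq_abs]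
  refine (norm_integral_le_of_norm_le ((integrable_Zt (S := S) (p := p) u).mul_const ε)
    (ae_of_all _ fun ξ => ?_)).trans ?_
  · rw [Real.norm_eq_abs, abs_mul, abs_of_pos (Zt_pos hp _)]
    exact mul_le_mul_of_nonneg_left (h ξ) (Zt_pos hp _).le
  · rw [integral_mul_const, integral_Zt hp, one_mul]

lemma nu2_sub (u : ℝ) {Ψ Φ : Finset E → (E → ℝ) → ℝ} (hm : ∀ A, Measurable (Ψ A))
    (hm' : ∀ A, Measurable (Φ A)) {c c' : ℝ} (hb : ∀ A x, |Ψ A x| ≤ c)
    (hb' : ∀ A x, |Φ A x| ≤ c') :
    nu2 S p u (fun A x => Ψ A x - Φ A x) = nu2 S p u Ψ - nu2 S p u Φ := by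
  rw [nu2, nu2, nu2, ← sum_sub_distrib]
  refine sum_congr rfl fun A _ => ?_
  rw [integral_sub, mul_sub]
  · exact integrable_of_bdd ((hm A).comp (measurable_sh u A)) fun x => hb A _
  · exact integrable_of_bdd ((hm' A).comp (measurable_sh u A)) fun x => hb' A _

lemma nu_step {K : ℝ} {G : (E → ℝ) → ℝ} (hG : QR S K G) (hp : PV S p) {h : ℝ} (hh : 0 ≤ h)
    (u : ℝ) : |nu S p (u + h) G - nu S p u (fun x => G (step S p h u x))|
      ≤ 2 * K * (S.card * h) ^ 2 := by
  have m1 : ∀ A : Finset E, Measurable fun x : E → ℝ => G (fun f => x f + h * one A f) :=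
    fun A => hG.meas.comp (measurable_sh h A)
  have m2 : Measurable fun x => G (step S p h u x) := hG.meas.comp (measurable_step S p h u)
  have e1 : nu S p (u + h) G = nu2 S p u (fun A x => G (fun f => x f + h * one A f)) := by
    refine sum_congr rfl fun A _ => ?_
    have : ∀ ξ : E → ℝ, sh (u + h) A ξ = fun f => sh u A ξ f + h * one A f := by
      intro ξ; ext f; simp only [sh]; ring
    simp only [this]
  rw [e1, nu, ← nu2_sub u m1 (fun _ => m2) (fun _ _ => hG.bdd _) (fun _ _ => hG.bdd _)]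
  refine abs_nu2_le hp u (fun A => (m1 A).sub m2) (c := 2) (fun A x => ?_)
    fun ξ => hG.one_step hp hh u ξ
  have := hG.bdd (fun f => x f + h * one A f)
  have := hG.bdd (step S p h u x)
  exact (abs_sub _ _).trans (by linarith)

/-- The Euler scheme. -/
noncomputable def eul (S : Finset E) (p : Finset E → ℝ) (h : ℝ) : ℕ → (E → ℝ) → E → ℝ
  | 0 => fun ξ => ξ
  | k + 1 => fun ξ => step S p h (k * h) (eul S p h k ξ)

lemma measurable_eul (S : Finset E) (p : Finset E → ℝ) (h : ℝ) (k : ℕ) :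
    Measurable (eul S p h k) := by
  induction k with
  | zero => exact measurable_id
  | succ k ih => exact (measurable_step S p h _).comp ih

lemma transport_aux (hp : PV S p) (hl : Lip S p) {h T : ℝ} (hh : 0 ≤ h) (k : ℕ)
    (hk : k * h ≤ T) : ∀ (K : ℝ) (G : (E → ℝ) → ℝ), QR S K G →
      |∫ ξ, G (eul S p h k ξ) ∂gam E - nu S p (k * h) G| ≤
        K * (k * ((1 + h * CS S T) ^ 3) ^ k * (2 * (S.card * h) ^ 2)) := by
  induction k with
  | zero =>
    intro K G _
    have : ∀ (A : Finset E) (ξ : E → ℝ), sh 0 A ξ = ξ := fun A ξ => by ext f; simp [sh]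
    simp [eul, nu, nu2, this, ← sum_mul, hp.sum_one]
  | succ k ih =>
    intro K G hG
    have hk0 : (0 : ℝ) ≤ k * h := mul_nonneg (Nat.cast_nonneg _) hh
    have hk' : k * h ≤ T := by push_cast at hk; nlinarith
    have h1 := ih hk' _ _ (hG.comp_step hp hl hh hk0 hk')
    have h2 := nu_step hG hp hh (k * h)
    set a := (1 + h * CS S T) ^ 3 with ha
    have ha1 : 1 ≤ a := one_le_pow₀ (by nlinarith [mul_nonneg hh (CS_nonneg S T)])
    have ha2 : 1 ≤ a ^ (k + 1) := one_le_pow₀ ha1
    have e1 : ((k + 1 : ℕ) : ℝ) * h = k * h + h := by push_cast; ring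
    rw [e1]
    simp only [eul]
    have h3 := abs_sub_le (∫ ξ, G (step S p h (k * h) (eul S p h k ξ)) ∂gam E)
      (nu S p (k * h) fun x => G (step S p h (k * h) x)) (nu S p (k * h + h) G)
    rw [abs_sub_comm] at h2
    have h4 : 0 ≤ K * (2 * (S.card * h) ^ 2) := mul_nonneg hG.nonneg (by positivity)
    have h5 := mul_le_mul_of_nonneg_left ha2 h4
    calc _ ≤ K * a * (k * a ^ k * (2 * (S.card * h) ^ 2)) + 2 * K * (S.card * h) ^ 2 :=
          h3.trans (add_le_add h1 h2)
      _ ≤ _ := by push_cast; rw [pow_succ a k] at h5 ⊢; nlinarith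

noncomputable def BS (S : Finset E) (T : ℝ) : ℝ :=
  2 * (S.card : ℝ) ^ 2 * T * Real.exp (3 * CS S T * T)

theorem transport (hp : PV S p) (hl : Lip S p) {h T : ℝ} (hh : 0 ≤ h) {k : ℕ}
    (hk : k * h ≤ T) {K : ℝ} {G : (E → ℝ) → ℝ} (hG : QR S K G) :
    |∫ ξ, G (eul S p h k ξ) ∂gam E - nu S p (k * h) G| ≤ K * BS S T * h := by
  refine (transport_aux hp hl hh k hk K G hG).trans ?_
  rw [mul_assoc K]
  refine mul_le_mul_of_nonneg_left ?_ hG.nonneg
  have hC := CS_nonneg S T
  have h1 : ((1 + h * CS S T) ^ 3) ^ k ≤ Real.exp (3 * CS S T * T) := by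
    have a1 : 1 + h * CS S T ≤ Real.exp (h * CS S T) := by
      rw [add_comm]; exact Real.add_one_le_exp _
    calc ((1 + h * CS S T) ^ 3) ^ k ≤ (Real.exp (h * CS S T) ^ 3) ^ k := by gcongr
      _ = Real.exp (3 * CS S T * (k * h)) := by
          rw [← pow_mul, ← Real.exp_nat_mul]; congr 1; push_cast; ring
      _ ≤ _ := by gcongr
  calc (k : ℝ) * ((1 + h * CS S T) ^ 3) ^ k * (2 * (S.card * h) ^ 2)
      = 2 * (S.card : ℝ) ^ 2 * (k * h) * ((1 + h * CS S T) ^ 3) ^ k * h := by ring
    _ ≤ _ := by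
      have : 0 ≤ T := (mul_nonneg (Nat.cast_nonneg _) hh).trans hk
      unfold BS; gcongr

end Vale.Agent.P143
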