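import Vale.Agent.P143.Param

/-! Balls, and independent Gaussian noise on pairs of vertices built from vertex labels. -/

namespace Vale.Agent.P143

open MeasureTheory ProbabilityTheory Filter Topology SimpleGraph
open scoped Classical

variable {V V' : Type*}

/-- The ball of radius `n` around `u`. -/
def ball (G : SimpleGraph V) (u : V) : ℕ → Set V
  | 0 => {u}
  | n + 1 => ball G u n ∪ {w | ∃ v, v ∈ ball G u n ∧ G.Adj v w}

lemma ball_mono (G : SimpleGraph V) (u : V) : Monotone (ball G u) :=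
  monotone_nat_of_le_succ fun _ => Set.subset_union_left

lemma ball_finite {G : SimpleGraph V} (hG : ∀ v, (G.neighborSet v).Finite) (u : V) (n : ℕ) :
    (ball G u n).Finite := by
  induction n with
  | zero => exact Set.finite_singleton u
  | succ n ih =>
    refine ih.union ((ih.biUnion fun v _ => hG v).subset ?_)
    rintro w ⟨v, hv, hw⟩
    exact Set.mem_biUnion hv hw

lemma exists_mem_ball {G : SimpleGraph V} {u v : V} (h : G.Reachable u v) :
    ∃ n, v ∈ ball G u n := by
  rw [reachable_iff_reflTransGen] at h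
  induction h with
  | refl => exact ⟨0, rfl⟩
  | tail _ hbc ih =>
    obtain ⟨n, hn⟩ := ih
    exact ⟨n + 1, Or.inr ⟨_, hn, hbc⟩⟩

lemma mem_ball_iso {G : SimpleGraph V} {G' : SimpleGraph V'} (φ : G ≃g G') (u : V) (n : ℕ)
    (v : V) : φ v ∈ ball G' (φ u) n ↔ v ∈ ball G u n := by
  induction n generalizing v with
  | zero => simp [ball]
  | succ n ih =>
    simp only [ball, Set.mem_union, ih, Set.mem_ofPred_eq]
    refine or_congr Iff.rfl ⟨?_, ?_⟩
    · rintro ⟨w, hw, h⟩
      obtain ⟨w, rfl⟩ := φ.surjective w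
      exact ⟨w, (ih w).1 hw, φ.map_adj_iff.1 h⟩
    · rintro ⟨w, hw, h⟩
      exact ⟨φ w, (ih w).2 hw, φ.map_adj_iff.2 h⟩

lemma measurable_mem_ball [Countable V] {Ω : Type*} [MeasurableSpace Ω] {G : Ω → SimpleGraph V}
    (hG : Measurable G) (u : V) (n : ℕ) (v : V) : Measurable fun ω => v ∈ ball (G ω) u n := by
  induction n generalizing v with
  | zero => exact measurable_const
  | succ n ih =>
    exact (ih v).or (Measurable.exists fun w => (ih w).and (measurable_iff_adj.1 hG w v))

/-- A finite set as a finset, and the empty finset otherwise. -/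
noncomputable def fin {α : Type*} (s : Set α) : Finset α :=
  if h : s.Finite then h.toFinset else ∅

lemma fin_eq_iff {α : Type*} (s : Set α) (S : Finset α) :
    fin s = S ↔ s = S ∨ (S = ∅ ∧ ∀ S' : Finset α, s ≠ S') := by
  unfold fin
  split_ifs with h
  · constructor
    · rintro rfl; simp
    · rintro (rfl | ⟨_, h'⟩)
      · simp
      · exact absurd (by simp) (h' h.toFinset)
  · constructor
    · rintro rfl
      exact Or.inr ⟨rfl, fun S' h' => h (h' ▸ S'.finite_toSet)⟩
    · rintro (rfl | ⟨h', _⟩)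
      · exact absurd S.finite_toSet h
      · exact h'.symm

lemma measurableSet_fin {α Ω : Type*} [Countable α] [MeasurableSpace Ω] {s : Ω → Set α}
    (hs : ∀ a, Measurable fun ω => a ∈ s ω) (S : Finset α) :
    MeasurableSet {ω | fin (s ω) = S} := by
  have h : ∀ S : Finset α, Measurable fun ω => s ω = S := fun S => by
    simp only [Set.ext_iff]
    exact Measurable.forall fun a => (hs a).iff measurable_const
  simp only [fin_eq_iff]
  exact measurableSet_setOfPred.2 ((h S).or (measurable_const.and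
    (Measurable.forall fun S' => (h S').not)))

lemma fin_map {α β : Type*} (π : α ≃ β) {s : Set α} {t : Set β} (h : ∀ a, π a ∈ t ↔ a ∈ s) :
    fin t = (fin s).map π.toEmbedding := by
  have e : t = π '' s := by
    ext b
    obtain ⟨a, rfl⟩ := π.surjective b
    simp [h]
  have e2 : t.Finite ↔ s.Finite := by rw [e]; exact Set.finite_image_iff π.injective.injOn
  unfold fin
  by_cases hs : s.Finite
  · rw [dif_pos hs, dif_pos (e2.2 hs)]
    ext b
    obtain ⟨a, rfl⟩ := π.surjective b
    simp [h]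
  · rw [dif_neg hs, dif_neg (fun h' => hs (e2.1 h')), Finset.map_empty]

/-- The pairs of vertices within distance `r` of `e`. -/
noncomputable def BE (G : SimpleGraph V) (e : Sym2 V) (r : ℕ) : Finset (Sym2 V) :=
  fin {f | ∀ a, a ∈ f → ∃ b, b ∈ e ∧ a ∈ ball G b r}

lemma exh_BE {G : SimpleGraph V} (hc : G.Connected) (hG : ∀ v, (G.neighborSet v).Finite) :
    Exh (BE G) := by
  intro e S
  induction e using Sym2.ind with
  | h x y =>
  have h1 : ∀ f : Sym2 V, ∀ᶠ r in atTop, ∀ a, a ∈ f → a ∈ ball G x r := by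
    intro f
    induction f using Sym2.ind with
    | h u v =>
      obtain ⟨n, hn⟩ := exists_mem_ball (hc.preconnected x u)
      obtain ⟨m, hm⟩ := exists_mem_ball (hc.preconnected x v)
      filter_upwards [eventually_ge_atTop n, eventually_ge_atTop m] with r h1 h2 a ha
      rcases Sym2.mem_iff.1 ha with rfl | rfl
      exacts [ball_mono G x h1 hn, ball_mono G x h2 hm]
  obtain ⟨r0, hr0⟩ := eventually_atTop.1 ((eventually_all_finset S).2 fun f _ => h1 f)
  refine ⟨r0, fun r hr f hf => ?_⟩
  have hfin : {f : Sym2 V | ∀ a, a ∈ f → ∃ b, b ∈ s(x, y) ∧ a ∈ ball G b r}.Finite := by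
    have h2 := (ball_finite hG x r).union (ball_finite hG y r)
    refine ((h2.prod h2).image (fun z => s(z.1, z.2))).subset fun g hg => ?_
    induction g using Sym2.ind with
    | h u v =>
      have key : ∀ a, a ∈ s(u, v) → a ∈ ball G x r ∪ ball G y r := by
        intro a ha
        obtain ⟨b, hb, h⟩ := hg a ha
        rcases Sym2.mem_iff.1 hb with rfl | rfl
        exacts [Or.inl h, Or.inr h]
      exact ⟨(u, v), ⟨key u (by simp), key v (by simp)⟩, rfl⟩
  rw [BE, fin, dif_pos hfin, Set.Finite.mem_toFinset]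
  exact fun a ha => ⟨x, by simp, hr0 r hr f hf a ha⟩

/-- The bijection of unordered pairs induced by a bijection. -/
def sq2 (φ : V ≃ V') : Sym2 V ≃ Sym2 V' where
  toFun := Sym2.map φ
  invFun := Sym2.map φ.symm
  left_inv e := by induction e using Sym2.ind; simp
  right_inv e := by induction e using Sym2.ind; simp

@[simp] lemma sq2_mk (φ : V ≃ V') (u v : V) : sq2 φ s(u, v) = s(φ u, φ v) := rfl

lemma BE_iso {G : SimpleGraph V} {G' : SimpleGraph V'} (φ : G ≃g G') (e : Sym2 V) (r : ℕ) :
    BE G' (sq2 φ.toEquiv e) r = (BE G e r).map (sq2 φ.toEquiv).toEmbedding := by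
  refine fin_map _ fun f => ?_
  induction e using Sym2.ind with
  | h x y =>
  induction f using Sym2.ind with
  | h u v =>
    simp only [sq2_mk, Set.mem_ofPred_eq, Sym2.mem_iff, forall_eq_or_imp, forall_eq,
      exists_eq_or_imp, exists_eq_left, RelIso.coe_fn_toEquiv, mem_ball_iso]

lemma measurableSet_BE [Countable V] {Ω : Type*} [MeasurableSpace Ω] {G : Ω → SimpleGraph V}
    (hG : Measurable G) (e : Sym2 V) (r : ℕ) (S : Finset (Sym2 V)) :
    MeasurableSet {ω | BE (G ω) e r = S} :=
  measurableSet_fin (s := fun ω => {f | ∀ a, a ∈ f → ∃ b, b ∈ e ∧ a ∈ ball (G ω) b r})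
    (fun _ => Measurable.forall fun a => measurable_const.imp (Measurable.exists fun b =>
      measurable_const.and (measurable_mem_ball hG b r a))) S

noncomputable def dst (G : SimpleGraph V) (u v : V) : ℕ := sInf {n | v ∈ ball G u n}

/-- The slot at `u` reserved for `v`. -/
noncomputable def idx (G : SimpleGraph V) (τ : V → ℝ) (u v : V) : ℕ × ℕ :=
  (dst G u v, {w | w ∈ ball G u (dst G u v) ∧ τ w < τ v}.ncard)

lemma idx_inj {G : SimpleGraph V} (hc : G.Connected) (hG : ∀ v, (G.neighborSet v).Finite)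
    {τ : V → ℝ} (hτ : Function.Injective τ) (u : V) : Function.Injective (idx G τ u) := by
  have hmem : ∀ v, v ∈ ball G u (dst G u v) :=
    fun v => Nat.sInf_mem (exists_mem_ball (hc.preconnected u v))
  have key : ∀ v v', idx G τ u v = idx G τ u v' → ¬ τ v < τ v' := by
    intro v v' h hlt
    obtain ⟨h1, h2⟩ := Prod.ext_iff.1 h
    simp only [idx] at h1 h2
    rw [← h1] at h2
    refine (Set.ncard_lt_ncard ?_ ((ball_finite hG u (dst G u v)).subset fun w hw => hw.1)).ne h2
    refine ⟨fun w hw => ⟨hw.1, hw.2.trans hlt⟩, fun h' => ?_⟩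
    exact lt_irrefl _ (h' (show v ∈ {w | w ∈ ball G u (dst G u v) ∧ τ w < τ v'} from
      ⟨hmem v, hlt⟩)).2
  intro v v' h
  exact hτ (le_antisymm (not_lt.1 (key v' v h.symm)) (not_lt.1 (key v v' h)))

lemma idx_iso {G : SimpleGraph V} {G' : SimpleGraph V'} (φ : G ≃g G') {τ : V → ℝ} {τ' : V' → ℝ}
    (hτ : ∀ v, τ' (φ v) = τ v) (u v : V) : idx G' τ' (φ u) (φ v) = idx G τ u v := by
  have h1 : dst G' (φ u) (φ v) = dst G u v := by simp only [dst, mem_ball_iso]
  simp only [idx, h1, hτ]
  congr 1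
  rw [← Set.ncard_image_of_injective _ φ.injective]
  congr 1
  ext w
  obtain ⟨w, rfl⟩ := φ.surjective w
  simp [mem_ball_iso, hτ]

lemma measurableSet_idx [Countable V] {Ω : Type*} [MeasurableSpace Ω] {G : Ω → SimpleGraph V}
    (hG : Measurable G) {τ : Ω → V → ℝ} (hτ : ∀ v, Measurable fun ω => τ ω v) (u v : V)
    (k : ℕ × ℕ) : MeasurableSet {ω | idx (G ω) (τ ω) u v = k} := by
  have h1 : ∀ n, MeasurableSet {ω | dst (G ω) u v = n} :=
    measurableSet_sInf fun n => measurable_mem_ball hG u n v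
  refine measurableSet_pick
    (F := fun n ω => (n, {w | w ∈ ball (G ω) u n ∧ τ ω w < τ ω v}.ncard)) h1 (fun n k => ?_) k
  have h2 : Measurable fun ω => {w | w ∈ ball (G ω) u n ∧ τ ω w < τ ω v}.ncard :=
    measurable_ncard.comp (measurable_set_iff.2 fun w => (measurable_mem_ball hG u n w).and
      (measurableSet_setOfPred.1 (measurableSet_lt (hτ w) (hτ v))))
  exact (measurable_const.prodMk h2) (measurableSet_singleton k)

/-- The noise attached to an unordered pair. -/
noncomputable def nz (G : SimpleGraph V) (τ : V → ℝ) (ζ : V × (ℕ × ℕ) → ℝ) : Sym2 V → ℝ :=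
  Sym2.lift ⟨fun u v => if τ v < τ u then ζ (u, idx G τ u v) else
    if τ u < τ v then ζ (v, idx G τ v u) else if u = v then ζ (u, idx G τ u v) else 0, by
      intro u v
      rcases lt_trichotomy (τ u) (τ v) with h | h | h
      · simp [h, h.not_gt]
      · by_cases huv : u = v
        · subst huv; rfl
        · simp [h, huv, Ne.symm huv]
      · simp [h, h.not_gt]⟩

lemma nz_mk (G : SimpleGraph V) (τ : V → ℝ) (ζ : V × (ℕ × ℕ) → ℝ) (u v : V) :
    nz G τ ζ s(u, v) = if τ v < τ u then ζ (u, idx G τ u v) else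
      if τ u < τ v then ζ (v, idx G τ v u) else if u = v then ζ (u, idx G τ u v) else 0 := rfl

lemma nz_iso {G : SimpleGraph V} {G' : SimpleGraph V'} (φ : G ≃g G') {τ : V → ℝ} {τ' : V' → ℝ}
    (hτ : ∀ v, τ' (φ v) = τ v) {ζ : V × (ℕ × ℕ) → ℝ} {ζ' : V' × (ℕ × ℕ) → ℝ}
    (hζ : ∀ v k, ζ' (φ v, k) = ζ (v, k)) (e : Sym2 V) :
    nz G' τ' ζ' (sq2 φ.toEquiv e) = nz G τ ζ e := by
  induction e using Sym2.ind with
  | h u v =>
    simp only [sq2_mk, nz_mk, RelIso.coe_fn_toEquiv, hτ, hζ, idx_iso φ hτ, φ.injective.eq_iff]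

lemma measurable_nz [Countable V] {Ω : Type*} [MeasurableSpace Ω] {G : Ω → SimpleGraph V}
    (hG : Measurable G) {τ : Ω → V → ℝ} (hτ : ∀ v, Measurable fun ω => τ ω v)
    {ζ : Ω → V × (ℕ × ℕ) → ℝ} (hζ : ∀ z, Measurable fun ω => ζ ω z) (e : Sym2 V) :
    Measurable fun ω => nz (G ω) (τ ω) (ζ ω) e := by
  have h : ∀ u v, Measurable fun ω => ζ ω (u, idx (G ω) (τ ω) u v) := fun u v =>
    measurable_pick (F := fun k ω => ζ ω (u, k)) (measurableSet_idx hG hτ u v) fun k => hζ _
  induction e using Sym2.ind with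
  | h u v =>
    simp only [nz_mk]
    refine Measurable.ite (measurableSet_lt (hτ v) (hτ u)) (h u v)
      (Measurable.ite (measurableSet_lt (hτ u) (hτ v)) (h v u) ?_)
    by_cases huv : u = v
    · simp only [huv, if_true]; exact h v v
    · simp only [huv, if_false]; exact measurable_const

lemma map_nz_of_inj {G : SimpleGraph V} (hc : G.Connected) (hG : ∀ v, (G.neighborSet v).Finite)
    {τ : V → ℝ} (hτ : Function.Injective τ) :
    (gam (V × (ℕ × ℕ))).map (nz G τ) = gam (Sym2 V) := by
  have h1 : ∀ e : Sym2 V, ∃ z : V × V, e = s(z.1, z.2) ∧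
      ∀ ζ, nz G τ ζ e = ζ (z.1, idx G τ z.1 z.2) := by
    intro e
    induction e using Sym2.ind with
    | h u v =>
      rcases lt_trichotomy (τ u) (τ v) with h | h | h
      · exact ⟨(v, u), Sym2.eq_swap, fun ζ => by simp [nz_mk, h, h.not_gt]⟩
      · obtain rfl := hτ h
        exact ⟨(u, u), rfl, fun ζ => by simp [nz_mk]⟩
      · exact ⟨(u, v), rfl, fun ζ => by simp [nz_mk, h]⟩
  choose z hz1 hz2 using h1
  have h2 : Function.Injective fun e => ((z e).1, idx G τ (z e).1 (z e).2) := by
    intro e e' h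
    obtain ⟨a1, a2⟩ := Prod.ext_iff.1 h
    simp only at a1 a2
    rw [← a1] at a2
    rw [hz1 e, hz1 e', idx_inj hc hG hτ _ a2, a1]
  rw [← gam_map h2]
  congr 1
  ext ζ e
  exact hz2 e ζ

lemma ae_injective [Countable V] : ∀ᵐ τ ∂gam V, Function.Injective τ := by
  have h : ∀ u v : V, ∀ᵐ τ ∂gam V, τ u = τ v → u = v := by
    intro u v
    by_cases huv : u = v
    · exact ae_of_all _ fun _ _ => huv
    have h1 := Measure.infinitePi_map_eval_prod (P := fun _ : V => gaussianReal 0 1) huv
    have hd : MeasurableSet {x : ℝ × ℝ | x.1 = x.2} :=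
      measurableSet_eq_fun measurable_fst measurable_snd
    have h2 : ((gaussianReal 0 1).prod (gaussianReal 0 1)) {x : ℝ × ℝ | x.1 = x.2} = 0 := by
      have := nullSingletonClass_gaussianReal (μ := 0) (v := 1) one_ne_zero
      rw [Measure.measure_prod_null hd]
      refine ae_of_all _ fun x => ?_
      have : Prod.mk x ⁻¹' {x : ℝ × ℝ | x.1 = x.2} = {x} := by ext; simp [eq_comm]
      simp [this]
    rw [← h1, Measure.map_apply (by fun_prop) hd] at h2
    exact measure_mono_null (fun τ hτ => by simpa using (Classical.not_imp.1 hτ).1) h2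
  filter_upwards [ae_all_iff.2 fun u => ae_all_iff.2 fun v => h u v] with τ hτ u v using hτ u v

lemma map_nz [Countable V] {G : SimpleGraph V} (hc : G.Connected)
    (hG : ∀ v, (G.neighborSet v).Finite) :
    ((gam V).prod (gam (V × (ℕ × ℕ)))).map (fun x => nz G x.1 x.2) = gam (Sym2 V) := by
  have hm : Measurable fun x : (V → ℝ) × (V × (ℕ × ℕ) → ℝ) => nz G x.1 x.2 :=
    measurable_pi_lambda _ fun e => measurable_nz (G := fun _ => G) measurable_const
      (fun v => by fun_prop) (fun z => by fun_prop) e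
  ext s hs
  rw [Measure.map_apply hm hs, Measure.prod_apply (hm hs)]
  have : ∀ᵐ τ ∂gam V, gam (V × (ℕ × ℕ)) (Prod.mk τ ⁻¹' ((fun x : (V → ℝ) × (V × (ℕ × ℕ) → ℝ) =>
      nz G x.1 x.2) ⁻¹' s)) = gam (Sym2 V) s := by
    filter_upwards [ae_injective] with τ hτ
    have hm' : Measurable (nz G τ) := hm.comp (measurable_prodMk_left (x := τ))
    rw [← map_nz_of_inj hc hG hτ, Measure.map_apply hm' hs]
    rfl
  rw [lintegral_congr_ae this]
  simp

lemma gam_sum (A B : Type*) : (gam (A ⊕ B)).map (fun ξ => (fun a => ξ (Sum.inl a),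
    fun b => ξ (Sum.inr b))) = (gam A).prod (gam B) := by
  have hm : Measurable fun x : (A → ℝ) × (B → ℝ) => Sum.elim x.1 x.2 :=
    measurable_pi_lambda _ fun i => by cases i <;> simp <;> fun_prop
  have h : ((gam A).prod (gam B)).map (fun x => Sum.elim x.1 x.2) = gam (A ⊕ B) := by
    refine Measure.eq_infinitePi _ fun s t ht => ?_
    rw [Measure.map_apply hm (.pi s.countable_toSet fun i _ => ht i)]
    have : (fun x : (A → ℝ) × (B → ℝ) => Sum.elim x.1 x.2) ⁻¹' (Set.pi s t) =
        (Set.pi s.toLeft fun a => t (Sum.inl a)) ×ˢ (Set.pi s.toRight fun b => t (Sum.inr b)) := by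
      ext x; simp [Set.mem_pi]
    rw [this, Measure.prod_prod, Finset.prod_sum_eq_prod_toLeft_mul_prod_toRight, gam, gam,
      Measure.infinitePi_pi _ fun _ _ => ht _, Measure.infinitePi_pi _ fun _ _ => ht _]
  rw [← h, Measure.map_map (by fun_prop) hm]
  exact Measure.map_id

lemma map_labels (V : Type*) :
    (Measure.infinitePi fun _ : V => gam (Option (ℕ × ℕ))).map
      (fun l => (fun v => l v none, fun z : V × (ℕ × ℕ) => l z.1 (some z.2))) =
    (gam V).prod (gam (V × (ℕ × ℕ))) := by
  have h1 := Measure.infinitePi_map_curry_symm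
    (fun (_ : V) (_ : Option (ℕ × ℕ)) => gaussianReal 0 1)
  have h2 : Function.Injective (Sum.elim (fun v : V => (v, (none : Option (ℕ × ℕ))))
      (fun z : V × (ℕ × ℕ) => (z.1, some z.2))) := by
    rintro (a | ⟨a, k⟩) (b | ⟨b, m⟩) h <;> simp_all
  rw [← gam_sum, ← gam_map h2, gam, gam, ← h1, Measure.map_map (by fun_prop) (by fun_prop),
    Measure.map_map (by fun_prop) (by fun_prop)]
  rfl

end Vale.Agent.P143
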