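import Vale.Agent.P143.Free
import Vale.Agent.P143.Noise
import Vale.Agent.P143.Defs

/-! The graph factor: invariance, measurability and law. -/

namespace Vale.Agent.P143

open Finset MeasureTheory ProbabilityTheory Filter Topology SimpleGraph
open scoped Classical

section iso
variable {V V' : Type*}

def grIso (φ : V ≃ V') (T : Finset (Sym2 V)) : gr T ≃g gr (T.map (sq2 φ).toEmbedding) where
  toEquiv := φ
  map_rel_iff' {a b} := by
    rw [gr_adj, gr_adj, ← sq2_mk, ← Equiv.coe_toEmbedding, Finset.mem_map']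
    simp

lemma isBase_map (φ : V ≃ V') (F T : Finset (Sym2 V)) :
    IsBase (F.map (sq2 φ).toEmbedding) (T.map (sq2 φ).toEmbedding) ↔ IsBase F T := by
  unfold IsBase
  refine and_congr map_subset_map (and_congr ?_ (and_congr (grIso φ T).isAcyclic_iff.symm ?_))
  · simp only [Finset.mem_map, forall_exists_index, and_imp, forall_apply_eq_imp_iff₂]
    refine forall₂_congr fun f _ => not_congr ?_
    induction f using Sym2.ind with
    | h u v => simp
  · have h : ∀ (T : Finset (Sym2 V)) (a b : V),
        (gr (T.map (sq2 φ).toEmbedding)).Reachable (φ a) (φ b) ↔ (gr T).Reachable a b :=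
      fun T a b => Iso.reachable_iff (φ := grIso φ T)
    constructor
    · intro h'; ext a b; rw [← h, ← h, h']
    · intro h'; ext a b
      obtain ⟨a, rfl⟩ := φ.surjective a
      obtain ⟨b, rfl⟩ := φ.surjective b
      rw [h, h, h']

lemma pF_map (φ : V ≃ V') (F S A : Finset (Sym2 V)) :
    pF (F.map (sq2 φ).toEmbedding) (S.map (sq2 φ).toEmbedding) (A.map (sq2 φ).toEmbedding) =
      pF F S A := by
  have h : ∀ T, T ∈ bases F ↔ (sq2 φ).finsetCongr T ∈ bases (F.map (sq2 φ).toEmbedding) := by
    intro T; rw [mem_bases, mem_bases, Equiv.finsetCongr_apply, isBase_map]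
  unfold pF avg
  rw [← card_equiv _ h, ← sum_equiv _ h (f := fun T => if T ∩ S = A then (1 : ℝ) else 0)]
  intro T _
  simp only [Equiv.finsetCongr_apply, ← map_inter, Finset.map_inj]

lemma pG_iso {G : SimpleGraph V} {G' : SimpleGraph V'} (φ : G ≃g G') (S A : Finset (Sym2 V)) :
    pG G' (S.map (sq2 φ.toEquiv).toEmbedding) (A.map (sq2 φ.toEquiv).toEmbedding) = pG G S A := by
  have h1 : Tendsto (fun F : Finset (Sym2 V) => F.map (sq2 φ.toEquiv).toEmbedding) atTop atTop :=
    Monotone.tendsto_atTop_atTop (fun _ _ h => map_subset_map.2 h) fun F' =>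
      ⟨(sq2 φ.toEquiv).finsetCongr.symm F',
        le_of_eq ((sq2 φ.toEquiv).finsetCongr.apply_symm_apply F').symm⟩
  refine tendsto_nhds_unique ((tendsto_pF G' _ _).comp h1) ((tendsto_pF G S A).congr fun F => ?_)
  have : EG G' (F.map (sq2 φ.toEquiv).toEmbedding) = (EG G F).map (sq2 φ.toEquiv).toEmbedding := by
    rw [EG, EG, filter_map]
    congr 1
    refine filter_congr fun f _ => ?_
    induction f using Sym2.ind with
    | h u v => simp [φ.map_adj_iff]
  simp only [Function.comp, this, pF_map]

lemma measurable_pG [Countable V] {Ω : Type*} [MeasurableSpace Ω] {G : Ω → SimpleGraph V}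
    (hG : Measurable G) (S A : Finset (Sym2 V)) : Measurable fun ω => pG (G ω) S A := by
  refine measurable_of_tendsto_metrizable' (atTop : Filter (Finset (Sym2 V)))
    (f := fun F ω => pF (EG (G ω) F) S A) (fun F => ?_)
    (tendsto_pi_nhds.2 fun ω => tendsto_pF (G ω) S A)
  refine measurable_pick (F := fun F' _ => pF F' S A) (fun F' => ?_) fun _ => measurable_const
  simp only [Finset.ext_iff, EG, mem_filter]
  exact measurableSet_setOfPred.2 (Measurable.forall fun f => (measurable_const.and
    (measurable_set_iff.1 (measurable_edgeSet.comp hG) f)).iff measurable_const)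

/-- The factor. -/
noncomputable def fac (lab : unitInterval → Option (ℕ × ℕ) → ℝ) (G : SimpleGraph V)
    (U : V → unitInterval) (e : Sym2 V) : Bool :=
  decide (psi (pG G) (BE G) (nz G (fun v => lab (U v) none) (fun z => lab (U z.1) (some z.2))) e)

lemma fac_iso (lab : unitInterval → Option (ℕ × ℕ) → ℝ) {G : SimpleGraph V} {G' : SimpleGraph V'}
    (φ : G ≃g G') {U : V → unitInterval} {U' : V' → unitInterval} (hU : ∀ v, U' (φ v) = U v)
    (e : Sym2 V) : fac lab G' U' (e.map φ) = fac lab G U e := by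
  unfold fac
  rw [decide_eq_decide]
  exact psi_map (sq2 φ.toEquiv) (pG_iso φ) (BE_iso φ)
    (nz_iso φ (fun v => by rw [hU]) (fun v k => by simp only [hU])) e

lemma measurable_fac [Countable V] {lab : unitInterval → Option (ℕ × ℕ) → ℝ}
    (hlab : Measurable lab) {Ω : Type*} [MeasurableSpace Ω] {G : Ω → SimpleGraph V}
    (hG : Measurable G) {U : Ω → V → unitInterval} (hU : Measurable U) (e : Sym2 V) :
    Measurable fun ω => fac lab (G ω) (U ω) e := by
  have h := measurable_psi_param (measurable_pG hG) (measurableSet_BE hG)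
    (measurable_nz hG (τ := fun ω v => lab (U ω v) none) (fun v => by fun_prop)
      (ζ := fun ω z => lab (U ω z.1) (some z.2)) (fun z => by fun_prop)) e
  refine measurable_to_bool ?_
  convert measurableSet_setOfPred.2 h using 1
  ext ω
  simp [fac]

end iso

variable {V : Type}

instance : IsProbabilityMeasure (iidLabels V) := by unfold iidLabels; infer_instance

lemma fac_law [Countable V] {lab : unitInterval → Option (ℕ × ℕ) → ℝ} (hlab : Measurable lab)
    (hlaw : (volume : Measure unitInterval).map lab = gam (Option (ℕ × ℕ))) {G : SimpleGraph V}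
    (hc : G.Connected) (hG : ∀ v, (G.neighborSet v).Finite) {A C : Finset (Sym2 V)}
    (hC : C ⊆ A) :
    (iidLabels V).real {U | ∀ e ∈ A, (fac lab G U e = true ↔ e ∈ C)} = pG G A C := by
  have m1 : Measurable fun (U : V → unitInterval) v => lab (U v) := by fun_prop
  have m2 : Measurable fun l : V → Option (ℕ × ℕ) → ℝ =>
      (fun v => l v none, fun z : V × (ℕ × ℕ) => l z.1 (some z.2)) := by fun_prop
  have m3 : Measurable fun x : (V → ℝ) × (V × (ℕ × ℕ) → ℝ) => nz G x.1 x.2 :=
    measurable_pi_lambda _ fun e => measurable_nz (G := fun _ => G) measurable_const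
      (fun v => by fun_prop) (fun z => by fun_prop) e
  have h1 : (iidLabels V).map (fun U v => lab (U v)) =
      Measure.infinitePi fun _ : V => gam (Option (ℕ × ℕ)) := by
    rw [iidLabels, Measure.infinitePi_map_pi _ (fun _ => hlab)]
    simp only [hlaw]
  have hm : MeasurableSet {ξ | ∀ e ∈ A, (psi (pG G) (BE G) ξ e ↔ e ∈ C)} :=
    measurableSet_setOfPred.2 (Measurable.forall fun e => measurable_const.imp
      ((measurable_psi _ _ e).iff measurable_const))
  rw [← psi_law (good_pG G) (exh_BE hc hG) hC, ← map_nz hc hG, ← map_labels, ← h1,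
    Measure.map_map m2 m1, Measure.map_map m3 (m2.comp m1),
    map_measureReal_apply (m3.comp (m2.comp m1)) hm]
  congr 1
  ext U
  simp [fac]

lemma reach_induce {A : SimpleGraph V} {W : Set V} (hW : ∀ a b, A.Adj a b → b ∈ W) {a b : V}
    (ha : a ∈ W) (h : A.Reachable a b) : ∃ hb : b ∈ W, (A.induce W).Reachable ⟨a, ha⟩ ⟨b, hb⟩ := by
  rw [reachable_iff_reflTransGen] at h
  induction h with
  | refl => exact ⟨ha, Reachable.refl _⟩
  | tail _ hbc ih =>
    obtain ⟨hb, h⟩ := ih
    exact ⟨hW _ _ hbc, h.trans (Adj.reachable hbc)⟩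

lemma acyclic_of_induce {A : SimpleGraph V} {W : Set V} (hW : ∀ a b, A.Adj a b → b ∈ W)
    (h : (A.induce W).IsAcyclic) : A.IsAcyclic := by
  rw [isAcyclic_iff_forall_adj_isBridge] at h ⊢
  intro v w hvw hr
  obtain ⟨hb, h1⟩ := reach_induce (W := W) (fun a b hab => hW a b (deleteEdges_adj.1 hab).1)
    (hW w v hvw.symm) hr
  refine h (v := ⟨v, hW w v hvw.symm⟩) (w := ⟨w, hb⟩) hvw (h1.mono ?_)
  rintro ⟨a, ha⟩ ⟨b, hb⟩ hab
  simp only [comap_adj, deleteEdges_adj, Function.Embedding.subtype_apply, Set.mem_singleton_iff,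
    Sym2.eq_iff, Subtype.mk.injEq] at hab ⊢
  exact hab

lemma reach_mem {A : SimpleGraph V} {W : Set V} (hW : ∀ a b, A.Adj a b → b ∈ W) {a b : V}
    (h : A.Reachable a b) : a = b ∨ b ∈ W := by
  rw [reachable_iff_reflTransGen] at h
  induction h with
  | refl => exact Or.inl rfl
  | tail _ hbc _ => exact Or.inr (hW _ _ hbc)

variable {G : SimpleGraph V}

noncomputable def cfg (G : SimpleGraph V) (T : Finset (Sym2 V)) : G.edgeSet → Bool :=
  fun e => decide (e.1 ∈ T)

lemma gr_eq {K : G.Subgraph} {T : Finset (Sym2 V)} (h : ∀ e, e ∈ T ↔ e ∈ K.edgeSet) :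
    gr T = K.spanningCoe := by
  ext a b
  rw [gr_adj, h, Subgraph.mem_edgeSet, Subgraph.spanningCoe_adj]
  exact ⟨fun h => h.1, fun h => ⟨h, h.ne⟩⟩

lemma treeConfigs_eq {H : G.Subgraph} (hH : H.Connected) {F : Finset (Sym2 V)}
    (hF : ∀ e, e ∈ F ↔ e ∈ H.edgeSet) : treeConfigs H = ((bases F).image (cfg G) : Finset _) := by
  have hgr := gr_eq hF
  have hWF : ∀ a b, (gr F).Adj a b → b ∈ H.verts := fun a b h => by
    rw [hgr] at h; exact H.edge_vert (H.symm.symm _ _ h)
  ext ω
  simp only [treeConfigs, Set.mem_ofPred_eq, coe_image, Set.mem_image, mem_coe, mem_bases]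
  constructor
  · rintro ⟨T, hle, hv, ht, hω⟩
    have hT : ∀ e, e ∈ F.filter (· ∈ T.edgeSet) ↔ e ∈ T.edgeSet := fun e => by
      rw [mem_filter, hF]; exact ⟨fun h => h.2, fun h => ⟨Subgraph.edgeSet_mono hle h, h⟩⟩
    refine ⟨F.filter (· ∈ T.edgeSet), ⟨filter_subset _ _, fun f hf => ?_, ?_, ?_⟩, ?_⟩
    · exact G.not_isDiag_of_mem_edgeSet (T.edgeSet_subset ((hT f).1 hf))
    · rw [gr_eq hT]
      exact acyclic_of_induce (W := T.verts) (fun a b h => T.edge_vert (T.symm.symm _ _ h))
        ht.isAcyclic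
    · ext a b
      refine ⟨fun h => h.mono (gr_mono (filter_subset _ _)), fun h => ?_⟩
      rcases reach_mem hWF h with rfl | hb
      · rfl
      rcases reach_mem hWF h.symm with rfl | ha
      · rfl
      rw [gr_eq hT]
      exact (ht.connected.preconnected ⟨a, hv ▸ ha⟩ ⟨b, hv ▸ hb⟩).map
        T.coeEmbeddingSpanningCoe.toHom
    · ext e
      rw [cfg, Bool.eq_iff_iff, decide_eq_true_iff, hT, hω]
  · rintro ⟨T, ⟨hsub, hdiag, hac, hr⟩, rfl⟩
    have hle : ∀ {a b}, (gr T).Adj a b → H.Adj a b := fun h => by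
      have := gr_mono hsub h
      rwa [hgr] at this
    refine ⟨⟨H.verts, (gr T).Adj, fun h => H.adj_sub (hle h), fun h => H.edge_vert (hle h),
      (gr T).symm⟩, ⟨subset_rfl, fun _ _ h => hle h⟩, rfl, ⟨?_, hac.induce H.verts⟩, fun e => ?_⟩
    · have := hH.coe.nonempty
      refine ⟨fun a b => ?_⟩
      have h1 : (gr F).Reachable a b := by
        rw [hgr]; exact (hH.coe.preconnected a b).map H.coeEmbeddingSpanningCoe.toHom
      rw [← hr] at h1
      exact (reach_induce (fun a b h => hWF a b (gr_mono hsub h)) a.2 h1).2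
    · obtain ⟨e, he⟩ := e
      induction e using Sym2.ind with
      | h u v =>
        simp only [cfg, decide_eq_true_iff, Subgraph.mem_edgeSet, gr_adj]
        exact ⟨fun h => ⟨h, Adj.ne he⟩, fun h => h.1⟩

lemma uniformOn_image {α β : Type*} [MeasurableSpace β] [MeasurableSingletonClass β]
    (s : Finset α) {g : α → β} (hg : Set.InjOn g s) (t : Set β) :
    (uniformOn ((s.image g : Finset β) : Set β)).real t =
      (∑ a ∈ s, if g a ∈ t then (1 : ℝ) else 0) / s.card := by
  have h1 : ((s.image g : Finset β) : Set β) ∩ t =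
      (((s.filter fun a => g a ∈ t).image g : Finset β) : Set β) := by
    ext b
    simp only [coe_image, coe_filter, Set.mem_inter_iff, Set.mem_image, mem_coe,
      Set.mem_ofPred_eq]
    exact ⟨fun ⟨⟨a, ha, h⟩, hb⟩ => ⟨a, ⟨ha, h ▸ hb⟩, h⟩,
      fun ⟨a, ⟨ha, hb⟩, h⟩ => ⟨⟨a, ha, h⟩, h ▸ hb⟩⟩
  rw [Measure.real, uniformOn, cond_apply (Finset.measurableSet _), h1,
    Measure.count_apply_finset, Measure.count_apply_finset, card_image_of_injOn hg,
    card_image_of_injOn (hg.mono (coe_subset.2 (filter_subset _ _))), sum_boole]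
  simp [div_eq_inv_mul]

lemma exists_exhaustion (hc : G.Connected) (hG : ∀ v, (G.neighborSet v).Finite) :
    ∃ H, IsExhaustion G H := by
  obtain ⟨o⟩ := hc.nonempty
  refine ⟨fun n => (⊤ : G.Subgraph).induce (ball G o n), fun n m h =>
    Subgraph.induce_mono_right (ball_mono G o h), fun n => ⟨ball_finite hG o n, ?_⟩, ?_⟩
  · have ho : ∀ n, o ∈ ball G o n := fun n => ball_mono G o (Nat.zero_le n) rfl
    have key : ∀ m (hm : m ≤ n) v (hv : v ∈ ball G o m),
        ((⊤ : G.Subgraph).induce (ball G o n)).coe.Reachable ⟨o, ho n⟩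
          ⟨v, ball_mono G o hm hv⟩ := by
      intro m
      induction m with
      | zero => rintro _ v rfl; rfl
      | succ m ih =>
        rintro hm v (hv | ⟨w, hw, hwv⟩)
        · exact ih ((Nat.le_succ m).trans hm) v hv
        · refine (ih ((Nat.le_succ m).trans hm) w hw).trans (Adj.reachable ?_)
          exact ⟨ball_mono G o ((Nat.le_succ m).trans hm) hw,
            ball_mono G o hm (Or.inr ⟨w, hw, hwv⟩), hwv⟩
    have : Nonempty ((⊤ : G.Subgraph).induce (ball G o n)).verts := ⟨⟨o, ho n⟩⟩
    exact ⟨⟨fun a b => (key n le_rfl a.1 a.2).symm.trans (key n le_rfl b.1 b.2)⟩⟩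
  · refine top_unique ⟨fun v _ => ?_, fun v w h => ?_⟩
    · rw [Subgraph.verts_iSup]
      exact Set.mem_iUnion.2 (exists_mem_ball (hc.preconnected o v))
    · obtain ⟨n, hn⟩ := exists_mem_ball (hc.preconnected o v)
      exact Subgraph.iSup_adj.2 ⟨n + 1, Or.inl hn, Or.inr ⟨v, hn, h⟩, h⟩

lemma countable_of_connected (hc : G.Connected) (hG : ∀ v, (G.neighborSet v).Finite) :
    Countable V := by
  obtain ⟨o⟩ := hc.nonempty
  rw [← Set.countable_univ_iff]
  exact (Set.countable_iUnion fun n => (ball_finite hG o n).countable).mono fun v _ =>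
    Set.mem_iUnion.2 (exists_mem_ball (hc.preconnected o v))

theorem isFUSF_fac {lab : unitInterval → Option (ℕ × ℕ) → ℝ} (hlab : Measurable lab)
    (hlaw : (volume : Measure unitInterval).map lab = gam (Option (ℕ × ℕ)))
    (hc : G.Connected) (hG : ∀ v, (G.neighborSet v).Finite) :
    IsFUSF G ((iidLabels V).map fun U (e : G.edgeSet) => fac lab G U e) := by
  have := countable_of_connected hc hG
  have hm : Measurable fun (U : V → unitInterval) (e : G.edgeSet) => fac lab G U e :=
    measurable_pi_lambda _ fun e => measurable_fac hlab measurable_const measurable_id _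
  have hprob := Measure.isProbabilityMeasure_map (μ := iidLabels V) hm.aemeasurable
  refine ⟨hprob, exists_exhaustion hc hG, fun H hH => ?_⟩
  obtain ⟨hmono, hfin, hsup⟩ := hH
  have hE : ∀ n, (H n).edgeSet.Finite := fun n =>
    (((hfin n).1.prod (hfin n).1).image (fun z => s(z.1, z.2))).subset fun e he => by
      induction e using Sym2.ind with
      | h u v => exact ⟨(u, v), ⟨(H n).edge_vert he, (H n).edge_vert ((H n).symm.symm _ _ he)⟩, rfl⟩
  set F : ℕ → Finset (Sym2 V) := fun n => (hE n).toFinset with hFdef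
  have hF : ∀ n e, e ∈ F n ↔ e ∈ (H n).edgeSet := fun n e => Set.Finite.mem_toFinset _
  have htc : ∀ n, treeConfigs (H n) = ((bases (F n)).image (cfg G) : Finset _) :=
    fun n => treeConfigs_eq (hfin n).2 (hF n)
  have hp : ∀ n, IsProbabilityMeasure (uniformOn (treeConfigs (H n))) := fun n => by
    rw [htc]
    exact isProbabilityMeasure_uniformOn (Finset.finite_toSet _)
      (coe_nonempty.2 ((bases_nonempty _).image _))
  have hlim : ∀ A C, Tendsto (fun n => pF (F n) A C) atTop (𝓝 (pG G A C)) := by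
    intro A C s hs
    obtain ⟨F0, hF0⟩ := eventually_atTop.1 (tendsto_pF G A C hs)
    have h1 : ∀ e ∈ EG G F0, ∀ᶠ n in atTop, e ∈ F n := by
      intro e he
      have h2 : e ∈ (⨆ n, H n).edgeSet := by rw [hsup]; exact (mem_filter.1 he).2
      rw [Subgraph.edgeSet_iSup] at h2
      obtain ⟨n, hn⟩ := Set.mem_iUnion.1 h2
      filter_upwards [eventually_ge_atTop n] with m hm
      exact (hF m e).2 (Subgraph.edgeSet_mono (hmono hm) hn)
    rw [Filter.mem_map]
    filter_upwards [(eventually_all_finset _).2 h1] with n hn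
    have h3 := hF0 (F n ∪ F0) subset_union_right
    have h4 : EG G (F n ∪ F0) = F n := by
      ext e
      simp only [EG, mem_filter, mem_union] at hn ⊢
      exact ⟨fun h => h.1.elim id fun h' => hn e ⟨h', h.2⟩,
        fun h => ⟨Or.inl h, (H n).edgeSet_subset ((hF n e).1 h)⟩⟩
    simpa only [Set.mem_preimage, h4] using h3
  let 𝒮 : Set (Set (G.edgeSet → Bool)) :=
    {c | ∃ (s : Finset G.edgeSet) (x : G.edgeSet → Bool), c = {ω | ∀ e ∈ s, ω e = x e}}
  have hpi : IsPiSystem 𝒮 := by
    rintro _ ⟨s, x, rfl⟩ _ ⟨t, y, rfl⟩ ⟨z, hz1, hz2⟩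
    refine ⟨s ∪ t, z, ?_⟩
    ext ω
    simp only [Set.mem_inter_iff, Set.mem_ofPred_eq, mem_union]
    constructor
    · rintro ⟨h1, h2⟩ e (he | he)
      exacts [(h1 e he).trans (hz1 e he).symm, (h2 e he).trans (hz2 e he).symm]
    · exact fun h => ⟨fun e he => (h e (Or.inl he)).trans (hz1 e he),
        fun e he => (h e (Or.inr he)).trans (hz2 e he)⟩
  have hmeas : ∀ c ∈ 𝒮, MeasurableSet c := by
    rintro _ ⟨s, x, rfl⟩
    exact measurableSet_setOfPred.2 (Measurable.forall fun e => measurable_const.imp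
      (measurableSet_setOfPred.1 (measurableSet_eq_fun (measurable_pi_apply e) measurable_const)))
  refine ProbabilityMeasure.tendsto_iff_forall_integral_tendsto.1
    (hpi.tendsto_probabilityMeasure_of_tendsto_of_mem (μ := fun n => ⟨_, hp n⟩) (ν := ⟨_, hprob⟩)
      hmeas (fun u hu x hx => ?_) ?_)
  · obtain ⟨s, t, ht, hsub⟩ := isOpen_pi_iff.1 hu x hx
    refine ⟨_, ⟨s, x, rfl⟩, ?_, fun ω hω => hsub fun e he => ?_⟩
    · exact (eventually_all_finset s).2 fun e _ =>
        ((continuous_apply e).tendsto x).eventually (p := fun b => b = x e)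
          ((isOpen_discrete {x e}).mem_nhds rfl)
    · rw [hω e he]; exact (ht e he).2
  · rintro _ ⟨s, x, rfl⟩
    rw [← NNReal.tendsto_coe]
    set A := s.map (Function.Embedding.subtype _)
    set C := (s.filter fun e => x e = true).map (Function.Embedding.subtype _)
    have hC : C ⊆ A := map_subset_map.2 (filter_subset _ _)
    have hAC : ∀ P : Sym2 V → Bool, (∀ e ∈ s, P e = x e) ↔ ∀ e ∈ A, (P e = true ↔ e ∈ C) := by
      intro P
      simp only [A, C, forall_mem_map, Finset.mem_map', mem_filter]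
      refine forall₂_congr fun e he => ?_
      simp only [he, true_and]
      exact Bool.eq_iff_iff
    have e1 : ((iidLabels V).map fun U (e : G.edgeSet) => fac lab G U e).real
        {ω | ∀ e ∈ s, ω e = x e} = pG G A C := by
      rw [map_measureReal_apply hm (hmeas _ ⟨s, x, rfl⟩), ← fac_law hlab hlaw hc hG hC]
      congr 1
      ext U
      exact hAC (fac lab G U)
    have e2 : ∀ n, (uniformOn (treeConfigs (H n))).real {ω | ∀ e ∈ s, ω e = x e} =
        pF (F n) A C := by
      intro n
      rw [htc, uniformOn_image, pF, avg]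
      · congr 1
        refine sum_congr rfl fun T _ => ?_
        congr 1
        refine propext ?_
        refine (hAC fun e => decide (e ∈ T)).trans ?_
        simp only [decide_eq_true_iff]
        constructor
        · intro h; ext e
          simp only [mem_inter]
          exact ⟨fun h' => (h e h'.2).1 h'.1, fun h' => ⟨(h e (hC h')).2 h', hC h'⟩⟩
        · intro h e he; simp [← h, he]
      · intro T hT T' hT' h
        have key : ∀ T ∈ bases (F n), ∀ e ∈ T, e ∈ G.edgeSet := fun T hT e he =>
          (H n).edgeSet_subset ((hF n e).1 ((mem_bases.1 hT).1 he))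
        ext e
        constructor
        · intro he
          have := congrFun h ⟨e, key T hT e he⟩
          simpa [cfg, he] using this
        · intro he
          have := congrFun h ⟨e, key T' hT' e he⟩
          simpa [cfg, he] using this
    have := hlim A C
    rw [← e1] at this
    simp only [← e2] at this
    exact this

end Vale.Agent.P143
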