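import Mathlib

/-! Kirchhoff's formula and the Dirichlet principle for weighted spanning forests. -/

namespace Vale.Agent.P143

open Finset SimpleGraph
open scoped Classical

variable {V : Type*}

/-- The graph spanned by a finite edge set. -/
def gr (T : Finset (Sym2 V)) : SimpleGraph V := fromEdgeSet (T : Set (Sym2 V))

/-- `T` is a maximal spanning forest of the finite edge set `F`. -/
def IsBase (F T : Finset (Sym2 V)) : Prop :=
  T ⊆ F ∧ (∀ f ∈ T, ¬ f.IsDiag) ∧ (gr T).IsAcyclic ∧ (gr T).Reachable = (gr F).Reachable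

noncomputable def bases (F : Finset (Sym2 V)) : Finset (Finset (Sym2 V)) :=
  F.powerset.filter (IsBase F)

lemma mem_bases {F T : Finset (Sym2 V)} : T ∈ bases F ↔ IsBase F T := by
  simp only [bases, mem_filter, mem_powerset]
  exact ⟨fun h => h.2, fun h => ⟨h.1, h⟩⟩

lemma gr_adj {T : Finset (Sym2 V)} {a b : V} : (gr T).Adj a b ↔ s(a, b) ∈ T ∧ a ≠ b := by
  simp [gr, fromEdgeSet_adj]

lemma gr_mono {T F : Finset (Sym2 V)} (h : T ⊆ F) : gr T ≤ gr F := by
  intro a b hab
  rw [gr_adj] at hab ⊢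
  exact ⟨h hab.1, hab.2⟩

lemma gr_insert (T : Finset (Sym2 V)) (u v : V) : gr (insert s(u, v) T) = gr T ⊔ edge u v := by
  ext a b
  simp only [gr_adj, mem_insert, sup_adj, edge_adj, Sym2.eq_iff]
  tauto

lemma reach_sup_edge {A : SimpleGraph V} {u v a b : V} (h : (A ⊔ edge u v).Reachable a b) :
    A.Reachable a b ∨ (A.Reachable a u ∧ A.Reachable v b) ∨
      (A.Reachable a v ∧ A.Reachable u b) := by
  rw [reachable_iff_reflTransGen] at h
  induction h with
  | refl => exact Or.inl (Reachable.refl _)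
  | @tail b c _ hbc ih =>
    rw [sup_adj, edge_adj] at hbc
    rcases hbc with hbc | ⟨⟨rfl, rfl⟩ | ⟨rfl, rfl⟩, _⟩
    · rcases ih with h | ⟨h1, h2⟩ | ⟨h1, h2⟩
      · exact Or.inl (h.trans hbc.reachable)
      · exact Or.inr (Or.inl ⟨h1, h2.trans hbc.reachable⟩)
      · exact Or.inr (Or.inr ⟨h1, h2.trans hbc.reachable⟩)
    · rcases ih with h | ⟨h1, _⟩ | ⟨h1, _⟩
      · exact Or.inr (Or.inl ⟨h, Reachable.refl _⟩)
      · exact Or.inr (Or.inl ⟨h1, Reachable.refl _⟩)
      · exact Or.inl h1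
    · rcases ih with h | ⟨h1, _⟩ | ⟨h1, _⟩
      · exact Or.inr (Or.inr ⟨h, Reachable.refl _⟩)
      · exact Or.inl h1
      · exact Or.inr (Or.inr ⟨h1, Reachable.refl _⟩)

lemma bases_nonempty (F : Finset (Sym2 V)) : (bases F).Nonempty := by
  obtain ⟨H, hle, hac, hr⟩ := (gr F).exists_isAcyclic_reachable_eq_le
  have hT : gr (F.filter (· ∈ H.edgeSet)) = H := by
    ext a b
    simp only [gr_adj, mem_filter, mem_edgeSet]
    constructor
    · exact fun h => h.1.2
    · intro h
      exact ⟨⟨(gr_adj.1 (hle h)).1, h⟩, h.ne⟩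
  refine ⟨F.filter (· ∈ H.edgeSet), mem_bases.2 ⟨filter_subset _ _, ?_, ?_, ?_⟩⟩
  · intro f hf
    exact H.not_isDiag_of_mem_edgeSet (mem_filter.1 hf).2
  · rw [hT]; exact hac
  · rw [hT]; exact hr

/-- The endpoints of `f` are not joined in `T`. -/
def Sep (T : Finset (Sym2 V)) (f : Sym2 V) : Prop :=
  ∀ u v, f = s(u, v) → ¬ (gr T).Reachable u v

lemma sep_mk {T : Finset (Sym2 V)} {u v : V} : Sep T s(u, v) ↔ ¬ (gr T).Reachable u v := by
  constructor
  · exact fun h => h u v rfl
  · intro h a b hab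
    rw [Sym2.eq_iff] at hab
    rcases hab with ⟨rfl, rfl⟩ | ⟨rfl, rfl⟩
    · exact h
    · exact fun h' => h h'.symm

lemma sep_of_acyclic {T : Finset (Sym2 V)} {f : Sym2 V} (hf : f ∉ T) (hd : ¬ f.IsDiag)
    (hac : (gr (insert f T)).IsAcyclic) : Sep T f := by
  induction f using Sym2.ind with
  | h u v =>
    rw [sep_mk]
    rw [gr_insert, isAcyclic_sup_fromEdgeSet_iff] at hac
    intro h
    rcases hac.2 h with h | h
    · exact hd (by simp [h])
    · exact hf (gr_adj.1 h).1

lemma exchange {F T : Finset (Sym2 V)} {f e : Sym2 V} (hb : IsBase F (insert f T))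
    (he : e ∈ F) (hs : Sep T e) : e ∉ T ∧ IsBase F (insert e T) := by
  induction f using Sym2.ind with
  | h u v =>
  induction e using Sym2.ind with
  | h x y =>
    rw [sep_mk] at hs
    have hxy : x ≠ y := by rintro rfl; exact hs (Reachable.refl _)
    obtain ⟨hsub, hdiag, hac, hr⟩ := hb
    have hTF : T ⊆ F := (subset_insert _ _).trans hsub
    have hsub' : insert s(x, y) T ⊆ F := insert_subset he hTF
    refine ⟨fun h => hs (gr_adj.2 ⟨h, hxy⟩).reachable, hsub', ?_, ?_, ?_⟩
    · intro g hg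
      rcases mem_insert.1 hg with rfl | hg
      · simpa using hxy
      · exact hdiag g (mem_insert_of_mem hg)
    · rw [gr_insert]
      refine IsAcyclic.sup_edge_of_not_reachable hs ?_
      exact hac.anti (gr_mono (subset_insert _ _))
    · ext a b
      refine ⟨fun h => h.mono (gr_mono hsub'), fun h => ?_⟩
      have hm : ∀ {a b : V}, (gr T).Reachable a b → (gr (insert s(x, y) T)).Reachable a b :=
        fun h => h.mono (gr_mono (subset_insert _ _))
      have hxy' : (gr (insert s(x, y) T)).Reachable x y :=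
        (gr_adj.2 ⟨mem_insert_self _ _, hxy⟩).reachable
      have h1 : (gr F).Reachable x y := (gr_adj.2 ⟨he, hxy⟩).reachable
      rw [← hr, gr_insert] at h1 h
      have huv : (gr (insert s(x, y) T)).Reachable u v := by
        rcases reach_sup_edge h1 with h2 | ⟨h2, h3⟩ | ⟨h2, h3⟩
        · exact absurd h2 hs
        · exact ((hm h2).symm.trans hxy').trans (hm h3).symm
        · exact ((hm h3).trans hxy'.symm).trans (hm h2)
      rcases reach_sup_edge h with h2 | ⟨h2, h3⟩ | ⟨h2, h3⟩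
      · exact hm h2
      · exact ((hm h2).trans huv).trans (hm h3)
      · exact ((hm h2).trans huv.symm).trans (hm h3)

/-- The product of the increments of two functions along an edge. -/
def dd (v g : V → ℝ) : Sym2 V → ℝ :=
  Sym2.lift ⟨fun a b => (v a - v b) * (g a - g b), fun a b => by ring⟩

@[simp] lemma dd_mk (v g : V → ℝ) (a b : V) : dd v g s(a, b) = (v a - v b) * (g a - g b) := rfl

/-- Indicator of the component of `x`. -/
noncomputable def ind (T : Finset (Sym2 V)) (x : V) : V → ℝ :=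
  fun w => if (gr T).Reachable x w then 1 else 0

lemma dd_ind_eq_zero {T : Finset (Sym2 V)} {f : Sym2 V} (h : ¬ Sep T f) (x : V) (g : V → ℝ) :
    dd (ind T x) g f = 0 := by
  induction f using Sym2.ind with
  | h u v =>
    rw [sep_mk, not_not] at h
    have : (gr T).Reachable x u ↔ (gr T).Reachable x v :=
      ⟨fun h' => h'.trans h, fun h' => h'.trans h.symm⟩
    simp [ind, this]

lemma telescope {T : Finset (Sym2 V)} (hac : (gr T).IsAcyclic) (g : V → ℝ) (x y : V)
    (h : (gr T).Reachable x y) :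
    ∑ f ∈ T, (if (gr (T.erase f)).Reachable x y then 0 else dd (ind (T.erase f) x) g f)
      = g x - g y := by
  rw [reachable_iff_reflTransGen] at h
  induction h with
  | refl => simp
  | @tail b c hxb hbc ih =>
    rw [← reachable_iff_reflTransGen] at hxb
    obtain ⟨hmem, hne⟩ := gr_adj.1 hbc
    have hins : insert s(b, c) (T.erase s(b, c)) = T := insert_erase hmem
    have hsep : ¬ (gr (T.erase s(b, c))).Reachable b c := by
      rw [← sep_mk]
      refine sep_of_acyclic (notMem_erase _ _) (by simpa using hne) ?_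
      rw [hins]; exact hac
    have hor : (gr (T.erase s(b, c))).Reachable x b ∨ (gr (T.erase s(b, c))).Reachable x c := by
      rw [← hins, gr_insert] at hxb
      rcases reach_sup_edge hxb with h | ⟨h, _⟩ | ⟨h, _⟩
      · exact Or.inl h
      · exact Or.inl h
      · exact Or.inr h
    rw [← add_sum_erase _ _ hmem] at ih ⊢
    have hrest : ∑ f ∈ T.erase s(b, c),
        (if (gr (T.erase f)).Reachable x c then 0 else dd (ind (T.erase f) x) g f) =
        ∑ f ∈ T.erase s(b, c),
        (if (gr (T.erase f)).Reachable x b then 0 else dd (ind (T.erase f) x) g f) := by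
      refine sum_congr rfl fun f hf => ?_
      have hadj : (gr (T.erase f)).Adj b c :=
        gr_adj.2 ⟨mem_erase.2 ⟨(ne_of_mem_erase hf).symm, hmem⟩, hne⟩
      have : (gr (T.erase f)).Reachable x c ↔ (gr (T.erase f)).Reachable x b :=
        ⟨fun h' => h'.trans hadj.reachable.symm, fun h' => h'.trans hadj.reachable⟩
      rw [this]
    rw [hrest]
    rcases hor with h | h
    · have h' : ¬ (gr (T.erase s(b, c))).Reachable x c := fun h' => hsep (h.symm.trans h')
      simp only [h, h', if_true, if_false, dd_mk, ind] at ih ⊢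
      linarith
    · have h' : ¬ (gr (T.erase s(b, c))).Reachable x b := fun h' => hsep (h'.symm.trans h)
      simp only [h, h', if_true, if_false, dd_mk, ind] at ih ⊢
      linarith

noncomputable def pre (F : Finset (Sym2 V)) (f : Sym2 V) : Finset (Finset (Sym2 V)) :=
  F.powerset.filter (fun T => f ∉ T ∧ IsBase F (insert f T))

lemma mem_pre {F T : Finset (Sym2 V)} {f : Sym2 V} :
    T ∈ pre F f ↔ f ∉ T ∧ IsBase F (insert f T) := by
  simp only [pre, mem_filter, mem_powerset]
  exact ⟨fun h => h.2, fun h => ⟨(subset_insert _ _).trans h.2.1, h⟩⟩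

lemma sum_pre (F : Finset (Sym2 V)) (f : Sym2 V) (φ : Finset (Sym2 V) → ℝ) :
    ∑ T ∈ (bases F).filter (fun T => f ∈ T), φ T = ∑ T ∈ pre F f, φ (insert f T) := by
  refine sum_nbij' (fun T => T.erase f) (fun T => insert f T) ?_ ?_ ?_ ?_ ?_
  · intro T hT
    simp only [mem_filter, mem_bases] at hT
    rw [mem_pre, insert_erase hT.2]
    exact ⟨notMem_erase _ _, hT.1⟩
  · intro T hT
    rw [mem_pre] at hT
    simp only [mem_filter, mem_bases]
    exact ⟨hT.2, mem_insert_self _ _⟩
  · intro T hT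
    simp only [mem_filter] at hT
    exact insert_erase hT.2
  · intro T hT
    rw [mem_pre] at hT
    exact erase_insert hT.1
  · intro T hT
    simp only [mem_filter] at hT
    rw [insert_erase hT.2]

/-- Unnormalised potential. -/
noncomputable def pot (F : Finset (Sym2 V)) (c : Sym2 V → ℝ) (x y : V) : V → ℝ :=
  fun u => ∑ T ∈ pre F s(x, y), (∏ f ∈ T, c f) * ind T x u

lemma dd_sum {ι : Type*} (s : Finset ι) (a : ι → ℝ) (v : ι → V → ℝ) (g : V → ℝ) (f : Sym2 V) :
    dd (fun u => ∑ i ∈ s, a i * v i u) g f = ∑ i ∈ s, a i * dd (v i) g f := by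
  induction f using Sym2.ind with
  | h u w =>
    simp only [dd_mk, ← sum_sub_distrib, sum_mul]
    exact sum_congr rfl fun i _ => by ring

theorem kirchhoff_identity (F : Finset (Sym2 V)) (c : Sym2 V → ℝ) {x y : V}
    (he : s(x, y) ∈ F) (hxy : x ≠ y) (g : V → ℝ) :
    ∑ f ∈ F, c f * dd (pot F c x y) g f = (∑ T ∈ bases F, ∏ f ∈ T, c f) * (g x - g y) := by
  have hL : ∀ f ∈ F, c f * dd (pot F c x y) g f =
      ∑ T ∈ F.powerset.filter (fun T => (s(x, y) ∉ T ∧ IsBase F (insert s(x, y) T)) ∧ Sep T f),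
        c f * (∏ k ∈ T, c k) * dd (ind T x) g f := by
    intro f _
    unfold pot
    rw [dd_sum, mul_sum, ← filter_filter, sum_filter]
    refine sum_congr rfl fun T _ => ?_
    split_ifs with h
    · ring
    · rw [dd_ind_eq_zero h]; ring
  have hR : (∑ T ∈ bases F, ∏ f ∈ T, c f) * (g x - g y) = ∑ f ∈ F,
      ∑ T ∈ F.powerset.filter (fun T => (f ∉ T ∧ IsBase F (insert f T)) ∧ Sep T s(x, y)),
        c f * (∏ k ∈ T, c k) * dd (ind T x) g f := by
    rw [sum_mul]
    have h1 : ∀ T ∈ bases F, (∏ f ∈ T, c f) * (g x - g y) = ∑ f ∈ F, if f ∈ T then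
        (∏ k ∈ T, c k) *
          (if (gr (T.erase f)).Reachable x y then 0 else dd (ind (T.erase f) x) g f) else 0 := by
      intro T hT
      obtain ⟨hsub, _, hac, hr⟩ := mem_bases.1 hT
      have hreach : (gr T).Reachable x y := by
        rw [hr]; exact (gr_adj.2 ⟨he, hxy⟩).reachable
      rw [← telescope hac g x y hreach, mul_sum, ← sum_filter, filter_mem_eq_inter,
        inter_eq_right.2 hsub]
    rw [sum_congr rfl h1, sum_comm]
    refine sum_congr rfl fun f _ => ?_
    rw [← sum_filter, sum_pre, ← filter_filter, sum_filter]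
    refine sum_congr rfl fun T hT => ?_
    have hfT : f ∉ T := (mem_pre.1 hT).1
    rw [erase_insert hfT, prod_insert hfT, sep_mk]
    split_ifs <;> simp_all
  rw [hR, sum_congr rfl hL]
  refine sum_congr rfl fun f hf => sum_congr ?_ fun _ _ => rfl
  refine filter_congr fun T _ => ?_
  constructor
  · rintro ⟨⟨h1, h2⟩, h3⟩
    exact ⟨exchange h2 hf h3,
      sep_of_acyclic h1 (h2.2.1 _ (mem_insert_self _ _)) h2.2.2.1⟩
  · rintro ⟨⟨h1, h2⟩, h3⟩
    exact ⟨exchange h2 he h3,
      sep_of_acyclic h1 (h2.2.1 _ (mem_insert_self _ _)) h2.2.2.1⟩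

lemma pot_left (F : Finset (Sym2 V)) (c : Sym2 V → ℝ) (x y : V) :
    pot F c x y x = ∑ T ∈ pre F s(x, y), ∏ f ∈ T, c f := by
  simp [pot, ind]

lemma pot_right (F : Finset (Sym2 V)) (c : Sym2 V → ℝ) (x y : V) : pot F c x y y = 0 := by
  refine sum_eq_zero fun T hT => ?_
  obtain ⟨h1, h2⟩ := mem_pre.1 hT
  have := sep_mk.1 (sep_of_acyclic h1 (h2.2.1 _ (mem_insert_self _ _)) h2.2.2.1)
  simp [ind, this]

/-- Total weight of the bases. -/
noncomputable def ZF (F : Finset (Sym2 V)) (c : Sym2 V → ℝ) : ℝ :=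
  ∑ T ∈ bases F, ∏ f ∈ T, c f

/-- Probability that the weighted random base contains `e`. -/
noncomputable def mF (F : Finset (Sym2 V)) (c : Sym2 V → ℝ) (e : Sym2 V) : ℝ :=
  (∑ T ∈ (bases F).filter (fun T => e ∈ T), ∏ f ∈ T, c f) / ZF F c

lemma ZF_pos (F : Finset (Sym2 V)) {c : Sym2 V → ℝ} (hc : ∀ f, 0 < c f) : 0 < ZF F c :=
  sum_pos (fun _ _ => prod_pos fun f _ => hc f) (bases_nonempty F)

lemma mF_nonneg (F : Finset (Sym2 V)) {c : Sym2 V → ℝ} (hc : ∀ f, 0 < c f) (e : Sym2 V) :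
    0 ≤ mF F c e :=
  div_nonneg (sum_nonneg fun _ _ => (prod_pos fun f _ => hc f).le) (ZF_pos F hc).le

lemma mF_le_one (F : Finset (Sym2 V)) {c : Sym2 V → ℝ} (hc : ∀ f, 0 < c f) (e : Sym2 V) :
    mF F c e ≤ 1 := by
  rw [mF, div_le_one (ZF_pos F hc)]
  exact sum_le_sum_of_subset_of_nonneg (filter_subset _ _)
    fun _ _ _ => (prod_pos fun f _ => hc f).le

lemma dd_self_nonneg (v : V → ℝ) (f : Sym2 V) : 0 ≤ dd v v f := by
  induction f using Sym2.ind with
  | h a b => exact mul_self_nonneg _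

/-- The Dirichlet principle: `mF * energy v ≥ c e * (v x - v y)^2`, with equality for the
potential. -/
lemma dirichlet (F : Finset (Sym2 V)) {c : Sym2 V → ℝ} (hc : ∀ f, 0 < c f) {x y : V}
    (he : s(x, y) ∈ F) (hxy : x ≠ y) (v : V → ℝ) :
    c s(x, y) * (v x - v y) ^ 2 ≤ mF F c s(x, y) * ∑ f ∈ F, c f * dd v v f := by
  set U := pot F c x y with hU
  set Z' := ∑ T ∈ pre F s(x, y), ∏ f ∈ T, c f with hZ'
  have hZ := ZF_pos F hc
  have hm : mF F c s(x, y) = c s(x, y) * Z' / ZF F c := by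
    rw [mF, sum_pre, hZ', mul_sum]
    congr 1
    exact sum_congr rfl fun T hT => prod_insert (mem_pre.1 hT).1
  have hUU : ∑ f ∈ F, c f * dd U U f = ZF F c * Z' := by
    rw [kirchhoff_identity F c he hxy, hU, pot_left, pot_right, sub_zero]; rfl
  have hUv : ∑ f ∈ F, c f * dd U v f = ZF F c * (v x - v y) :=
    kirchhoff_identity F c he hxy v
  have hq : ∀ t : ℝ, 0 ≤ (ZF F c * Z') * (t * t) + (2 * (ZF F c * (v x - v y))) * t +
      ∑ f ∈ F, c f * dd v v f := by
    intro t
    rw [← hUU, ← hUv, sum_mul, mul_sum, sum_mul, ← sum_add_distrib, ← sum_add_distrib]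
    refine sum_nonneg fun f _ => ?_
    have h0 := mul_nonneg (hc f).le (dd_self_nonneg (fun u => t * U u + v u) f)
    induction f using Sym2.ind with
    | h a b =>
      simp only [dd_mk] at h0 ⊢
      nlinarith [h0]
  have hd := discrim_le_zero hq
  rw [discrim] at hd
  rw [hm, div_mul_eq_mul_div, le_div_iff₀ hZ]
  have h2 : ZF F c * (v x - v y) ^ 2 ≤ Z' * ∑ f ∈ F, c f * dd v v f := by
    have : ZF F c * (ZF F c * (v x - v y) ^ 2) ≤ ZF F c * (Z' * ∑ f ∈ F, c f * dd v v f) := by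
      nlinarith [hd]
    exact le_of_mul_le_mul_left this hZ
  nlinarith [mul_le_mul_of_nonneg_left h2 (hc s(x, y)).le]

lemma dirichlet_eq (F : Finset (Sym2 V)) {c : Sym2 V → ℝ} (hc : ∀ f, 0 < c f) {x y : V}
    (he : s(x, y) ∈ F) (hxy : x ≠ y) : ∃ v : V → ℝ, v x - v y ≠ 0 ∧
    c s(x, y) * (v x - v y) ^ 2 = mF F c s(x, y) * ∑ f ∈ F, c f * dd v v f := by
  set Z' := ∑ T ∈ pre F s(x, y), ∏ f ∈ T, c f with hZ'
  have hZ := ZF_pos F hc
  have hm : mF F c s(x, y) = c s(x, y) * Z' / ZF F c := by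
    rw [mF, sum_pre, hZ', mul_sum]
    congr 1
    exact sum_congr rfl fun T hT => prod_insert (mem_pre.1 hT).1
  have hUU : ∑ f ∈ F, c f * dd (pot F c x y) (pot F c x y) f = ZF F c * Z' := by
    rw [kirchhoff_identity F c he hxy, pot_left, pot_right, sub_zero]; rfl
  have hne : Z' ≠ 0 := by
    intro h0
    have h1 := dirichlet F hc he hxy (fun u => if u = x then 1 else 0)
    rw [hm, h0] at h1
    simp only [if_true, hxy.symm, if_false] at h1
    have := hc s(x, y)
    norm_num at h1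
    linarith
  refine ⟨pot F c x y, ?_, ?_⟩
  · rw [pot_left, pot_right, sub_zero]; exact hne
  · rw [hUU, hm, pot_left, pot_right, sub_zero, ← hZ']
    field_simp

/-- Rayleigh comparison. -/
theorem mF_le (F F' : Finset (Sym2 V)) (hF : F ⊆ F') {c c' : Sym2 V → ℝ} (hc : ∀ f, 0 < c f)
    (hc' : ∀ f, 0 < c' f) {K : ℝ} (hK : 0 ≤ K) (h1 : ∀ f, c f ≤ K * c' f)
    (h2 : ∀ f, c' f ≤ K * c f) {e : Sym2 V} (he : e ∈ F) :
    mF F' c' e ≤ K ^ 2 * mF F c e := by
  induction e using Sym2.ind with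
  | h x y =>
  by_cases hxy : x = y
  · have : mF F' c' s(x, y) = 0 := by
      rw [mF, sum_eq_zero, zero_div]
      intro T hT
      simp only [mem_filter, mem_bases] at hT
      exact absurd (by simp [hxy]) (hT.1.2.1 _ hT.2)
    rw [this]
    exact mul_nonneg (sq_nonneg _) (mF_nonneg F hc _)
  obtain ⟨v, hv, hv'⟩ := dirichlet_eq F' hc' (hF he) hxy
  have hd := dirichlet F hc he hxy v
  set A := ∑ f ∈ F, c f * dd v v f
  set B := ∑ f ∈ F', c' f * dd v v f
  have hAB : A ≤ K * B := by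
    calc A ≤ ∑ f ∈ F, K * (c' f * dd v v f) := sum_le_sum fun f _ => by
            rw [← mul_assoc]; exact mul_le_mul_of_nonneg_right (h1 f) (dd_self_nonneg v f)
      _ ≤ ∑ f ∈ F', K * (c' f * dd v v f) := sum_le_sum_of_subset_of_nonneg hF fun f _ _ =>
            mul_nonneg hK (mul_nonneg (hc' f).le (dd_self_nonneg v f))
      _ = K * B := by rw [mul_sum]
  have hpos : 0 < (v x - v y) ^ 2 := by positivity
  have hB : 0 < B := by
    by_contra hB
    have hB0 : B ≤ 0 := not_lt.1 hB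
    have := mul_nonpos_of_nonneg_of_nonpos (mF_nonneg F' hc' s(x, y)) hB0
    have := mul_pos (hc' s(x, y)) hpos
    linarith
  have hm := mF_nonneg F hc s(x, y)
  have h3 : mF F' c' s(x, y) * B ≤ K ^ 2 * mF F c s(x, y) * B := by
    calc mF F' c' s(x, y) * B = c' s(x, y) * (v x - v y) ^ 2 := hv'.symm
      _ ≤ K * c s(x, y) * (v x - v y) ^ 2 := mul_le_mul_of_nonneg_right (h2 _) hpos.le
      _ = K * (c s(x, y) * (v x - v y) ^ 2) := by ring
      _ ≤ K * (mF F c s(x, y) * A) := mul_le_mul_of_nonneg_left hd hK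
      _ ≤ K * (mF F c s(x, y) * (K * B)) :=
          mul_le_mul_of_nonneg_left (mul_le_mul_of_nonneg_left hAB hm) hK
      _ = K ^ 2 * mF F c s(x, y) * B := by ring
  exact le_of_mul_le_mul_right h3 hB

end Vale.Agent.P143
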