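import Vale.Agent.P143.Gauss

/-! Consistent families and martingale increments of the velocity fields. -/

namespace Vale.Agent.P143

open Finset MeasureTheory ProbabilityTheory Filter Topology
open scoped Classical

variable {E : Type*}

structure Good (p : Finset E → Finset E → ℝ) : Prop where
  pv : ∀ S, PV S (p S)
  lip : ∀ S, Lip S (p S)
  cons : ∀ R S, R ⊆ S → ∀ φ : Finset E → ℝ,
    ∑ A ∈ S.powerset, p S A * φ (A ∩ R) = ∑ B ∈ R.powerset, p R B * φ B

lemma vel_congr (R : Finset E) (p : Finset E → ℝ) (u : ℝ) {x y : E → ℝ}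
    (h : ∀ f ∈ R, x f = y f) (e : E) : vel R p u x e = vel R p u y e := by
  have : ∀ A ∈ R.powerset, wt p (th u x) A = wt p (th u y) A := by
    intro A hA
    unfold wt
    rw [sum_congr rfl fun f hf => by rw [th, h f (mem_powerset.1 hA hf)]]
    rfl
  unfold vel mt Et Zt
  rw [sum_congr rfl this, sum_congr rfl fun A hA => by rw [this A hA]]

lemma vel_sh_inter (R A : Finset E) (p : Finset E → ℝ) (u : ℝ) (ξ : E → ℝ) (e : E) :
    vel R p u (sh u A ξ) e = vel R p u (sh u (A ∩ R) ξ) e :=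
  vel_congr R p u (fun f hf => by simp [sh, one, hf]) e

lemma measurable_vel' (S : Finset E) (p : Finset E → ℝ) (u : ℝ) (e : E) :
    Measurable fun x => vel S p u x e :=
  measurable_vel S (P := fun _ => p) (fun _ => measurable_const) u
    (fun f => measurable_pi_apply f) e

lemma abs_mul_le_one {a b : ℝ} (ha : |a| ≤ 1) (hb : |b| ≤ 1) : |a * b| ≤ 1 := by
  rw [abs_mul]; exact mul_le_one₀ ha (abs_nonneg _) hb

lemma posterior {S : Finset E} {p : Finset E → ℝ} (hp : PV S p) (u : ℝ) {H : (E → ℝ) → ℝ}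
    (hH : Measurable H) (hb : ∀ x, |H x| ≤ 1) (e : E) :
    nu S p u (fun x => H x * vel S p u x e) = nu2 S p u (fun A x => H x * one A e) := by
  have m1 : Measurable fun x => H x * vel S p u x e := hH.mul (measurable_vel' S p u e)
  have m2 : ∀ A : Finset E, Measurable fun x => H x * one A e := fun A => hH.mul_const _
  have b1 : ∀ x, |H x * vel S p u x e| ≤ 1 := fun x => abs_mul_le_one (hb x) (abs_mt_le hp _ _)
  have b2 : ∀ (A : Finset E) x, |H x * one A e| ≤ 1 :=
    fun A x => abs_mul_le_one (hb x) (abs_one_le _ _)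
  rw [nu, ← sub_eq_zero, ← nu2_sub u (fun _ => m1) m2 (fun _ => b1) b2, ← abs_nonpos_iff]
  refine abs_nu2_le hp u (fun A => m1.sub (m2 A)) (c := 2)
    (fun A x => (abs_sub _ _).trans (by linarith [b1 x, b2 A x])) fun ξ => ?_
  simp only [Pi.sub_apply]
  rw [Et_sub, Et_const hp]
  simp only [mul_comm (H ξ)]
  rw [Et_mul, vel, mt, sub_self, abs_zero]

variable {p : Finset E → Finset E → ℝ}

noncomputable def qq (p : Finset E → Finset E → ℝ) (S : Finset E) (u : ℝ) (e : E) : ℝ :=
  nu S (p S) u (fun x => vel S (p S) u x e * vel S (p S) u x e)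

lemma nu_nonneg {S : Finset E} {p : Finset E → ℝ} (hp : PV S p) (u : ℝ) {H : (E → ℝ) → ℝ}
    (hH : ∀ x, 0 ≤ H x) : 0 ≤ nu S p u H :=
  sum_nonneg fun A _ => mul_nonneg (hp.nonneg A) (integral_nonneg fun _ => hH _)

lemma qq_nonneg (hp : Good p) (S : Finset E) (u : ℝ) (e : E) : 0 ≤ qq p S u e :=
  nu_nonneg (hp.pv S) u fun _ => mul_self_nonneg _

lemma qq_le_one (hp : Good p) (S : Finset E) (u : ℝ) (e : E) : qq p S u e ≤ 1 := by
  have hb : ∀ x, |vel S (p S) u x e * vel S (p S) u x e| ≤ 1 :=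
    fun x => abs_mul_le_one (abs_mt_le (hp.pv S) _ _) (abs_mt_le (hp.pv S) _ _)
  refine (le_abs_self _).trans (abs_nu2_le (hp.pv S) u
    (fun _ => (measurable_vel' S _ u e).mul (measurable_vel' S _ u e)) (c := 1)
    (fun _ => hb) fun ξ => ?_)
  rw [Et_const (hp.pv S)]; exact hb ξ

lemma incr (hp : Good p) {R S : Finset E} (hRS : R ⊆ S) {e : E} (he : e ∈ R) (u : ℝ) :
    nu S (p S) u (fun x => (vel S (p S) u x e - vel R (p R) u x e) *
      (vel S (p S) u x e - vel R (p R) u x e)) = qq p S u e - qq p R u e := by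
  have ma := measurable_vel' S (p S) u e
  have mb := measurable_vel' R (p R) u e
  have ba : ∀ x, |vel S (p S) u x e| ≤ 1 := fun x => abs_mt_le (hp.pv S) _ _
  have bb : ∀ x, |vel R (p R) u x e| ≤ 1 := fun x => abs_mt_le (hp.pv R) _ _
  have h1 : nu S (p S) u (fun x => vel R (p R) u x e * vel S (p S) u x e) = qq p R u e := by
    rw [posterior (hp.pv S) u mb bb, qq, posterior (hp.pv R) u mb bb, nu2, nu2,
      ← hp.cons R S hRS]
    refine sum_congr rfl fun A _ => ?_
    have : one A e = one (A ∩ R) e := by simp [one, he]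
    simp only [this, ← vel_sh_inter]
  have h2 : nu S (p S) u (fun x => vel R (p R) u x e * vel R (p R) u x e) = qq p R u e := by
    rw [qq, nu, nu, nu2, nu2, ← hp.cons R S hRS]
    refine sum_congr rfl fun A _ => ?_
    simp only [← vel_sh_inter]
  have h3 : (fun x => (vel S (p S) u x e - vel R (p R) u x e) *
      (vel S (p S) u x e - vel R (p R) u x e)) = fun x =>
      (vel S (p S) u x e * vel S (p S) u x e - vel R (p R) u x e * vel S (p S) u x e) -
      (vel R (p R) u x e * vel S (p S) u x e - vel R (p R) u x e * vel R (p R) u x e) := by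
    ext x; ring
  have baa := fun x => abs_mul_le_one (ba x) (ba x)
  have bba := fun x => abs_mul_le_one (bb x) (ba x)
  have bbb := fun x => abs_mul_le_one (bb x) (bb x)
  have maa : Measurable fun x => vel S (p S) u x e * vel S (p S) u x e := ma.mul ma
  have mba : Measurable fun x => vel R (p R) u x e * vel S (p S) u x e := mb.mul ma
  have mbb : Measurable fun x => vel R (p R) u x e * vel R (p R) u x e := mb.mul mb
  have m1 : Measurable fun x => vel S (p S) u x e * vel S (p S) u x e -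
    vel R (p R) u x e * vel S (p S) u x e := maa.sub mba
  have m2 : Measurable fun x => vel R (p R) u x e * vel S (p S) u x e -
    vel R (p R) u x e * vel R (p R) u x e := mba.sub mbb
  rw [h3, nu, nu2_sub u (fun _ => m1) (fun _ => m2) (c := 2) (c' := 2)
    (fun _ x => (abs_sub _ _).trans (by linarith [baa x, bba x]))
    (fun _ x => (abs_sub _ _).trans (by linarith [bbb x, bba x])),
    nu2_sub u (fun _ => maa) (fun _ => mba) (fun _ => baa) (fun _ => bba),
    nu2_sub u (fun _ => mba) (fun _ => mbb) (fun _ => bba) (fun _ => bbb)]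
  unfold nu at h1 h2
  rw [h1, h2, sub_self, sub_zero]
  rfl

/-- The step size. -/
noncomputable def hh (n : ℕ) : ℝ := (1 / 2) ^ n

lemma hh_pos (n : ℕ) : 0 < hh n := by unfold hh; positivity

lemma hh_le_one (n : ℕ) : hh n ≤ 1 := pow_le_one₀ (by norm_num) (by norm_num)

lemma hh_mul (j n : ℕ) : ((j * 2 ^ n : ℕ) : ℝ) * hh n = j := by
  push_cast
  rw [hh, mul_assoc, ← mul_pow]; norm_num

lemma hh_mul_le {j n l : ℕ} (hl : l ≤ j * 2 ^ n) : (l : ℝ) * hh n ≤ j := by
  rw [← hh_mul j n]
  exact mul_le_mul_of_nonneg_right (by exact_mod_cast hl) (hh_pos n).le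

lemma tendsto_hh : Tendsto hh atTop (𝓝 0) :=
  tendsto_pow_atTop_nhds_zero_of_lt_one (by norm_num) (by norm_num)

noncomputable def RS (p : Finset E → Finset E → ℝ) (S : Finset E) (e : E) (j n : ℕ) : ℝ :=
  ∑ l ∈ range (j * 2 ^ n), hh n * qq p S (l * hh n) e

lemma RS_mem (hp : Good p) (S : Finset E) (e : E) (j n : ℕ) : RS p S e j n ∈ Set.Icc (0 : ℝ) j := by
  refine ⟨sum_nonneg fun l _ => mul_nonneg (hh_pos n).le (qq_nonneg hp _ _ _), ?_⟩
  calc RS p S e j n ≤ ∑ l ∈ range (j * 2 ^ n), hh n := sum_le_sum fun l _ =>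
        mul_le_of_le_one_right (hh_pos n).le (qq_le_one hp _ _ _)
    _ = j := by rw [sum_const, card_range, nsmul_eq_mul, hh_mul]

/-- The localisation error. -/
noncomputable def aT (p : Finset E → Finset E → ℝ) (S R : Finset E) (e : E) (j n : ℕ)
    (ξ : E → ℝ) : ℝ :=
  ∑ l ∈ range (j * 2 ^ n), hh n * |vel S (p S) (l * hh n) (eul S (p S) (hh n) l ξ) e -
    vel R (p R) (l * hh n) (eul S (p S) (hh n) l ξ) e|

lemma aT_nonneg (S R : Finset E) (e : E) (j n : ℕ) (ξ : E → ℝ) : 0 ≤ aT p S R e j n ξ :=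
  sum_nonneg fun _ _ => mul_nonneg (hh_pos n).le (abs_nonneg _)

lemma abs_vel_sub_le {S R : Finset E} {p p' : Finset E → ℝ} (hp : PV S p) (hp' : PV R p')
    (u u' : ℝ) (x x' : E → ℝ) (e e' : E) : |vel S p u x e - vel R p' u' x' e'| ≤ 1 := by
  have a1 := mt_nonneg hp (th u x) e
  have a2 := mt_le_one hp (th u x) e
  have a3 := mt_nonneg hp' (th u' x') e'
  have a4 := mt_le_one hp' (th u' x') e'
  unfold vel
  rw [abs_le]; constructor <;> linarith

lemma integrable_aT_term (hp : Good p) (S R : Finset E) (e : E) (n l : ℕ) :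
    Integrable (fun ξ => |vel S (p S) (l * hh n) (eul S (p S) (hh n) l ξ) e -
      vel R (p R) (l * hh n) (eul S (p S) (hh n) l ξ) e|) (gam E) :=
  (integrable_of_bdd (((measurable_vel' S _ _ e).sub (measurable_vel' R _ _ e)).comp
    (measurable_eul S _ _ l)) fun _ => abs_vel_sub_le (hp.pv S) (hp.pv R) _ _ _ _ _ _).abs

lemma integrable_aT (hp : Good p) (S R : Finset E) (e : E) (j n : ℕ) :
    Integrable (aT p S R e j n) (gam E) :=
  integrable_finsetSum _ fun l _ => (integrable_aT_term hp S R e n l).const_mul _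

lemma integral_aT_le (hp : Good p) {S R : Finset E} (hRS : R ⊆ S) {e : E} (he : e ∈ R) (j : ℕ) :
    ∃ C : ℝ, ∀ (n : ℕ) (a : ℝ), 0 < a → ∫ ξ, aT p S R e j n ξ ∂gam E ≤
      (RS p S e j n - RS p R e j n + C * hh n) / a + j * a := by
  set K0 : ℝ := 20 * (1 + j) ^ 2 + 20 * (1 + j) ^ 2 with hK0
  refine ⟨j * ((K0 + K0 + K0 * K0) * BS S j), fun n a ha => ?_⟩
  unfold aT
  rw [integral_finsetSum _ fun l _ => (integrable_aT_term hp S R e n l).const_mul _]
  have key : ∀ l ∈ range (j * 2 ^ n), ∫ ξ, hh n *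
      |vel S (p S) (l * hh n) (eul S (p S) (hh n) l ξ) e -
        vel R (p R) (l * hh n) (eul S (p S) (hh n) l ξ) e| ∂gam E ≤
      (hh n * qq p S (l * hh n) e - hh n * qq p R (l * hh n) e +
        hh n * ((K0 + K0 + K0 * K0) * BS S j * hh n)) / a + hh n * a := by
    intro l hl
    have hl' : (l : ℝ) * hh n ≤ j := hh_mul_le (mem_range.1 hl).le
    have hl0 : 0 ≤ (l : ℝ) * hh n := mul_nonneg (Nat.cast_nonneg _) (hh_pos n).le
    have q1 := (qr_vel (hp.pv S) (hp.lip S) hl0 hl' e).sub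
      ((qr_vel (hp.pv R) (hp.lip R) hl0 hl' e).subset hRS)
      fun x => abs_vel_sub_le (hp.pv S) (hp.pv R) _ _ _ _ _ _
    have q2 := q1.mul q1
    have t := transport (hp.pv S) (hp.lip S) (hh_pos n).le hl' q2
    rw [incr hp hRS he] at t
    have t' := (abs_le.1 t).2
    have i2 := integrable_of_bdd (μ := gam E) (q2.meas.comp (measurable_eul S (p S) (hh n) l))
      fun _ => q2.bdd _
    simp only [Function.comp_def] at i2
    rw [integral_const_mul]
    have h1 : ∫ ξ, |vel S (p S) (l * hh n) (eul S (p S) (hh n) l ξ) e -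
        vel R (p R) (l * hh n) (eul S (p S) (hh n) l ξ) e| ∂gam E ≤
        ∫ ξ, ((vel S (p S) (l * hh n) (eul S (p S) (hh n) l ξ) e -
        vel R (p R) (l * hh n) (eul S (p S) (hh n) l ξ) e) *
        (vel S (p S) (l * hh n) (eul S (p S) (hh n) l ξ) e -
        vel R (p R) (l * hh n) (eul S (p S) (hh n) l ξ) e) / a + a) ∂gam E := by
      refine integral_mono (integrable_aT_term hp S R e n l)
        ((i2.div_const a).add (integrable_const a)) fun ξ => ?_
      simp only
      set z := vel S (p S) (l * hh n) (eul S (p S) (hh n) l ξ) e -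
        vel R (p R) (l * hh n) (eul S (p S) (hh n) l ξ) e
      rw [← abs_mul_abs_self, div_add' _ _ _ ha.ne', le_div_iff₀ ha]
      nlinarith [sq_nonneg (|z| - a), mul_nonneg (abs_nonneg z) ha.le]
    rw [integral_add (i2.div_const a) (integrable_const a), integral_div] at h1
    simp only [integral_const, probReal_univ, one_smul] at h1
    have h2 := div_le_div_of_nonneg_right (sub_le_iff_le_add'.1 t') ha.le
    calc _ ≤ hh n * ((qq p S (l * hh n) e - qq p R (l * hh n) e +
          (K0 + K0 + K0 * K0) * BS S j * hh n) / a + a) :=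
          mul_le_mul_of_nonneg_left (h1.trans (add_le_add h2 le_rfl)) (hh_pos n).le
      _ = _ := by ring
  refine (sum_le_sum key).trans (le_of_eq ?_)
  rw [sum_add_distrib, ← sum_div, sum_add_distrib, sum_sub_distrib, sum_const, sum_const,
    card_range, nsmul_eq_mul, nsmul_eq_mul, ← mul_assoc, ← mul_assoc _ (hh n) a, hh_mul]
  unfold RS
  ring

theorem small_aT (hp : Good p) (e : E) (j : ℕ) {η : ℝ} (hη : 0 < η) :
    ∃ R : Finset E, e ∈ R ∧ ∀ S, R ⊆ S →
      ∀ᶠ n in (hyperfilter ℕ : Filter ℕ), ∫ ξ, aT p S R e j n ξ ∂gam E ≤ η := by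
  have hQ : ∀ S : Finset E, ∃ Q ∈ Set.Icc (0 : ℝ) j,
      Tendsto (RS p S e j) (hyperfilter ℕ : Filter ℕ) (𝓝 Q) := fun S =>
    isCompact_Icc.ultrafilter_le_nhds ((hyperfilter ℕ).map (RS p S e j))
      (le_principal_iff.2 (mem_map.2 (Eventually.of_forall (RS_mem hp S e j))))
  choose Q hQ1 hQ2 using hQ
  set a : ℝ := η / (2 * (j + 1)) with ha
  have ha0 : 0 < a := by positivity
  set ε : ℝ := a * η / 4 with hε
  have hε0 : 0 < ε := by positivity
  have hbdd : BddAbove (Set.range fun S : Finset E => Q (insert e S)) :=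
    ⟨j, by rintro _ ⟨S, rfl⟩; exact (hQ1 _).2⟩
  obtain ⟨R0, hR0⟩ := exists_lt_of_lt_ciSup
    (sub_lt_self (⨆ S : Finset E, Q (insert e S)) hε0)
  refine ⟨insert e R0, mem_insert_self _ _, fun S hS => ?_⟩
  have he : e ∈ S := hS (mem_insert_self _ _)
  have h1 : Q S ≤ ⨆ S : Finset E, Q (insert e S) := by
    have := le_ciSup hbdd S
    rwa [insert_eq_of_mem he] at this
  obtain ⟨C, hC⟩ := integral_aT_le hp hS (mem_insert_self _ _) j
  have hU : (hyperfilter ℕ : Filter ℕ) ≤ atTop := by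
    rw [← Nat.cofinite_eq_atTop]; exact hyperfilter_le_cofinite
  have h2 : Tendsto (fun n => RS p S e j n - RS p (insert e R0) e j n + C * hh n)
      (hyperfilter ℕ : Filter ℕ) (𝓝 (Q S - Q (insert e R0) + C * 0)) :=
    ((hQ2 S).sub (hQ2 _)).add ((tendsto_hh.mono_left hU).const_mul C)
  have h3 : Q S - Q (insert e R0) + C * 0 < ε := by linarith
  filter_upwards [h2.eventually (gt_mem_nhds h3)] with n hn
  refine (hC n a ha0).trans ?_
  have h4 : (RS p S e j n - RS p (insert e R0) e j n + C * hh n) / a ≤ η / 4 := by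
    rw [div_le_iff₀ ha0]; linarith
  have h5 : j * a ≤ η / 2 := by
    rw [ha, mul_div_assoc', div_le_div_iff₀ (by positivity) (by norm_num)]
    nlinarith
  linarith

end Vale.Agent.P143
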