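import Vale.Agent.P143.Bits

/-! Invariance under relabelling and joint measurability of the factor map. -/

namespace Vale.Agent.P143

open Finset MeasureTheory ProbabilityTheory Filter Topology
open scoped Classical

variable {E E' : Type*}

lemma sum_powerset_map (π : E ≃ E') (S : Finset E) (g : Finset E' → ℝ) :
    ∑ A ∈ (S.map π.toEmbedding).powerset, g A = ∑ A ∈ S.powerset, g (A.map π.toEmbedding) := by
  refine (sum_equiv π.finsetCongr (fun A => ?_) fun A _ => rfl).symm
  simp only [mem_powerset, Equiv.finsetCongr_apply, map_subset_map]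

lemma mt_map (π : E ≃ E') (S : Finset E) {q : Finset E → ℝ} {q' : Finset E' → ℝ}
    (hq : ∀ A, q' (A.map π.toEmbedding) = q A) {θ : E → ℝ} {θ' : E' → ℝ}
    (hθ : ∀ f, θ' (π f) = θ f) (e : E) :
    mt (S.map π.toEmbedding) q' θ' (π e) = mt S q θ e := by
  have h1 : ∀ A : Finset E, wt q' θ' (A.map π.toEmbedding) = wt q θ A := by
    intro A
    simp only [wt, hq, sum_map, Equiv.coe_toEmbedding, hθ]
  have h2 : ∀ A : Finset E, one (A.map π.toEmbedding) (π e) = one A e := by
    intro A
    simp [one]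
  simp only [mt, Et, Zt, sum_powerset_map, h1, h2]

lemma eul_map (π : E ≃ E') (S : Finset E) {q : Finset E → ℝ} {q' : Finset E' → ℝ}
    (hq : ∀ A, q' (A.map π.toEmbedding) = q A) {ξ : E → ℝ} {ξ' : E' → ℝ}
    (hξ : ∀ f, ξ' (π f) = ξ f) (h : ℝ) (k : ℕ) (e : E) :
    eul (S.map π.toEmbedding) q' h k ξ' (π e) = eul S q h k ξ e := by
  induction k generalizing e with
  | zero => exact hξ e
  | succ k ih =>
    simp only [eul, step, vel]
    rw [ih, mt_map π S hq (θ := th (k * h) (eul S q h k ξ)) fun f => by simp only [th, ih]]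

lemma Xl_map (π : E ≃ E') (S : Finset E) {q : Finset E → ℝ} {q' : Finset E' → ℝ}
    (hq : ∀ A, q' (A.map π.toEmbedding) = q A) {ξ : E → ℝ} {ξ' : E' → ℝ}
    (hξ : ∀ f, ξ' (π f) = ξ f) (j : ℕ) (e : E) :
    Xl (S.map π.toEmbedding) q' j ξ' (π e) = Xl S q j ξ e := by
  simp only [Xl, Xn, eul_map π S hq hξ]

lemma gam_map {f : E → E'} (hf : Function.Injective f) :
    (gam E').map (fun ξ i => ξ (f i)) = gam E :=
  Measure.map_infinitePi_infinitePi_of_inj (P := fun _ : E' => gaussianReal 0 1) hf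

lemma err_map (π : E ≃ E') {p : Finset E → Finset E → ℝ} {p' : Finset E' → Finset E' → ℝ}
    (hp : ∀ S A, p' (S.map π.toEmbedding) (A.map π.toEmbedding) = p S A) (S S' : Finset E)
    (e : E) (j : ℕ) :
    err p' (S.map π.toEmbedding) (S'.map π.toEmbedding) (π e) j = err p S S' e j := by
  unfold err
  have hm : Measurable fun ξ => |Xl S (p S) j ξ e - Xl S' (p S') j ξ e| :=
    ((measurable_Xl _ _ _ _).sub (measurable_Xl _ _ _ _)).abs
  rw [← gam_map (f := π) π.injective, integral_map
    (measurable_pi_lambda _ fun i => measurable_pi_apply (π i)).aemeasurable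
    hm.aestronglyMeasurable]
  congr 1
  ext ξ'
  rw [Xl_map π S (hp S) (ξ := fun i => ξ' (π i)) (fun _ => rfl),
    Xl_map π S' (hp S') (ξ := fun i => ξ' (π i)) (fun _ => rfl)]

theorem psi_map (π : E ≃ E') {p : Finset E → Finset E → ℝ} {p' : Finset E' → Finset E' → ℝ}
    (hp : ∀ S A, p' (S.map π.toEmbedding) (A.map π.toEmbedding) = p S A)
    {B : E → ℕ → Finset E} {B' : E' → ℕ → Finset E'}
    (hB : ∀ e r, B' (π e) r = (B e r).map π.toEmbedding) {ξ : E → ℝ} {ξ' : E' → ℝ}
    (hξ : ∀ f, ξ' (π f) = ξ f) (e : E) : psi p' B' ξ' (π e) ↔ psi p B ξ e := by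
  have h1 : ∀ j, rad p' B' (π e) j = rad p B e j := by
    intro j; simp only [rad, hB, err_map π hp]
  have h2 : ∀ j, Yv p' B' ξ' (π e) j = Yv p B ξ e j := by
    intro j; simp only [Yv, h1, hB]; rw [Xl_map π _ (hp _) hξ]
  simp only [psi, h2]

variable {Ω : Type*} [MeasurableSpace Ω]

lemma measurable_pick {C β : Type*} [Countable C] [MeasurableSpace β] {g : Ω → C}
    (hg : ∀ c, MeasurableSet {ω | g ω = c}) {F : C → Ω → β} (hF : ∀ c, Measurable (F c)) :
    Measurable fun ω => F (g ω) ω := by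
  intro s hs
  have : (fun ω => F (g ω) ω) ⁻¹' s = ⋃ c, {ω | g ω = c} ∩ F c ⁻¹' s := by
    ext ω; simp
  rw [this]
  exact MeasurableSet.iUnion fun c => (hg c).inter (hF c hs)

lemma measurableSet_pick {C D : Type*} [Countable C] {g : Ω → C}
    (hg : ∀ c, MeasurableSet {ω | g ω = c}) {F : C → Ω → D}
    (hF : ∀ c d, MeasurableSet {ω | F c ω = d}) (d : D) :
    MeasurableSet {ω | F (g ω) ω = d} := by
  have : {ω | F (g ω) ω = d} = ⋃ c, {ω | g ω = c} ∩ {ω | F c ω = d} := by
    ext ω; simp
  rw [this]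
  exact MeasurableSet.iUnion fun c => (hg c).inter (hF c d)

lemma measurableSet_sInf {P : Ω → ℕ → Prop} (hP : ∀ n, Measurable fun ω => P ω n) (r : ℕ) :
    MeasurableSet {ω | sInf {n | P ω n} = r} := by
  have : ∀ ω, sInf {n | P ω n} = r ↔
      (P ω r ∧ ∀ k, k < r → ¬ P ω k) ∨ (r = 0 ∧ ∀ k, ¬ P ω k) := by
    intro ω
    by_cases h : {n | P ω n}.Nonempty
    · constructor
      · rintro rfl
        exact Or.inl ⟨Nat.sInf_mem h, fun k hk => Nat.notMem_of_lt_sInf hk⟩
      · rintro (⟨h1, h2⟩ | ⟨_, h2⟩)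
        · exact le_antisymm (Nat.sInf_le h1) (not_lt.1 fun h3 => h2 _ h3 (Nat.sInf_mem h))
        · exact absurd h.some_mem (h2 _)
    · have h' : ∀ k, ¬ P ω k := fun k hk => h ⟨k, hk⟩
      rw [Set.not_nonempty_iff_eq_empty.1 h, Nat.sInf_empty]
      exact ⟨fun h1 => Or.inr ⟨h1.symm, h'⟩, fun h1 => h1.elim (fun h2 => absurd h2.1 (h' _))
        fun h2 => h2.1.symm⟩
  simp only [this]
  exact measurableSet_setOfPred.2 (((hP r).and (Measurable.forall fun k =>
    measurable_const.imp (hP k).not)).or (measurable_const.and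
      (Measurable.forall fun k => (hP k).not)))

lemma measurable_eul_param (S : Finset E) {P : Ω → Finset E → ℝ}
    (hP : ∀ A, Measurable fun ω => P ω A) {ξ : Ω → E → ℝ} (hξ : ∀ f, Measurable fun ω => ξ ω f)
    (h : ℝ) (k : ℕ) (e : E) : Measurable fun ω => eul S (P ω) h k (ξ ω) e := by
  induction k generalizing e with
  | zero => exact hξ e
  | succ k ih => exact (ih e).add ((measurable_vel S hP _ ih e).const_mul h)

lemma measurable_Xl_param (S : Finset E) {P : Ω → Finset E → ℝ}
    (hP : ∀ A, Measurable fun ω => P ω A) {ξ : Ω → E → ℝ} (hξ : ∀ f, Measurable fun ω => ξ ω f)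
    (j : ℕ) (e : E) : Measurable fun ω => Xl S (P ω) j (ξ ω) e :=
  Measurable.limsup fun _ => measurable_eul_param S hP hξ _ _ e

lemma measurable_err_param {P : Ω → Finset E → Finset E → ℝ}
    (hP : ∀ S A, Measurable fun ω => P ω S A) (S S' : Finset E) (e : E) (j : ℕ) :
    Measurable fun ω => err (P ω) S S' e j := by
  have h : ∀ S : Finset E, Measurable fun x : Ω × (E → ℝ) => Xl S (P x.1 S) j x.2 e := fun S =>
    measurable_Xl_param S (P := fun x : Ω × (E → ℝ) => P x.1 S)
      (fun A => (hP S A).comp measurable_fst) (ξ := fun x => x.2)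
      (fun f => (measurable_pi_apply f).comp measurable_snd) j e
  exact (StronglyMeasurable.integral_prod_right' (ν := gam E)
    ((h S).sub (h S')).abs.stronglyMeasurable).measurable

theorem measurable_psi_param [Countable E] {P : Ω → Finset E → Finset E → ℝ}
    (hP : ∀ S A, Measurable fun ω => P ω S A) {B : Ω → E → ℕ → Finset E}
    (hB : ∀ e r S, MeasurableSet {ω | B ω e r = S}) {ξ : Ω → E → ℝ}
    (hξ : ∀ f, Measurable fun ω => ξ ω f) (e : E) :
    Measurable fun ω => psi (P ω) (B ω) (ξ ω) e := by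
  have h1 : ∀ j r r', Measurable fun ω => err (P ω) (B ω e r) (B ω e r') e j := fun j r r' =>
    measurable_pick (F := fun S ω => err (P ω) S (B ω e r') e j) (hB e r) fun S =>
      measurable_pick (F := fun S' ω => err (P ω) S S' e j) (hB e r') fun S' =>
        measurable_err_param hP S S' e j
  have h2 : ∀ j r, MeasurableSet {ω | rad (P ω) (B ω) e j = r} := fun j r =>
    measurableSet_sInf (P := fun ω r => ∀ r', r ≤ r' →
      err (P ω) (B ω e r) (B ω e r') e j ≤ hh j) (fun r => Measurable.forall fun r' =>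
        measurable_const.imp (measurableSet_setOfPred.1
          (measurableSet_le (h1 j r r') measurable_const))) r
  have h3 : ∀ j S, MeasurableSet {ω | B ω e (rad (P ω) (B ω) e j) = S} := fun j S =>
    measurableSet_pick (F := fun r ω => B ω e r) (h2 j) (hB e) S
  have h4 : ∀ j, Measurable fun ω => Yv (P ω) (B ω) (ξ ω) e j := fun j =>
    (measurable_pick (F := fun S ω => Xl S (P ω S) j (ξ ω) e) (h3 j) fun S =>
      measurable_Xl_param S (hP S) hξ j e).sub_const _
  exact Measurable.exists fun _ => Measurable.forall fun j => measurable_const.imp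
    (measurableSet_setOfPred.1 (measurableSet_lt measurable_const (h4 j)))

end Vale.Agent.P143
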