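import Vale.Agent.P143.Tilt

/-! Test functions with a quadratic Taylor remainder, and the Euler step. -/

namespace Vale.Agent.P143

open Finset
open scoped Classical

variable {E : Type*}

structure QR (S : Finset E) (K : ℝ) (G : (E → ℝ) → ℝ) : Prop where
  nonneg : 0 ≤ K
  meas : Measurable G
  bdd : ∀ x, |G x| ≤ 1
  lip : ∀ x v, |G (x + v) - G x| ≤ K * nS S v
  rem : ∀ x, ∃ D : E → ℝ, (∀ f, |D f| ≤ K) ∧
    ∀ v, |G (x + v) - G x - ∑ f ∈ S, D f * v f| ≤ K * nS S v ^ 2

variable {S : Finset E} {p : Finset E → ℝ} {K K' : ℝ} {G G' : (E → ℝ) → ℝ}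

lemma QR.mono (h : QR S K G) (hK : K ≤ K') : QR S K' G where
  nonneg := h.nonneg.trans hK
  meas := h.meas
  bdd := h.bdd
  lip x v := (h.lip x v).trans (mul_le_mul_of_nonneg_right hK (nS_nonneg S v))
  rem x := by
    obtain ⟨D, h1, h2⟩ := h.rem x
    exact ⟨D, fun f => (h1 f).trans hK,
      fun v => (h2 v).trans (mul_le_mul_of_nonneg_right hK (sq_nonneg _))⟩

lemma QR.subset {R : Finset E} (h : QR R K G) (hR : R ⊆ S) : QR S K G where
  nonneg := h.nonneg
  meas := h.meas
  bdd := h.bdd
  lip x v := (h.lip x v).trans (mul_le_mul_of_nonneg_left (nS_mono hR v) h.nonneg)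
  rem x := by
    obtain ⟨D, h1, h2⟩ := h.rem x
    refine ⟨fun f => one R f * D f, fun f => ?_, fun v => ?_⟩
    · rw [abs_mul]
      calc _ ≤ 1 * K := mul_le_mul (abs_one_le R f) (h1 f) (abs_nonneg _) zero_le_one
        _ = K := one_mul _
    · simp only [mul_assoc]
      rw [sum_one_mul hR]
      exact (h2 v).trans (mul_le_mul_of_nonneg_left
        (pow_le_pow_left₀ (nS_nonneg R v) (nS_mono hR v) 2) h.nonneg)

lemma QR.const_one : QR S 0 (fun _ => 1) where
  nonneg := le_rfl
  meas := measurable_const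
  bdd _ := by simp
  lip _ _ := by simp
  rem _ := ⟨fun _ => 0, by simp, by simp⟩

lemma QR.mul (h : QR S K G) (h' : QR S K' G') : QR S (K + K' + K * K') (fun x => G x * G' x) where
  nonneg := by have := h.nonneg; have := h'.nonneg; positivity
  meas := h.meas.mul h'.meas
  bdd x := by rw [abs_mul]; exact mul_le_one₀ (h.bdd x) (abs_nonneg _) (h'.bdd x)
  lip x v := by
    have e : G (x + v) * G' (x + v) - G x * G' x =
        (G (x + v) - G x) * G' (x + v) + G x * (G' (x + v) - G' x) := by ring
    rw [e]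
    have a1 : |(G (x + v) - G x) * G' (x + v)| ≤ K * nS S v * 1 := by
      rw [abs_mul]
      exact mul_le_mul (h.lip x v) (h'.bdd _) (abs_nonneg _)
        (mul_nonneg h.nonneg (nS_nonneg S v))
    have a2 : |G x * (G' (x + v) - G' x)| ≤ 1 * (K' * nS S v) := by
      rw [abs_mul]
      exact mul_le_mul (h.bdd _) (h'.lip x v) (abs_nonneg _) zero_le_one
    have a3 := mul_nonneg (mul_nonneg h.nonneg h'.nonneg) (nS_nonneg S v)
    refine (abs_add_le _ _).trans ?_
    nlinarith
  rem x := by
    obtain ⟨D, h1, h2⟩ := h.rem x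
    obtain ⟨D', h1', h2'⟩ := h'.rem x
    refine ⟨fun f => D f * G' x + G x * D' f, fun f => ?_, fun v => ?_⟩
    · have a1 : |D f * G' x| ≤ K * 1 := by
        rw [abs_mul]; exact mul_le_mul (h1 f) (h'.bdd _) (abs_nonneg _) h.nonneg
      have a2 : |G x * D' f| ≤ 1 * K' := by
        rw [abs_mul]; exact mul_le_mul (h.bdd _) (h1' f) (abs_nonneg _) zero_le_one
      have a3 := mul_nonneg h.nonneg h'.nonneg
      refine (abs_add_le _ _).trans ?_
      linarith
    · have e0 : ∑ f ∈ S, (D f * G' x + G x * D' f) * v f =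
          (∑ f ∈ S, D f * v f) * G' x + G x * ∑ f ∈ S, D' f * v f := by
        rw [sum_mul, mul_sum, ← sum_add_distrib]
        exact sum_congr rfl fun f _ => by ring
      have e : G (x + v) * G' (x + v) - G x * G' x - ∑ f ∈ S, (D f * G' x + G x * D' f) * v f =
          (G (x + v) - G x - ∑ f ∈ S, D f * v f) * G' x +
          G x * (G' (x + v) - G' x - ∑ f ∈ S, D' f * v f) +
          (G (x + v) - G x) * (G' (x + v) - G' x) := by rw [e0]; ring
      rw [e]
      have a1 : |(G (x + v) - G x - ∑ f ∈ S, D f * v f) * G' x| ≤ K * nS S v ^ 2 * 1 := by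
        rw [abs_mul]
        exact mul_le_mul (h2 v) (h'.bdd _) (abs_nonneg _) (mul_nonneg h.nonneg (sq_nonneg _))
      have a2 : |G x * (G' (x + v) - G' x - ∑ f ∈ S, D' f * v f)| ≤ 1 * (K' * nS S v ^ 2) := by
        rw [abs_mul]
        exact mul_le_mul (h.bdd _) (h2' v) (abs_nonneg _) zero_le_one
      have a3 : |(G (x + v) - G x) * (G' (x + v) - G' x)| ≤ (K * nS S v) * (K' * nS S v) := by
        rw [abs_mul]
        exact mul_le_mul (h.lip x v) (h'.lip x v) (abs_nonneg _)
          (mul_nonneg h.nonneg (nS_nonneg S v))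
      refine (abs_add_three _ _ _).trans ?_
      nlinarith

lemma QR.sub (h : QR S K G) (h' : QR S K' G') (hb : ∀ x, |G x - G' x| ≤ 1) :
    QR S (K + K') (fun x => G x - G' x) where
  nonneg := add_nonneg h.nonneg h'.nonneg
  meas := h.meas.sub h'.meas
  bdd := hb
  lip x v := by
    have e : G (x + v) - G' (x + v) - (G x - G' x) =
        (G (x + v) - G x) - (G' (x + v) - G' x) := by ring
    rw [e, add_mul]
    exact (abs_sub _ _).trans (add_le_add (h.lip x v) (h'.lip x v))
  rem x := by
    obtain ⟨D, h1, h2⟩ := h.rem x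
    obtain ⟨D', h1', h2'⟩ := h'.rem x
    refine ⟨fun f => D f - D' f, fun f => (abs_sub _ _).trans (add_le_add (h1 f) (h1' f)),
      fun v => ?_⟩
    have e : G (x + v) - G' (x + v) - (G x - G' x) - ∑ f ∈ S, (D f - D' f) * v f =
        (G (x + v) - G x - ∑ f ∈ S, D f * v f) -
          (G' (x + v) - G' x - ∑ f ∈ S, D' f * v f) := by
      simp only [sub_mul, sum_sub_distrib]; ring
    rw [e, add_mul]
    exact (abs_sub _ _).trans (add_le_add (h2 v) (h2' v))

lemma QR.prod {ι : Type*} (s : Finset ι) {G : ι → (E → ℝ) → ℝ} (h : ∀ i ∈ s, ∃ K, QR S K (G i)) :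
    ∃ K, QR S K (fun x => ∏ i ∈ s, G i x) := by
  induction s using Finset.induction_on with
  | empty => exact ⟨0, by simpa using QR.const_one⟩
  | insert i s hi ih =>
    obtain ⟨K, hK⟩ := h i (mem_insert_self _ _)
    obtain ⟨K', hK'⟩ := ih fun j hj => h j (mem_insert_of_mem hj)
    exact ⟨_, by simpa only [prod_insert hi] using hK.mul hK'⟩

lemma taylor_one {g g' g'' : ℝ → ℝ} (h1 : ∀ t, HasDerivAt g (g' t) t)
    (h2 : ∀ t, HasDerivAt g' (g'' t) t) (b2 : ∀ t, |g'' t| ≤ 1) (x v : ℝ) :
    |g (x + v) - g x - g' x * v| ≤ v ^ 2 := by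
  have hl : ∀ t, |g' t - g' x| ≤ |t - x| := by
    intro t
    have := convex_univ.norm_image_sub_le_of_norm_hasDerivWithin_le (f := g') (f' := g'')
      (C := 1) (fun t _ => (h2 t).hasDerivWithinAt) (fun t _ => b2 t) (Set.mem_univ x)
      (Set.mem_univ t)
    simpa using this
  have := (convex_uIcc x (x + v)).norm_image_sub_le_of_norm_hasDerivWithin_le
    (f := fun t => g t - g' x * t) (f' := fun t => g' t - g' x * 1) (C := |v|)
    (fun t _ => ((h1 t).sub ((hasDerivAt_id t).const_mul _)).hasDerivWithinAt)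
    (fun t ht => by
      rw [mul_one]
      refine (hl t).trans ?_
      have := Set.abs_sub_left_of_mem_uIcc ht
      simpa using this)
    Set.left_mem_uIcc Set.right_mem_uIcc
  simp only [Real.norm_eq_abs, add_sub_cancel_left] at this
  rw [← sq_abs, sq]
  convert this using 2
  ring

lemma qr_sigmoid {e : E} (he : e ∈ S) (c : ℝ) : QR S 1 (fun x => Real.sigmoid (x e - c)) := by
  have hs0 : ∀ t, 0 < Real.sigmoid t := Real.sigmoid_pos
  have hs1 : ∀ t, Real.sigmoid t < 1 := Real.sigmoid_lt_one
  have b1 : ∀ t, |Real.sigmoid t * (1 - Real.sigmoid t)| ≤ 1 := by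
    intro t
    have := hs0 t; have := hs1 t
    rw [abs_le]; constructor <;> nlinarith
  have h2 : ∀ t, HasDerivAt (fun t => Real.sigmoid t * (1 - Real.sigmoid t))
      (Real.sigmoid t * (1 - Real.sigmoid t) * (1 - 2 * Real.sigmoid t)) t := by
    intro t
    have := (Real.hasDerivAt_sigmoid t).fun_mul ((Real.hasDerivAt_sigmoid t).const_sub 1)
    exact this.congr_deriv (by ring)
  have b2 : ∀ t, |Real.sigmoid t * (1 - Real.sigmoid t) * (1 - 2 * Real.sigmoid t)| ≤ 1 := by
    intro t
    rw [abs_mul]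
    refine mul_le_one₀ (b1 t) (abs_nonneg _) ?_
    have := hs0 t; have := hs1 t
    rw [abs_le]; constructor <;> linarith
  refine ⟨zero_le_one, continuous_sigmoid.measurable.comp (by fun_prop), fun x => ?_,
    fun x v => ?_, fun x => ?_⟩
  · rw [abs_of_pos (hs0 _)]; exact (hs1 _).le
  · have := convex_univ.norm_image_sub_le_of_norm_hasDerivWithin_le (f := Real.sigmoid)
      (C := 1) (fun t _ => (Real.hasDerivAt_sigmoid t).hasDerivWithinAt) (fun t _ => b1 t)
      (Set.mem_univ (x e - c)) (Set.mem_univ ((x + v) e - c))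
    simp only [Real.norm_eq_abs, Pi.add_apply, one_mul] at this ⊢
    refine this.trans ?_
    have e1 : x e + v e - c - (x e - c) = v e := by ring
    rw [e1]; exact abs_le_nS v he
  · refine ⟨fun f => one {e} f * (Real.sigmoid (x e - c) * (1 - Real.sigmoid (x e - c))),
      fun f => ?_, fun v => ?_⟩
    · rw [abs_mul]; exact mul_le_one₀ (abs_one_le _ _) (abs_nonneg _) (b1 _)
    · simp only [mul_assoc]
      rw [sum_one_mul (singleton_subset_iff.2 he), sum_singleton, one_mul]
      have := taylor_one Real.hasDerivAt_sigmoid h2 b2 (x e - c) (v e)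
      have e1 : (x + v) e - c = x e - c + v e := by simp only [Pi.add_apply]; ring
      rw [e1, ← mul_assoc]
      refine this.trans ?_
      rw [← sq_abs]
      exact pow_le_pow_left₀ (abs_nonneg _) (abs_le_nS v he) 2

/-- The tilt at time `u`. -/
noncomputable def th (u : ℝ) (x : E → ℝ) : E → ℝ := fun f => u * x f - u ^ 2 / 2

/-- The velocity field. -/
noncomputable def vel (S : Finset E) (p : Finset E → ℝ) (u : ℝ) (x : E → ℝ) (e : E) : ℝ :=
  mt S p (th u x) e

lemma th_add (u : ℝ) (x v : E → ℝ) : th u (x + v) = th u x + fun f => u * v f := by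
  ext f; simp only [th, Pi.add_apply]; ring

lemma nS_smul (u : ℝ) (hu : 0 ≤ u) (v : E → ℝ) : nS S (fun f => u * v f) = u * nS S v := by
  simp only [nS, abs_mul, abs_of_nonneg hu, mul_sum]

lemma vel_lip (hl : Lip S p) {u : ℝ} (hu : 0 ≤ u) (x v : E → ℝ) (e : E) :
    |vel S p u (x + v) e - vel S p u x e| ≤ 2 * u * nS S v := by
  rw [mul_assoc]
  refine hl e _ _ _ (mul_nonneg hu (nS_nonneg S v)) fun f hf => ?_
  rw [th_add]
  simp only [Pi.add_apply, add_sub_cancel_left, abs_mul, abs_of_nonneg hu]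
  exact mul_le_mul_of_nonneg_left (abs_le_nS v hf) hu

lemma vel_rem (hp : PV S p) {u : ℝ} (hu : 0 ≤ u) (x v : E → ℝ) (e : E) :
    |vel S p u (x + v) e - vel S p u x e - ∑ f ∈ S, cov S p (th u x) e f * (u * v f)|
      ≤ 20 * (u * nS S v) ^ 2 := by
  have := mt_rem hp (th u x) (fun f => u * v f) e
  rwa [nS_smul u hu, ← th_add] at this

lemma measurable_vel {Ω : Type*} [MeasurableSpace Ω] (S : Finset E) {P : Ω → Finset E → ℝ}
    (hP : ∀ A, Measurable fun ω => P ω A) (u : ℝ) {x : Ω → E → ℝ}
    (hx : ∀ f, Measurable fun ω => x ω f) (e : E) :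
    Measurable fun ω => vel S (P ω) u (x ω) e :=
  measurable_mt S hP (fun f => ((hx f).const_mul u).sub_const _) e

lemma qr_vel (hp : PV S p) (hl : Lip S p) {u T : ℝ} (hu : 0 ≤ u) (huT : u ≤ T) (e : E) :
    QR S (20 * (1 + T) ^ 2) (fun x => vel S p u x e) where
  nonneg := by positivity
  meas := measurable_vel S (P := fun _ => p) (fun _ => measurable_const) u
    (fun f => measurable_pi_apply f) e
  bdd x := abs_mt_le hp _ _
  lip x v := (vel_lip hl hu x v e).trans
    (mul_le_mul_of_nonneg_right (by nlinarith) (nS_nonneg S v))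
  rem x := by
    refine ⟨fun f => cov S p (th u x) e f * u, fun f => ?_, fun v => ?_⟩
    · rw [abs_mul, abs_of_nonneg hu]
      have := mul_le_mul_of_nonneg_right (abs_cov_le hp (th u x) e f) hu
      nlinarith
    · simp only [mul_assoc]
      refine (vel_rem hp hu x v e).trans ?_
      rw [mul_pow]
      have : u ^ 2 ≤ (1 + T) ^ 2 := pow_le_pow_left₀ hu (by linarith) 2
      have := mul_le_mul_of_nonneg_right this (sq_nonneg (nS S v))
      linarith

/-- One Euler step. -/
noncomputable def step (S : Finset E) (p : Finset E → ℝ) (h u : ℝ) (x : E → ℝ) : E → ℝ :=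
  fun f => x f + h * vel S p u x f

noncomputable def CS (S : Finset E) (T : ℝ) : ℝ := 20 * S.card * (1 + T) ^ 2

lemma CS_nonneg (S : Finset E) (T : ℝ) : 0 ≤ CS S T := by unfold CS; positivity

lemma measurable_step (S : Finset E) (p : Finset E → ℝ) (h u : ℝ) :
    Measurable (step S p h u) :=
  measurable_pi_lambda _ fun f => (measurable_pi_apply f).add
    ((measurable_vel S (P := fun _ => p) (fun _ => measurable_const) u
      (fun f => measurable_pi_apply f) f).const_mul h)

lemma QR.comp_step (hG : QR S K G) (hp : PV S p) (hl : Lip S p) {h u T : ℝ} (hh : 0 ≤ h)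
    (hu : 0 ≤ u) (huT : u ≤ T) :
    QR S (K * (1 + h * CS S T) ^ 3) (fun x => G (step S p h u x)) := by
  have hC := CS_nonneg S T
  have hK := hG.nonneg
  set a := 1 + h * CS S T with ha
  have ha1 : 1 ≤ a := by rw [ha]; nlinarith [mul_nonneg hh hC]
  have hc0 : (0 : ℝ) ≤ S.card := Nat.cast_nonneg _
  have hu1 : 2 * u ≤ 20 * (1 + T) ^ 2 := by nlinarith
  have hu2 : u ^ 2 ≤ (1 + T) ^ 2 := pow_le_pow_left₀ hu (by linarith) 2
  have hdiff : ∀ x v, step S p h u (x + v) = step S p h u x +
      fun f => v f + h * (vel S p u (x + v) f - vel S p u x f) := by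
    intro x v; ext f; simp only [step, Pi.add_apply]; ring
  have hn : ∀ x v, nS S (fun f => v f + h * (vel S p u (x + v) f - vel S p u x f))
      ≤ a * nS S v := by
    intro x v
    have hv := nS_nonneg S v
    calc _ ≤ ∑ f ∈ S, (|v f| + h * (2 * u * nS S v)) := sum_le_sum fun f _ => by
            refine (abs_add_le _ _).trans (add_le_add le_rfl ?_)
            rw [abs_mul, abs_of_nonneg hh]
            exact mul_le_mul_of_nonneg_left (vel_lip hl hu x v f) hh
      _ = nS S v + h * (S.card * (2 * u)) * nS S v := by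
            rw [sum_add_distrib, sum_const, nsmul_eq_mul, nS]; ring
      _ ≤ a * nS S v := by
            have : S.card * (2 * u) ≤ CS S T := by
              rw [CS]; nlinarith [mul_le_mul_of_nonneg_left hu1 hc0]
            have := mul_le_mul_of_nonneg_right (mul_le_mul_of_nonneg_left this hh) hv
            rw [ha]; linarith
  have ha3 : a ≤ a ^ 3 := le_self_pow₀ ha1 (by norm_num)
  refine ⟨by positivity, hG.meas.comp (measurable_step S p h u), fun x => hG.bdd _,
    fun x v => ?_, fun x => ?_⟩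
  · rw [hdiff]
    refine (hG.lip _ _).trans ?_
    rw [mul_assoc]
    refine mul_le_mul_of_nonneg_left ((hn x v).trans ?_) hK
    exact mul_le_mul_of_nonneg_right ha3 (nS_nonneg S v)
  · obtain ⟨D, h1, h2⟩ := hG.rem (step S p h u x)
    refine ⟨fun f => D f + h * u * ∑ g ∈ S, D g * cov S p (th u x) g f, fun f => ?_,
      fun v => ?_⟩
    · have b1 : |∑ g ∈ S, D g * cov S p (th u x) g f| ≤ S.card * K := by
        refine (abs_sum_le_sum_abs _ _).trans ?_
        rw [← nsmul_eq_mul, ← sum_const]
        refine sum_le_sum fun g _ => ?_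
        rw [abs_mul]
        calc _ ≤ K * 1 := mul_le_mul (h1 g) (abs_cov_le hp _ _ _) (abs_nonneg _) hK
          _ = K := mul_one _
      have b2 : |h * u * ∑ g ∈ S, D g * cov S p (th u x) g f| ≤ h * u * (S.card * K) := by
        rw [abs_mul, abs_of_nonneg (mul_nonneg hh hu)]
        exact mul_le_mul_of_nonneg_left b1 (mul_nonneg hh hu)
      have b3 : S.card * u ≤ CS S T := by
        rw [CS]; nlinarith [mul_le_mul_of_nonneg_left hu1 hc0, mul_nonneg hc0 hu]
      have b4 := mul_le_mul_of_nonneg_left (mul_le_mul_of_nonneg_left b3 hh) hK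
      refine (abs_add_le _ _).trans ?_
      calc _ ≤ K + h * u * (S.card * K) := add_le_add (h1 f) b2
        _ ≤ K * a := by rw [ha]; nlinarith
        _ ≤ K * a ^ 3 := mul_le_mul_of_nonneg_left ha3 hK
    · have hv := nS_nonneg S v
      have e0 : ∑ f ∈ S, (D f + h * u * ∑ g ∈ S, D g * cov S p (th u x) g f) * v f =
          ∑ g ∈ S, D g * (v g + h * ∑ f ∈ S, cov S p (th u x) g f * (u * v f)) := by
        simp only [add_mul, mul_add, sum_add_distrib, mul_sum, sum_mul]
        congr 1
        rw [sum_comm]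
        exact sum_congr rfl fun g _ => sum_congr rfl fun f _ => by ring
      have e1 : G (step S p h u (x + v)) - G (step S p h u x) -
          ∑ f ∈ S, (D f + h * u * ∑ g ∈ S, D g * cov S p (th u x) g f) * v f =
          (G (step S p h u (x + v)) - G (step S p h u x) -
            ∑ g ∈ S, D g * (v g + h * (vel S p u (x + v) g - vel S p u x g))) +
          ∑ g ∈ S, D g * (h * (vel S p u (x + v) g - vel S p u x g -
            ∑ f ∈ S, cov S p (th u x) g f * (u * v f))) := by
        rw [e0, sub_add, ← sum_sub_distrib]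
        congr 1
        exact sum_congr rfl fun g _ => by ring
      rw [e1]
      have b1 := h2 (fun f => v f + h * (vel S p u (x + v) f - vel S p u x f))
      rw [← hdiff] at b1
      have b2 : K * nS S (fun f => v f + h * (vel S p u (x + v) f - vel S p u x f)) ^ 2 ≤
          K * (a * nS S v) ^ 2 :=
        mul_le_mul_of_nonneg_left (pow_le_pow_left₀ (nS_nonneg _ _) (hn x v) 2) hK
      have b3 : |∑ g ∈ S, D g * (h * (vel S p u (x + v) g - vel S p u x g -
            ∑ f ∈ S, cov S p (th u x) g f * (u * v f)))| ≤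
          S.card * (K * (h * (20 * (u * nS S v) ^ 2))) := by
        refine (abs_sum_le_sum_abs _ _).trans ?_
        rw [← nsmul_eq_mul, ← sum_const]
        refine sum_le_sum fun g _ => ?_
        rw [abs_mul, abs_mul, abs_of_nonneg hh]
        exact mul_le_mul (h1 g) (mul_le_mul_of_nonneg_left (vel_rem hp hu x v g) hh)
          (by positivity) hK
      have b4 : S.card * (K * (h * (20 * (u * nS S v) ^ 2))) ≤
          K * (h * CS S T) * nS S v ^ 2 := by
        have : 20 * S.card * u ^ 2 ≤ CS S T := by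
          rw [CS]; exact mul_le_mul_of_nonneg_left hu2 (by positivity)
        have := mul_le_mul_of_nonneg_right (mul_le_mul_of_nonneg_left
          (mul_le_mul_of_nonneg_left this hh) hK) (sq_nonneg (nS S v))
        calc _ = K * (h * (20 * S.card * u ^ 2)) * nS S v ^ 2 := by ring
          _ ≤ _ := this
      have b5 : a ^ 2 + h * CS S T ≤ a ^ 3 := by
        have h1 : 1 ≤ a ^ 2 := one_le_pow₀ ha1
        have h2 := mul_le_mul_of_nonneg_left h1 (mul_nonneg hh hC)
        calc a ^ 2 + h * CS S T ≤ a ^ 2 + h * CS S T * a ^ 2 := by linarith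
          _ = a ^ 2 * (1 + h * CS S T) := by ring
          _ = a ^ 3 := by rw [← ha]; ring
      have b6 := mul_le_mul_of_nonneg_right (mul_le_mul_of_nonneg_left b5 hK)
        (sq_nonneg (nS S v))
      refine (abs_add_le _ _).trans ?_
      calc _ ≤ K * (a * nS S v) ^ 2 + K * (h * CS S T) * nS S v ^ 2 :=
            add_le_add (b1.trans b2) (b3.trans b4)
        _ = K * (a ^ 2 + h * CS S T) * nS S v ^ 2 := by ring
        _ ≤ _ := b6

lemma nS_le_card {v : E → ℝ} {c : ℝ} (hv : ∀ f ∈ S, |v f| ≤ c) : nS S v ≤ S.card * c := by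
  rw [← nsmul_eq_mul, ← sum_const]
  exact sum_le_sum hv

/-- The pointwise one-step error. -/
lemma QR.one_step (hG : QR S K G) (hp : PV S p) {h : ℝ} (hh : 0 ≤ h) (u : ℝ) (x : E → ℝ) :
    |Et S p (th u x) (fun A => G (fun f => x f + h * one A f) - G (step S p h u x))|
      ≤ 2 * K * (S.card * h) ^ 2 := by
  obtain ⟨D, -, h2⟩ := hG.rem x
  have b : ∀ w : E → ℝ, (∀ f, |w f| ≤ 1) →
      |G (fun f => x f + h * w f) - G x - ∑ f ∈ S, D f * (h * w f)| ≤ K * (S.card * h) ^ 2 := by
    intro w hw
    refine (h2 (fun f => h * w f)).trans (mul_le_mul_of_nonneg_left ?_ hG.nonneg)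
    refine pow_le_pow_left₀ (nS_nonneg _ _) (nS_le_card fun f _ => ?_) 2
    rw [abs_mul, abs_of_nonneg hh]
    exact mul_le_of_le_one_right hh (hw f)
  have e1 : Et S p (th u x) (fun A => ∑ f ∈ S, D f * (h * one A f)) =
      ∑ f ∈ S, D f * (h * vel S p u x f) := by
    rw [Et_sum]
    refine sum_congr rfl fun f _ => ?_
    rw [vel, mt, ← mul_assoc, mul_comm, ← Et_mul]
    exact Et_congr _ fun A _ => by ring
  have e2 : Et S p (th u x) (fun A => G (fun f => x f + h * one A f) - G (step S p h u x)) =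
      Et S p (th u x) (fun A => G (fun f => x f + h * one A f) - G x -
        ∑ f ∈ S, D f * (h * one A f)) -
      (G (step S p h u x) - G x - ∑ f ∈ S, D f * (h * vel S p u x f)) := by
    rw [Et_sub, Et_sub, Et_sub, e1, Et_const hp, Et_const hp]; ring
  rw [e2]
  refine (abs_sub _ _).trans ?_
  have c1 := abs_Et_le hp (th u x) (φ := fun A => G (fun f => x f + h * one A f) - G x -
        ∑ f ∈ S, D f * (h * one A f)) fun A _ => b (one A) (abs_one_le A)
  have c2 := b (vel S p u x) (fun f => abs_mt_le hp _ f)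
  calc _ ≤ K * (S.card * h) ^ 2 + K * (S.card * h) ^ 2 := add_le_add c1 c2
    _ = _ := by ring

end Vale.Agent.P143
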