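import Mathlib

/-! Exponential tilts of a probability vector on the subsets of a finite set. -/

namespace Vale.Agent.P143

open Finset
open scoped Classical

variable {E : Type*}

noncomputable def wt (p : Finset E → ℝ) (θ : E → ℝ) (A : Finset E) : ℝ :=
  p A * Real.exp (∑ f ∈ A, θ f)

noncomputable def Zt (S : Finset E) (p : Finset E → ℝ) (θ : E → ℝ) : ℝ :=
  ∑ A ∈ S.powerset, wt p θ A

noncomputable def Et (S : Finset E) (p : Finset E → ℝ) (θ : E → ℝ) (φ : Finset E → ℝ) : ℝ :=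
  (∑ A ∈ S.powerset, wt p θ A * φ A) / Zt S p θ

noncomputable def one (A : Finset E) : E → ℝ := fun f => if f ∈ A then 1 else 0

/-- The tilted mean. -/
noncomputable def mt (S : Finset E) (p : Finset E → ℝ) (θ : E → ℝ) (e : E) : ℝ :=
  Et S p θ (fun A => one A e)

structure PV (S : Finset E) (p : Finset E → ℝ) : Prop where
  nonneg : ∀ A, 0 ≤ p A
  sum_one : ∑ A ∈ S.powerset, p A = 1

noncomputable def nS (S : Finset E) (v : E → ℝ) : ℝ := ∑ f ∈ S, |v f|

lemma nS_nonneg (S : Finset E) (v : E → ℝ) : 0 ≤ nS S v := sum_nonneg fun _ _ => abs_nonneg _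

lemma abs_le_nS {S : Finset E} (v : E → ℝ) {f : E} (hf : f ∈ S) : |v f| ≤ nS S v :=
  single_le_sum (f := fun f => |v f|) (fun _ _ => abs_nonneg _) hf

lemma nS_mono {R S : Finset E} (h : R ⊆ S) (v : E → ℝ) : nS R v ≤ nS S v :=
  sum_le_sum_of_subset_of_nonneg h fun _ _ _ => abs_nonneg _

lemma one_nonneg (A : Finset E) (e : E) : 0 ≤ one A e := by unfold one; split_ifs <;> norm_num

lemma one_le_one (A : Finset E) (e : E) : one A e ≤ 1 := by unfold one; split_ifs <;> norm_num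

lemma abs_one_le (A : Finset E) (e : E) : |one A e| ≤ 1 := by
  rw [abs_of_nonneg (one_nonneg A e)]; exact one_le_one A e

variable {S : Finset E} {p : Finset E → ℝ}

lemma wt_nonneg (hp : PV S p) (θ : E → ℝ) (A : Finset E) : 0 ≤ wt p θ A :=
  mul_nonneg (hp.nonneg A) (Real.exp_pos _).le

lemma Zt_pos (hp : PV S p) (θ : E → ℝ) : 0 < Zt S p θ := by
  obtain ⟨A, hA, hA'⟩ : ∃ A ∈ S.powerset, p A ≠ 0 := by
    by_contra h
    push Not at h
    have := hp.sum_one
    rw [sum_eq_zero h] at this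
    exact zero_ne_one this
  exact sum_pos' (fun A _ => wt_nonneg hp θ A)
    ⟨A, hA, mul_pos (lt_of_le_of_ne (hp.nonneg A) hA'.symm) (Real.exp_pos _)⟩

lemma Et_const (hp : PV S p) (θ : E → ℝ) (c : ℝ) : Et S p θ (fun _ => c) = c := by
  rw [Et, ← sum_mul, ← Zt, mul_div_cancel_left₀ _ (Zt_pos hp θ).ne']

lemma Et_add (θ : E → ℝ) (φ ψ : Finset E → ℝ) :
    Et S p θ (fun A => φ A + ψ A) = Et S p θ φ + Et S p θ ψ := by
  simp only [Et, mul_add, sum_add_distrib, add_div]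

lemma Et_sub (θ : E → ℝ) (φ ψ : Finset E → ℝ) :
    Et S p θ (fun A => φ A - ψ A) = Et S p θ φ - Et S p θ ψ := by
  simp only [Et, mul_sub, sum_sub_distrib, sub_div]

lemma Et_mul (θ : E → ℝ) (c : ℝ) (φ : Finset E → ℝ) :
    Et S p θ (fun A => φ A * c) = Et S p θ φ * c := by
  simp only [Et, ← mul_assoc, ← sum_mul]; ring

lemma Et_sum {ι : Type*} (s : Finset ι) (θ : E → ℝ) (φ : ι → Finset E → ℝ) :
    Et S p θ (fun A => ∑ i ∈ s, φ i A) = ∑ i ∈ s, Et S p θ (φ i) := by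
  simp only [Et, mul_sum, ← sum_div]; rw [sum_comm]

lemma Et_congr (θ : E → ℝ) {φ ψ : Finset E → ℝ} (h : ∀ A ⊆ S, φ A = ψ A) :
    Et S p θ φ = Et S p θ ψ := by
  unfold Et
  rw [sum_congr rfl fun A hA => by rw [h A (mem_powerset.1 hA)]]

lemma Et_mono (hp : PV S p) (θ : E → ℝ) {φ ψ : Finset E → ℝ} (h : ∀ A ⊆ S, φ A ≤ ψ A) :
    Et S p θ φ ≤ Et S p θ ψ :=
  div_le_div_of_nonneg_right (sum_le_sum fun A hA =>
    mul_le_mul_of_nonneg_left (h A (mem_powerset.1 hA)) (wt_nonneg hp θ A)) (Zt_pos hp θ).le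

lemma abs_Et_le (hp : PV S p) (θ : E → ℝ) {φ : Finset E → ℝ} {c : ℝ}
    (h : ∀ A ⊆ S, |φ A| ≤ c) : |Et S p θ φ| ≤ c := by
  rw [abs_le]
  constructor
  · rw [← Et_const hp θ (-c)]; exact Et_mono hp θ fun A hA => (abs_le.1 (h A hA)).1
  · conv_rhs => rw [← Et_const hp θ c]
    exact Et_mono hp θ fun A hA => (abs_le.1 (h A hA)).2

lemma mt_nonneg (hp : PV S p) (θ : E → ℝ) (e : E) : 0 ≤ mt S p θ e := by
  rw [← Et_const hp θ 0]; exact Et_mono hp θ fun A _ => one_nonneg A e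

lemma mt_le_one (hp : PV S p) (θ : E → ℝ) (e : E) : mt S p θ e ≤ 1 := by
  conv_rhs => rw [← Et_const hp θ 1]
  exact Et_mono hp θ fun A _ => one_le_one A e

lemma abs_mt_le (hp : PV S p) (θ : E → ℝ) (e : E) : |mt S p θ e| ≤ 1 := by
  rw [abs_of_nonneg (mt_nonneg hp θ e)]; exact mt_le_one hp θ e

lemma Et_tilt (hp : PV S p) (θ v : E → ℝ) (φ : Finset E → ℝ) :
    Et S p (θ + v) φ = Et S p θ (fun A => Real.exp (∑ f ∈ A, v f) * φ A) /
      Et S p θ (fun A => Real.exp (∑ f ∈ A, v f)) := by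
  have h : ∀ A, wt p (θ + v) A = wt p θ A * Real.exp (∑ f ∈ A, v f) := by
    intro A
    simp only [wt, Pi.add_apply, sum_add_distrib, Real.exp_add, mul_assoc]
  have hZ := (Zt_pos hp θ).ne'
  rw [Et, Et, Et, div_div_div_cancel_right₀ hZ]
  simp only [Zt, h, mul_assoc]

noncomputable def cov (S : Finset E) (p : Finset E → ℝ) (θ : E → ℝ) (e f : E) : ℝ :=
  Et S p θ (fun A => one A e * one A f) - mt S p θ e * mt S p θ f

lemma abs_cov_le (hp : PV S p) (θ : E → ℝ) (e f : E) : |cov S p θ e f| ≤ 1 := by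
  have h1 : 0 ≤ Et S p θ (fun A => one A e * one A f) := by
    rw [← Et_const hp θ 0]
    exact Et_mono hp θ fun A _ => mul_nonneg (one_nonneg A e) (one_nonneg A f)
  have h2 : Et S p θ (fun A => one A e * one A f) ≤ 1 := by
    conv_rhs => rw [← Et_const hp θ 1]
    exact Et_mono hp θ fun A _ => mul_le_one₀ (one_le_one A e) (one_nonneg A f) (one_le_one A f)
  have h3 := mul_nonneg (mt_nonneg hp θ e) (mt_nonneg hp θ f)
  have h4 := mul_le_one₀ (mt_le_one hp θ e) (mt_nonneg hp θ f) (mt_le_one hp θ f)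
  rw [cov, abs_le]; constructor <;> linarith

lemma sum_one_mul {A : Finset E} (hA : A ⊆ S) (v : E → ℝ) :
    ∑ f ∈ S, one A f * v f = ∑ f ∈ A, v f := by
  simp only [one, ite_mul, one_mul, zero_mul, ← sum_filter, filter_mem_eq_inter,
    inter_eq_right.2 hA]

lemma abs_sum_le_nS {A : Finset E} (hA : A ⊆ S) (v : E → ℝ) : |∑ f ∈ A, v f| ≤ nS S v :=
  (abs_sum_le_sum_abs _ _).trans (nS_mono hA v)

lemma rem_aux {n M u w r1 r2 : ℝ} (hn : 0 ≤ n) (hn' : n ≤ 1 / 2) (hM0 : 0 ≤ M) (hM1 : M ≤ 1)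
    (hu : |u| ≤ n) (hw : |w| ≤ n) (h1 : |r1| ≤ n ^ 2) (h2 : |r2| ≤ n ^ 2)
    (hb : 1 / 4 ≤ 1 + w + r2) :
    |(M + u + r1) / (1 + w + r2) - M - (u - M * w)| ≤ 20 * n ^ 2 := by
  have hb0 : 0 < 1 + w + r2 := by linarith
  have hC : |u - M * w| ≤ 2 * n := by
    calc |u - M * w| ≤ |u| + |M * w| := abs_sub _ _
      _ ≤ n + 1 * n := by
          rw [abs_mul, abs_of_nonneg hM0]
          exact add_le_add hu (mul_le_mul hM1 hw (abs_nonneg _) zero_le_one)
      _ = 2 * n := by ring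
  have key : (M + u + r1) / (1 + w + r2) - M - (u - M * w) =
      (r1 - w * (u - M * w) - r2 * M - r2 * (u - M * w)) / (1 + w + r2) := by
    field_simp; ring
  rw [key, abs_div, abs_of_pos hb0, div_le_iff₀ hb0]
  have e1 : |w * (u - M * w)| ≤ n * (2 * n) := by
    rw [abs_mul]; exact mul_le_mul hw hC (abs_nonneg _) hn
  have e2 : |r2 * M| ≤ n ^ 2 * 1 := by
    rw [abs_mul, abs_of_nonneg hM0]; exact mul_le_mul h2 hM1 hM0 (sq_nonneg _)
  have e3 : |r2 * (u - M * w)| ≤ n ^ 2 * 1 := by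
    rw [abs_mul]; exact mul_le_mul h2 (by linarith) (abs_nonneg _) (sq_nonneg _)
  have e4 : |r1 - w * (u - M * w) - r2 * M - r2 * (u - M * w)| ≤ 5 * n ^ 2 := by
    have a1 := abs_sub (r1 - w * (u - M * w) - r2 * M) (r2 * (u - M * w))
    have a2 := abs_sub (r1 - w * (u - M * w)) (r2 * M)
    have a3 := abs_sub r1 (w * (u - M * w))
    nlinarith
  nlinarith [sq_nonneg n]

theorem mt_rem (hp : PV S p) (θ v : E → ℝ) (e : E) :
    |mt S p (θ + v) e - mt S p θ e - ∑ f ∈ S, cov S p θ e f * v f| ≤ 20 * nS S v ^ 2 := by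
  set n := nS S v with hn
  have hn0 : 0 ≤ n := nS_nonneg S v
  have hlin : ∑ f ∈ S, cov S p θ e f * v f = Et S p θ (fun A => (∑ f ∈ A, v f) * one A e) -
      mt S p θ e * Et S p θ (fun A => ∑ f ∈ A, v f) := by
    have a1 : Et S p θ (fun A => (∑ f ∈ A, v f) * one A e) =
        ∑ f ∈ S, Et S p θ (fun A => one A e * one A f) * v f := by
      simp only [← Et_mul]
      rw [← Et_sum]
      refine Et_congr θ fun A hA => ?_
      rw [← sum_one_mul hA, sum_mul]
      exact sum_congr rfl fun f _ => by ring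
    have a2 : Et S p θ (fun A => ∑ f ∈ A, v f) = ∑ f ∈ S, mt S p θ f * v f := by
      simp only [mt, ← Et_mul]
      rw [← Et_sum]
      exact Et_congr θ fun A hA => (sum_one_mul hA v).symm
    rw [a1, a2, mul_sum, ← sum_sub_distrib]
    exact sum_congr rfl fun f _ => by rw [cov]; ring
  have hu : |Et S p θ (fun A => (∑ f ∈ A, v f) * one A e)| ≤ n := by
    refine abs_Et_le hp θ fun A hA => ?_
    rw [abs_mul]
    calc _ ≤ n * 1 := mul_le_mul (abs_sum_le_nS hA v) (abs_one_le A e) (abs_nonneg _) hn0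
      _ = n := mul_one _
  have hw : |Et S p θ (fun A => ∑ f ∈ A, v f)| ≤ n :=
    abs_Et_le hp θ fun A hA => abs_sum_le_nS hA v
  have hM0 := mt_nonneg hp θ e
  have hM1 := mt_le_one hp θ e
  rw [hlin]
  by_cases hn' : n ≤ 1 / 2
  · have hr : ∀ A ⊆ S, |Real.exp (∑ f ∈ A, v f) - 1 - ∑ f ∈ A, v f| ≤ n ^ 2 := by
      intro A hA
      have h := abs_sum_le_nS hA v
      refine (Real.abs_exp_sub_one_sub_id_le (h.trans (by linarith))).trans ?_
      rw [← sq_abs]
      exact pow_le_pow_left₀ (abs_nonneg _) h 2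
    have h1 : |Et S p θ (fun A => (Real.exp (∑ f ∈ A, v f) - 1 - ∑ f ∈ A, v f) * one A e)|
        ≤ n ^ 2 := by
      refine abs_Et_le hp θ fun A hA => ?_
      rw [abs_mul]
      calc _ ≤ n ^ 2 * 1 := mul_le_mul (hr A hA) (abs_one_le A e) (abs_nonneg _) (sq_nonneg _)
        _ = n ^ 2 := mul_one _
    have h2 : |Et S p θ (fun A => Real.exp (∑ f ∈ A, v f) - 1 - ∑ f ∈ A, v f)| ≤ n ^ 2 :=
      abs_Et_le hp θ hr
    have e1 : Et S p θ (fun A => Real.exp (∑ f ∈ A, v f) * one A e) = mt S p θ e +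
        Et S p θ (fun A => (∑ f ∈ A, v f) * one A e) +
        Et S p θ (fun A => (Real.exp (∑ f ∈ A, v f) - 1 - ∑ f ∈ A, v f) * one A e) := by
      rw [mt, ← Et_add, ← Et_add]
      exact Et_congr θ fun A _ => by ring
    have e2 : Et S p θ (fun A => Real.exp (∑ f ∈ A, v f)) = 1 +
        Et S p θ (fun A => ∑ f ∈ A, v f) +
        Et S p θ (fun A => Real.exp (∑ f ∈ A, v f) - 1 - ∑ f ∈ A, v f) := by
      conv_rhs => rw [← Et_const hp θ 1]
      rw [← Et_add, ← Et_add]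
      exact Et_congr θ fun A _ => by rw [Et_const hp]; ring
    rw [mt, Et_tilt hp, e1, e2]
    refine rem_aux hn0 hn' hM0 hM1 hu hw h1 h2 ?_
    have := (abs_le.1 hw).1
    have := (abs_le.1 h2).1
    nlinarith
  · have h0 := mt_nonneg hp (θ + v) e
    have h1 := mt_le_one hp (θ + v) e
    have h2 : |mt S p θ e * Et S p θ (fun A => ∑ f ∈ A, v f)| ≤ 1 * n := by
      rw [abs_mul, abs_of_nonneg hM0]; exact mul_le_mul hM1 hw (abs_nonneg _) zero_le_one
    have h3 := abs_le.1 h2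
    have h4 := abs_le.1 hu
    push Not at hn'
    rw [abs_le]; constructor <;> nlinarith

/-- Sup-norm Lipschitz property of the tilted means. -/
def Lip (S : Finset E) (p : Finset E → ℝ) : Prop :=
  ∀ (e : E) (θ θ' : E → ℝ) (d : ℝ), 0 ≤ d → (∀ f ∈ S, |θ f - θ' f| ≤ d) →
    |mt S p θ e - mt S p θ' e| ≤ 2 * d

lemma measurable_mt {Ω : Type*} [MeasurableSpace Ω] (S : Finset E) {P : Ω → Finset E → ℝ}
    (hP : ∀ A, Measurable fun ω => P ω A) {θ : Ω → E → ℝ} (hθ : ∀ f, Measurable fun ω => θ ω f)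
    (e : E) : Measurable fun ω => mt S (P ω) (θ ω) e := by
  have hw : ∀ A, Measurable fun ω => wt (P ω) (θ ω) A := fun A =>
    (hP A).mul (Real.measurable_exp.comp (Finset.measurable_sum _ fun f _ => hθ f))
  unfold mt Et Zt
  exact (Finset.measurable_sum _ fun A _ => (hw A).mul measurable_const).div
    (Finset.measurable_sum _ fun A _ => hw A)

end Vale.Agent.P143
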